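import Mathlib
import Vale.Agent.P179.R2.H292.Rank

/-!
# The order of the inertial quotient divides `∏ (p ^ i - 1)`
-/

namespace P179H843

open Subgroup P179H292

section Aut

theorem card_addAut {p : ℕ} [hp : Fact p.Prime] {V : Type*} [AddCommGroup V] [Finite V]
    [Module (ZMod p) V] {r : ℕ} (hr : Nat.card V = p ^ r) :
    Nat.card (V ≃+ V) = ∏ i : Fin r, (p ^ r - p ^ (i : ℕ)) := by
  have hmf : Module.Finite (ZMod p) V := Module.Finite.of_finite
  have h1 : Nat.card V = p ^ Module.finrank (ZMod p) V := by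
    have h := Module.natCard_eq_pow_finrank (K := ZMod p) (V := V)
    rwa [Nat.card_zmod] at h
  have h2 : Module.finrank (ZMod p) V = r := by
    rw [h1] at hr
    exact Nat.pow_right_injective hp.out.two_le hr
  let e2 : (V ≃+ V) ≃ (V ≃ₗ[ZMod p] V) :=
    { toFun := fun f => { f with map_smul' := ZMod.map_smul f.toAddMonoidHom }
      invFun := fun f => f.toAddEquiv
      left_inv := fun f => rfl
      right_inv := fun f => rfl }
  let e : V ≃ₗ[ZMod p] (Fin r → ZMod p) :=
    (Module.finBasisOfFinrankEq (ZMod p) V h2).equivFun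
  let e3 : (V ≃ₗ[ZMod p] V) ≃ ((Fin r → ZMod p) ≃ₗ[ZMod p] (Fin r → ZMod p)) :=
    { toFun := fun f => (e.symm.trans f).trans e
      invFun := fun f => (e.trans f).trans e.symm
      left_inv := fun f => by
        apply LinearEquiv.ext
        intro x
        simp
      right_inv := fun f => by
        apply LinearEquiv.ext
        intro x
        simp }
  let e4 : ((Fin r → ZMod p) ≃ₗ[ZMod p] (Fin r → ZMod p)) ≃
      Matrix.GeneralLinearGroup (Fin r) (ZMod p) :=
    ((Matrix.GeneralLinearGroup.toLin (n := Fin r) (R := ZMod p)).trans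
      (LinearMap.GeneralLinearGroup.generalLinearEquiv (ZMod p) (Fin r → ZMod p))).symm.toEquiv
  rw [Nat.card_congr ((e2.trans e3).trans e4)]
  have h4 := Matrix.card_GL_field (𝔽 := ZMod p) r
  rw [ZMod.card] at h4
  exact h4

theorem card_mulAut {p : ℕ} [hp : Fact p.Prime] {A : Type*} [CommGroup A] [Finite A]
    (hA : ∀ x : A, x ^ p = 1) {r : ℕ} (hr : Nat.card A = p ^ r) :
    Nat.card (MulAut A) = ∏ i : Fin r, (p ^ r - p ^ (i : ℕ)) := by
  have hsmul : ∀ x : Additive A, p • x = 0 := fun x => congrArg Additive.ofMul (hA x.toMul)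
  let iM : Module (ZMod p) (Additive A) := AddCommGroup.zmodModule hsmul
  have hfin : Finite (Additive A) := inferInstanceAs (Finite A)
  have h1 := card_addAut (p := p) (V := Additive A) (r := r) hr
  rw [← h1]
  exact Nat.card_congr MulEquiv.toAdditive

theorem prod_eq (p r : ℕ) :
    ∏ i : Fin r, (p ^ r - p ^ (i : ℕ)) =
      p ^ (∑ i ∈ Finset.range r, i) * ∏ i ∈ Finset.range r, (p ^ (i + 1) - 1) := by
  rw [Fin.prod_univ_eq_prod_range (fun i => p ^ r - p ^ i) r, ← Finset.prod_pow_eq_pow_sum,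
    ← Finset.prod_range_reflect (fun i => p ^ (i + 1) - 1), ← Finset.prod_mul_distrib]
  refine Finset.prod_congr rfl fun i hi => ?_
  have hi' := Finset.mem_range.1 hi
  have h1 : r - 1 - i + 1 = r - i := by omega
  rw [h1, Nat.mul_sub, mul_one, ← pow_add]
  congr 2
  omega

end Aut

section

variable {G : Type*} [Group G] [Finite G] {D T : Subgroup G}

/-- **the index `[T : C_G(D)]` divides `∏_{i ≤ r} (p ^ i - 1)`**, `|Ω_1(D)| = p ^ r` -/
theorem relIndex_dvd_prod {p : ℕ} [hp : Fact p.Prime] (hD : IsPGroup p D)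
    (hab : ∀ a ∈ D, ∀ b ∈ D, a * b = b * a) (hTN : T ≤ normalizer (D : Set G))
    (hdiv : ¬ p ∣ (centralizer (D : Set G)).relIndex T) {r : ℕ}
    (hr : Nat.card {x : G // x ∈ D ∧ x ^ p = 1} = p ^ r) :
    (centralizer (D : Set G)).relIndex T ∣ ∏ i ∈ Finset.range r, (p ^ (i + 1) - 1) := by
  have hcomm : ∀ x y : omS hab p, x * y = y * x := fun x y => Subtype.ext (hab _ x.2.1 _ y.2.1)
  let iC : CommGroup (omS hab p) :=
    { (inferInstance : Group (omS hab p)) with mul_comm := hcomm }
  have hcard : Nat.card (omS hab p) = p ^ r := hr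
  have hTΩ : T ≤ normalizer ((omS hab p : Subgroup G) : Set G) := by
    intro t ht
    rw [mem_normalizer_iff]
    intro x
    have h1 := mem_normalizer_iff.1 (hTN ht) x
    have h2 : (t * x * t⁻¹) ^ p = 1 ↔ x ^ p = 1 := by
      rw [← MulAut.conj_apply, ← map_pow]
      exact EmbeddingLike.map_eq_one_iff
    exact ⟨fun h => ⟨h1.1 h.1, h2.2 h.2⟩, fun h => ⟨h1.2 h.1, h2.1 h.2⟩⟩
  let f : T →* MulAut (omS hab p) :=
    ((omS hab p).normalizerMonoidHom).comp (Subgroup.inclusion hTΩ)
  have hf : ∀ (t : T) (x : omS hab p), ((f t x : omS hab p) : G) = t * x * (t : G)⁻¹ :=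
    fun t x => rfl
  have hker : f.ker = (centralizer (D : Set G)).subgroupOf T := by
    ext t
    rw [MonoidHom.mem_ker, mem_subgroupOf]
    constructor
    · intro h
      have hCn : ((centralizer (D : Set G)).subgroupOf T).Normal := by
        refine ⟨fun c hc n => ?_⟩
        rw [mem_subgroupOf] at hc ⊢
        exact P179B.conj_mem_centralizer_of_mem_normalizer (hTN n.2) hc
      refine centralises_of_omega hab hD (hTN t.2) hdiv ?_ ?_
      · have h1 := ((centralizer (D : Set G)).subgroupOf T).pow_index_mem t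
        rw [mem_subgroupOf] at h1
        exact h1
      · intro x hx
        have h1 := hf t ⟨x, hx⟩
        rw [h] at h1
        exact h1.symm
    · intro h
      apply MulEquiv.ext
      intro x
      apply Subtype.ext
      rw [hf]
      have h1 := mem_centralizer_iff.1 h x x.2.1
      rw [← h1]
      change (x : G) * t * (t : G)⁻¹ = x
      group
  have h1 : (centralizer (D : Set G)).relIndex T = Nat.card f.range := by
    rw [← Subgroup.index_ker, hker]
    rfl
  have h2 : Nat.card f.range ∣ Nat.card (MulAut (omS hab p)) :=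
    Subgroup.card_subgroup_dvd_card _
  have hA : ∀ x : omS hab p, x ^ p = 1 := fun x => Subtype.ext x.2.2
  rw [← h1, card_mulAut (p := p) hA hcard, prod_eq p r] at h2
  refine Nat.Coprime.dvd_of_dvd_mul_left ?_ h2
  exact ((Nat.Prime.coprime_iff_not_dvd hp.out).2 hdiv).symm.pow_right _

theorem relIndex_le_prod {p : ℕ} [hp : Fact p.Prime] (hD : IsPGroup p D)
    (hab : ∀ a ∈ D, ∀ b ∈ D, a * b = b * a) (hTN : T ≤ normalizer (D : Set G))
    (hdiv : ¬ p ∣ (centralizer (D : Set G)).relIndex T) {r : ℕ}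
    (hr : Nat.card {x : G // x ∈ D ∧ x ^ p = 1} = p ^ r) :
    (centralizer (D : Set G)).relIndex T ≤ ∏ i ∈ Finset.range r, (p ^ (i + 1) - 1) := by
  refine Nat.le_of_dvd ?_ (relIndex_dvd_prod hD hab hTN hdiv hr)
  refine Finset.prod_pos fun i _ => ?_
  have h1 : 1 < p ^ (i + 1) := Nat.one_lt_pow (Nat.succ_ne_zero i) hp.out.one_lt
  omega

end

end P179H843
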