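import Vale.Agent.P179.H526.K7T
import Vale.Agent.P179.H526.Bridge

/-!
# (P7) for an exponent `m` congruent to `1` modulo `p`

The number of simple modules in a block with abelian defect groups is at most the number of its
`m`-rational characters, `m ≡ 1` modulo `p` a generator of the `p`-part of `1 + pℤ`; no bound on
the inertial index is needed.
-/

namespace P179Y

open Subgroup Finset P179H524 P179C P179A P179P

open P179X (IrrB Srat SameSec pp X4)

open scoped Classical

section Arith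

variable {p : ℕ} [hp : Fact p.Prime]

/-- (a) existence of the exponent -/
theorem exists_exp1 (hp2 : p ≠ 2) (n : ℕ) (hn : n ≠ 0) :
    ∃ m : ℕ, m.Coprime n ∧ m ≡ 1 [MOD ordCompl[p] n] ∧ m ≡ 1 [MOD p] ∧
      ∀ j : ℕ, j ≡ 1 [MOD p] → ∃ i : ℕ, m ^ i ≡ j [MOD ordProj[p] n] := by
  by_cases hpn : p ∣ n
  · obtain ⟨m, hmc, hm1, hgen⟩ := P179P.exists_exponent (p := p) hp2 n hn
    have hpm : ¬ p ∣ m := fun h => hp.out.one_lt.ne'
      (Nat.eq_one_of_dvd_coprimes hmc h hpn)
    have hfer : m ^ (p - 1) ≡ 1 [MOD p] := by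
      have h1 := Nat.ModEq.pow_totient ((Nat.Prime.coprime_iff_not_dvd hp.out).2 hpm).symm
      rwa [Nat.totient_prime hp.out] at h1
    have hpP : p ∣ ordProj[p] n := by
      have h9 : 1 ≤ n.factorization p :=
        (hp.out.pow_dvd_iff_le_factorization hn).1 (by rwa [pow_one])
      exact dvd_pow_self p (by omega)
    refine ⟨m ^ (p - 1), Nat.Coprime.pow_left _ hmc, ?_, hfer, ?_⟩
    · have := hm1.pow (p - 1)
      rwa [one_pow] at this
    · intro j hj
      have hpj : ¬ p ∣ j := by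
        intro h
        have h2 : (0 : ℕ) ≡ 1 [MOD p] := ((Nat.modEq_zero_iff_dvd.2 h).symm).trans hj
        have h3 := (Nat.modEq_iff_dvd.1 h2)
        have h4 : (p : ℤ) ∣ 1 := by simpa using h3
        exact hp.out.one_lt.ne' (by exact_mod_cast Int.eq_one_of_dvd_one (by positivity) h4)
      obtain ⟨i, hi⟩ := hgen j hpj
      have hi1 : m ^ i ≡ 1 [MOD p] := (hi.of_dvd hpP).trans hj
      have hdvd : (p - 1) ∣ i := by
        rw [Nat.dvd_iff_mod_eq_zero]
        by_contra hr
        have hr0 : 0 < i % (p - 1) := Nat.pos_of_ne_zero hr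
        have hrlt : i % (p - 1) < p - 1 := Nat.mod_lt _ (by have := hp.out.two_le; omega)
        have h5 : m ^ (i % (p - 1)) ≡ 1 [MOD p] := by
          have h6 : m ^ i = (m ^ (p - 1)) ^ (i / (p - 1)) * m ^ (i % (p - 1)) := by
            rw [← pow_mul, ← pow_add, Nat.div_add_mod]
          rw [h6] at hi1
          have h7 := (hfer.pow (i / (p - 1))).mul_right (m ^ (i % (p - 1)))
          rw [one_pow, one_mul] at h7
          exact h7.symm.trans hi1
        have h8 := le_of_pow_modEq_one (p := p) hr0 h5 (fun j hj => by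
          obtain ⟨i, hi⟩ := hgen j hj
          exact ⟨i, hi.of_dvd hpP⟩)
        omega
      obtain ⟨c, rfl⟩ := hdvd
      exact ⟨c, by rw [← pow_mul]; exact hi⟩
  · refine ⟨1, Nat.coprime_one_left n, Nat.ModEq.refl 1, Nat.ModEq.refl 1, fun j _ => ⟨0, ?_⟩⟩
    have h0 : n.factorization p = 0 := Nat.factorization_eq_zero_of_not_dvd hpn
    rw [h0, pow_zero]
    exact Nat.modEq_one

end Arith

section Fusion

variable {p : ℕ} [hp : Fact p.Prime] {G : Type*} [Group G] [Finite G]

omit [Finite G] in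
/-- an element of `T` inducing `v ↦ v^m`, `m ≡ 1` modulo `p`, fixes `v` -/
theorem power_fusion {D T : Subgroup G} (hT : T ≤ normalizer (D : Set G))
    (he : ¬ p ∣ (centralizer (D : Set G)).relIndex T) {m : ℕ} (hmp : m ≡ 1 [MOD p])
    {n v : G} (hn : n ∈ T) (hvD : v ∈ D)
    (hvp : ∃ a : ℕ, v ^ p ^ a = 1) (hnv : n * v * n⁻¹ = v ^ m) : v ^ m = v := by
  have hpow : ∀ i : ℕ, n ^ i * v * (n ^ i)⁻¹ = v ^ m ^ i := by
    intro i
    induction i with
    | zero => simp
    | succ i ih =>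
      have h1 : n ^ (i + 1) * v * (n ^ (i + 1))⁻¹ = n * (n ^ i * v * (n ^ i)⁻¹) * n⁻¹ := by
        rw [pow_succ']; group
      rw [h1, ih, ← conj_pow, hnv, ← pow_mul, ← pow_succ']
  let C' : Subgroup T := (centralizer (D : Set G)).subgroupOf T
  have hC'n : C'.Normal := by
    refine ⟨fun c hc x => ?_⟩
    rw [mem_subgroupOf] at hc ⊢
    exact conj_mem_centralizer (hT x.2) hc
  have hcard : Nat.card (T ⧸ C') = (centralizer (D : Set G)).relIndex T := rfl
  set e := (centralizer (D : Set G)).relIndex T with hee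
  have h3 : (QuotientGroup.mk' C' (⟨n, hn⟩ : T)) ^ e = 1 := by
    rw [← hcard]; exact pow_card_eq_one'
  rw [← map_pow] at h3
  have h4 : (⟨n, hn⟩ : T) ^ e ∈ C' := (QuotientGroup.eq_one_iff _).1 h3
  rw [mem_subgroupOf, mem_centralizer_iff] at h4
  have h5 := h4 v hvD
  have h6 : v ^ m ^ e = v := by
    rw [← hpow, mul_inv_eq_iff_eq_mul]
    exact h5.symm
  have h7 : m ^ e ≡ 1 [MOD orderOf v] := by
    rw [← pow_eq_pow_iff_modEq, h6, pow_one]
  obtain ⟨a, ha⟩ := hvp
  obtain ⟨b, -, hb⟩ := (Nat.dvd_prime_pow hp.out).1 (orderOf_dvd_of_pow_eq_one ha)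
  suffices h8 : m ≡ 1 [MOD orderOf v] by
    have h9 := pow_eq_pow_iff_modEq.2 h8
    rwa [pow_one] at h9
  rw [hb] at h7 ⊢
  -- `m^e - 1 = (m - 1)(1 + m + ⋯ + m^(e-1))`
  have h10 : ((p ^ b : ℕ) : ℤ) ∣ (m : ℤ) ^ e - 1 := by
    have := (Nat.modEq_iff_dvd.1 h7.symm)
    push_cast at this ⊢
    exact this
  rw [← geom_sum_mul] at h10
  have h11 : ¬ (p : ℤ) ∣ ∑ i ∈ range e, (m : ℤ) ^ i := by
    intro h
    have hmp' : (m : ℤ) ≡ 1 [ZMOD p] := by
      have := (Int.natCast_modEq_iff).2 hmp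
      simpa using this
    have h12 : ∑ i ∈ range e, (m : ℤ) ^ i ≡ e [ZMOD p] := by
      have h13 : ∀ i ∈ range e, (m : ℤ) ^ i ≡ 1 [ZMOD p] := fun i _ => by
        have := hmp'.pow i
        rwa [one_pow] at this
      have h14 : ∑ i ∈ range e, (m : ℤ) ^ i ≡ ∑ i ∈ range e, (1 : ℤ) [ZMOD p] := by
        refine Int.ModEq.sum h13
      simpa using h14
    have h15 : (p : ℤ) ∣ e := (Int.modEq_zero_iff_dvd).1
      (h12.symm.trans ((Int.modEq_zero_iff_dvd).2 h))
    exact he (by exact_mod_cast h15)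
  have h16 : IsCoprime (((p ^ b : ℕ) : ℤ)) (∑ i ∈ range e, (m : ℤ) ^ i) := by
    push_cast
    refine IsCoprime.pow_left ?_
    exact (Nat.prime_iff_prime_int.1 hp.out).coprime_iff_not_dvd.2 h11
  have h17 := h16.dvd_of_dvd_mul_left h10
  refine Nat.ModEq.symm ((Nat.modEq_iff_dvd).2 ?_)
  push_cast at h17 ⊢
  exact h17

end Fusion

section K7

variable {p : ℕ} [hp : Fact p.Prime] {k : Type*} [Field k] [CharP k p] [IsAlgClosed k]
  (red : AA →+* k) {G : Type} [Group G] [Fintype G]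

/-- (K7) for the elements with `u ^ m ≠ u` -/
def K7Pm (p : ℕ) {k : Type*} [Field k] (red : AA →+* k) {G : Type*} [Group G] [Finite G]
    (l : (G → k) → k) (m : ℕ) : Prop :=
  ∀ u : G, (∃ n : ℕ, u ^ p ^ n = 1) → u ^ m ≠ u → ∀ h : G, h * u * h⁻¹ = u ^ m →
    ∀ H : Subgroup G, (∀ x, x ∈ H ↔ x * u = u * x) → ∀ ψ : Irr H, IndL red H l ψ.1 →
    ∃ z : G → k, InvOn H z ∧
      lam red ψ.1 (fun x : H => z x) ≠ lam red ψ.1 (fun x : H => z (h * x * h⁻¹))

/-- (K7), for functionals -/
theorem K7m' {D : Subgroup G} {l : (G → k) → k} (hl : BP p D l) (hD : IsPGroup p D)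
    (hDab : ∀ a ∈ D, ∀ b ∈ D, a * b = b * a)
    (hT : ¬ p ∣ (centralizer (D : Set G)).relIndex (stabT D l)) {m : ℕ}
    (hm : m.Coprime (Nat.card G)) (hmp : m ≡ 1 [MOD p])
    {u : G} (hu : ∃ n : ℕ, u ^ p ^ n = 1) (hu1 : u ^ m ≠ u) {h : G} (hh : h * u * h⁻¹ = u ^ m)
    {H : Subgroup G} (hH : ∀ x, x ∈ H ↔ x * u = u * x) {μ : (H → k) → k} (hμ : IsHomCF μ)
    (hμl : ∀ z : G → k, IsCF z → μ (fun x : H => z x) = l z) :
    ∃ z : G → k, InvOn H z ∧ μ (fun x : H => z x) ≠ μ (fun x : H => z (h * x * h⁻¹)) := by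
  by_contra hcon
  push Not at hcon
  have hhH : ∀ x : G, x ∈ H → h * x * h⁻¹ ∈ H := by
    intro x hx
    rw [hH] at hx ⊢
    have h1 : (h * x * h⁻¹) * u ^ m = u ^ m * (h * x * h⁻¹) := by
      rw [← hh]
      calc h * x * h⁻¹ * (h * u * h⁻¹) = h * (x * u) * h⁻¹ := by group
        _ = h * (u * x) * h⁻¹ := by rw [hx]
        _ = _ := by group
    obtain ⟨r, hr⟩ : ∃ r : ℕ, (u ^ m) ^ r = u := by
      have h3 : Nat.Coprime m (orderOf u) := hm.coprime_dvd_right (orderOf_dvd_natCard u)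
      obtain ⟨r, hr⟩ := exists_pow_eq_self_of_coprime h3
      exact ⟨r, hr⟩
    have h4 : Commute (h * x * h⁻¹) ((u ^ m) ^ r) := Commute.pow_right h1 r
    rw [hr] at h4
    exact h4
  have huH : u ∈ H := (hH u).2 rfl
  obtain ⟨R, l', hR, hl', hμl', hcen⟩ := exists_BP (p := p) hμ
  have huR : (⟨u, huH⟩ : H) ∈ R := by
    refine hcen _ ?_ ?_
    · rw [Subgroup.mem_center_iff]
      intro g
      exact Subtype.ext ((hH g).1 g.2)
    · obtain ⟨n, hn⟩ := hu
      exact ⟨n, Subtype.ext hn⟩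
  set R' : Subgroup G := R.map H.subtype with hR'
  have hRR : R'.subgroupOf H = R := comap_map_eq_self_of_injective H.subtype_injective R
  have hR'H : R' ≤ H := by
    rintro _ ⟨x, -, rfl⟩
    exact x.2
  have huR' : u ∈ R' := ⟨_, huR, rfl⟩
  have hCH : centralizer (R' : Set G) ≤ H := by
    intro x hx
    rw [hH]
    exact (mem_centralizer_iff.1 hx u huR').symm
  have hl'' : BP p (R'.subgroupOf H) l' := by rw [hRR]; exact hl'
  have hl2 := BP.extend hR'H hCH hl''
  set l2 : (G → k) → k := fun a : G → k => l' (fun h : H => a h) with hl2def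
  have hll : ∀ z : G → k, IsCF z → l2 z = l z := by
    intro z hz
    change l' (fun h : H => z h) = l z
    rw [← hμl z hz]
    exact hμl' _ (fun g x => hz g x)
  have hR'p : IsPGroup p R' := hR.map _
  obtain ⟨g, hg, hgl⟩ := FDc hl hD hDab hT hl2 hR'p hll
  have hab : D ≤ centralizer (D : Set G) := by
    intro x hx
    rw [mem_centralizer_iff]
    intro y hy
    exact hDab y hy x hx
  obtain ⟨y, hy, hyD, hly⟩ := exists_Y hl hD hab hT
  have hRab' : ∀ a ∈ R', ∀ b ∈ R', a * b = b * a := by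
    intro a ha b hb
    have h7 := hDab _ ((hg _).1 ha) _ ((hg _).1 hb)
    have h8 : g⁻¹ * (a : G) * g * (g⁻¹ * b * g) = g⁻¹ * ((a : G) * b) * g := by group
    have h9 : g⁻¹ * (b : G) * g * (g⁻¹ * a * g) = g⁻¹ * ((b : G) * a) * g := by group
    rw [h8, h9] at h7
    exact mul_left_cancel (mul_right_cancel h7)
  have habR : R' ≤ centralizer (R' : Set G) := by
    intro x hx
    rw [mem_centralizer_iff]
    intro y hy
    exact hRab' y hy x hx
  have hT2 : ¬ p ∣ (centralizer (R' : Set G)).relIndex (stabT R' l2) :=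
    stab_index_coprime hl2 hR'p hDab hy hyD (by rw [hll y hy]; exact hly)
  -- the element of the inertial group
  obtain ⟨c, hc, hn⟩ := fusionH hl2 hR'p habR hR'H hCH
    (fun hd => hT2 (hd.trans (relIndex_stabT_lres_dvd hR'H hCH))) (g := h)
    (fun d hd => hhH d (hR'H hd)) (by
      intro z hz
      have h1 := hcon z hz
      have hcf : IsCF (fun x : H => z x) := fun t x => hz.1 t t.2 x
      have hcf2 : IsCF (fun x : H => z (h * x * h⁻¹)) := by
        intro t x
        have h1 := hz.1 (h * t * h⁻¹) (hhH t t.2) (h * x * h⁻¹)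
        change z (h * ((t : G) * x * (t : G)⁻¹) * h⁻¹) = z (h * x * h⁻¹)
        rw [← h1]
        congr 1
        group
      rw [← hμl' _ hcf, ← hμl' _ hcf2] at h1
      rw [hl2def]
      change l' (fun x : H => cj h⁻¹ z x) = l' (fun x : H => z x)
      rw [h1]
      congr 1
      funext x
      unfold cj
      rw [inv_inv])
  -- transport to `D`
  set n : G := g⁻¹ * (c⁻¹ * h) * g with hndef
  have hnT : n ∈ stabT D l := by
    rw [mem_stabT] at hn ⊢
    have hnD : n ∈ normalizer (D : Set G) := by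
      rw [mem_normalizer_iff]
      intro x
      have h1 : ∀ x, x ∈ D ↔ g * x * g⁻¹ ∈ R' := by
        intro x
        rw [hg]
        have : g⁻¹ * (g * x * g⁻¹) * g = x := by group
        rw [this]
      change x ∈ D ↔ n * x * n⁻¹ ∈ D
      rw [h1, h1]
      have h2 := mem_normalizer_iff.1 hn.1 (g * x * g⁻¹)
      have h3 : g * (n * x * n⁻¹) * g⁻¹ = c⁻¹ * h * (g * x * g⁻¹) * (c⁻¹ * h)⁻¹ := by
        rw [hndef]; group
      rw [h3]
      exact h2
    refine ⟨hnD, fun z hz => ?_⟩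
    have h1 := hn.2 _ (hz.cjG hg)
    rw [← hgl z hz, ← hgl _ (hz.cj hnD), ← cj_mul, hndef]
    rw [← cj_mul] at h1
    rw [← h1]
    congr 2
    group
  have hvD : g⁻¹ * u * g ∈ D := (hg u).1 huR'
  have hpw : ∀ i : ℕ, (g⁻¹ * u * g) ^ i = g⁻¹ * u ^ i * g := by
    intro i
    have := conj_pow (i := i) (a := g⁻¹) (b := u)
    rwa [inv_inv] at this
  suffices hvm : (g⁻¹ * u * g) ^ m = g⁻¹ * u * g by
    rw [hpw] at hvm
    exact hu1 (mul_left_cancel (mul_right_cancel hvm))
  refine power_fusion (stabT_le_norm D l) hT hmp hnT hvD ?_ (m := m) ?_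
  · obtain ⟨a, ha⟩ := hu
    refine ⟨a, ?_⟩
    have h1 : (g⁻¹ * u * g) ^ p ^ a = g⁻¹ * u ^ p ^ a * g := by
      have := conj_pow (i := p ^ a) (a := g⁻¹) (b := u)
      rwa [inv_inv] at this
    rw [h1, ha]; group
  · have h1 : (g⁻¹ * u * g) ^ m = g⁻¹ * u ^ m * g := by
      have := conj_pow (i := m) (a := g⁻¹) (b := u)
      rwa [inv_inv] at this
    have h2 : c * u ^ m = u ^ m * c := by
      have : Commute c u := (hH c).1 hc
      exact this.pow_right m
    rw [h1, hndef]
    calc g⁻¹ * (c⁻¹ * h) * g * (g⁻¹ * u * g) * (g⁻¹ * (c⁻¹ * h) * g)⁻¹ =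
        g⁻¹ * (c⁻¹ * (h * u * h⁻¹) * c) * g := by group
      _ = g⁻¹ * (c⁻¹ * (u ^ m * c)) * g := by rw [hh]; group
      _ = g⁻¹ * u ^ m * g := by rw [← h2]; group

/-- (b) -/
theorem K7m {D : Subgroup G} {l : (G → k) → k} (hl : BP p D l) (hD : IsPGroup p D)
    (hDab : ∀ a ∈ D, ∀ b ∈ D, a * b = b * a)
    (hT : ¬ p ∣ (centralizer (D : Set G)).relIndex (stabT D l)) {m : ℕ}
    (hm : m.Coprime (Nat.card G)) (hmp : m ≡ 1 [MOD p]) : K7Pm p red l m := by
  intro u hu hu1 h hh H hH ψ hψ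
  exact K7m' hl hD hDab hT hm hmp hu hu1 hh hH (isHomCF_lam red ψ) hψ

end K7

section

variable {k : Type*} [Field k] (p : ℕ) [hp : Fact p.Prime] [CharP k p] (red : AA →+* k)

variable {p}

/-- **(P7)** -/
theorem P7m [IsAlgClosed k] {G : Type} [Group G] [Fintype G] {B : MonoidAlgebra k G}
    (hB : IsBlock B) (l : (G → k) → k)
    (hl : ∀ χ : Irr G, InL red l χ.1 ↔ CharInBlock red χ.1 B) (m : ℕ)
    (hm : m.Coprime (Nat.card G)) (hm1 : m ≡ 1 [MOD ordCompl[p] (Nat.card G)])
    (h1 : ∀ χ ∈ IrrB red B, (fun g => χ (g ^ m)) ∈ IrrB red B)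
    (hK : K7Pm p red l m) :
    numSimpleIn B ≤ (Srat red m B).card := by
  have hG : (Fintype.card G : ℂ) ≠ 0 := by exact_mod_cast Fintype.card_ne_zero
  have h2 : ∀ x y : G, ¬ SameSec p x y → ∑ χ ∈ IrrB red B, χ x * χ y⁻¹ = 0 :=
    fun x y hxy => sec_orth p red B x y hxy
  obtain ⟨r, hr, hr2⟩ := P179P.N3 p red hB h2
  suffices h : r ≤ (Srat red m B).card from hr.trans h
  have e1 : ∑ χ ∈ IrrB red B, ∑ g : G, χ (g ^ m) * χ g⁻¹ =
      ((Srat red m B).card : ℂ) * Fintype.card G := by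
    have e2 : ∀ χ ∈ IrrB red B, ∑ g : G, χ (g ^ m) * χ g⁻¹ =
        if (∀ g, χ (g ^ m) = χ g) then (Fintype.card G : ℂ) else 0 := by
      intro χ hχ
      have e3 := irrChar_inner (isIrr_of_mem_IrrB (h1 χ hχ)) (isIrr_of_mem_IrrB hχ)
      beta_reduce at e3
      rw [e3]
      by_cases h : ∀ g, χ (g ^ m) = χ g
      · rw [if_pos h, if_pos (funext h)]
      · rw [if_neg h, if_neg (fun h' => h (congrFun h'))]
    have e0 : Srat red m B = (IrrB red B).filter (fun χ => ∀ g, χ (g ^ m) = χ g) := by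
      ext χ
      simp only [P179X.Srat, mem_filter]
    rw [Finset.sum_congr rfl e2, ← Finset.sum_filter, Finset.sum_const, nsmul_eq_mul, e0]
  rw [Finset.sum_comm] at e1
  -- the section of `u`
  set F : G → ℂ := fun g => ∑ χ ∈ IrrB red B, χ (g ^ m) * χ g⁻¹ with hF
  have hFl : ∀ g : G, F g = ∑ χ : Irr G,
      (if InL red l χ.1 then χ.1 (g ^ m) * χ.1 g⁻¹ else 0) := by
    intro g
    simp only [hF]
    rw [sum_IrrB red B (fun χ => χ (g ^ m) * χ g⁻¹)]
    exact Finset.sum_congr rfl fun χ _ => if_congr (hl χ).symm rfl rfl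
  have hsec : ∀ u : G, u ^ m ≠ u → ∑ g ∈ univ.filter (fun g : G => pp p g = u), F g = 0 := by
    intro u hu1
    by_cases hup : ∃ n : ℕ, u ^ p ^ n = 1
    · by_cases hc : IsConj u (u ^ m)
      · obtain ⟨h, hh⟩ := isConj_iff.1 hc
        have h3 := sec_zero red l m hm1 hm u hup h hh (centralizer {u})
          (fun x => by rw [mem_centralizer_singleton_iff])
          (hK u hup hu1 h hh (centralizer {u})
            (fun x => by rw [mem_centralizer_singleton_iff]))
        rw [← h3, ← Finset.sum_filter]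
        symm
        refine Finset.sum_bij (fun s _ => (s : G) * u) ?_ ?_ ?_ ?_
        · intro s hs
          rw [mem_filter] at hs ⊢
          refine ⟨mem_univ _, ?_⟩
          have h4 : (s : G) * u = u * s := mem_centralizer_singleton_iff.1 s.2
          rw [h4]
          exact pp_eq h4.symm hup (by rw [Subgroup.orderOf_coe]; exact hs.2)
        · intro a _ b _ hab
          exact Subtype.ext (mul_right_cancel hab)
        · intro g hg
          rw [mem_filter] at hg
          have h5 : pp p g * pr p g = pr p g * pp p g := pp_comm g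
          rw [hg.2] at h5
          refine ⟨⟨pr p g, mem_centralizer_singleton_iff.2 h5.symm⟩, ?_, ?_⟩
          · rw [mem_filter]
            refine ⟨mem_univ _, ?_⟩
            rw [← Subgroup.orderOf_coe]
            exact pr_regular' g
          · simp only
            rw [← h5, ← hg.2, pp_mul_pr]
        · intro s _
          exact (hFl _).symm
      · refine Finset.sum_eq_zero fun g hg => ?_
        rw [mem_filter] at hg
        refine h2 _ _ fun hs => hc ?_
        unfold SameSec at hs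
        rw [pp_pow, hg.2] at hs
        exact hs.symm
    · refine Finset.sum_eq_zero fun g hg => ?_
      rw [mem_filter] at hg
      exact absurd (hg.2 ▸ pp_pow_eq_one g) hup
  -- the sections of the elements with `u ^ m = u`
  have hpos : ∀ u : G, u ^ m = u → ∃ c : ℝ, 0 ≤ c ∧
      ∑ g ∈ univ.filter (fun g : G => pp p g = u), F g = c := by
    intro u hum
    refine ⟨∑ g ∈ univ.filter (fun g : G => pp p g = u),
      ∑ χ ∈ IrrB red B, Complex.normSq (χ g), Finset.sum_nonneg fun g _ =>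
        Finset.sum_nonneg fun χ _ => Complex.normSq_nonneg _, ?_⟩
    push_cast
    refine Finset.sum_congr rfl fun g hg => ?_
    rw [mem_filter] at hg
    simp only [hF]
    refine Finset.sum_congr rfl fun χ hχ => ?_
    have h5 : pp p g * pr p g = pr p g * pp p g := pp_comm g
    have hgm : g ^ m = g := by
      have h6 : g = pp p g * pr p g := (pp_mul_pr g).symm
      have h7 : (pr p g) ^ m = pr p g := pow_eq_of_modEq_of_dvd hm1 (pr_regular' g)
      have h8 : (pp p g * pr p g) ^ m = pp p g * pr p g := by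
        have h9 : Commute (pp p g) (pr p g) := h5
        rw [h9.mul_pow, h7, hg.2, hum]
      rw [← h6] at h8
      exact h8
    rw [hgm]
    have h10 := Irr.inv_eq_conj (⟨χ, isIrr_of_mem_IrrB hχ⟩ : Irr G) g
    simp only at h10
    rw [h10, Complex.mul_conj]
  have e4 : ∃ c : ℝ, 0 ≤ c ∧ ∑ g : G, F g =
      ∑ g ∈ univ.filter (fun g : G => ¬ p ∣ orderOf g), ∑ χ ∈ IrrB red B, χ g * χ g⁻¹ + c := by
    have h3 : ∀ u : G, u ≠ 1 → ∃ c : ℝ, 0 ≤ c ∧
        ∑ g ∈ univ.filter (fun g : G => pp p g = u), F g = c := by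
      intro u _
      by_cases hum : u ^ m = u
      · exact hpos u hum
      · exact ⟨0, le_refl 0, by rw [hsec u hum, Complex.ofReal_zero]⟩
    choose! c hc0 hc using h3
    refine ⟨∑ u ∈ univ.erase (1 : G), c u, Finset.sum_nonneg fun u hu =>
      hc0 u (Finset.ne_of_mem_erase hu), ?_⟩
    rw [← Finset.sum_fiberwise_of_maps_to (t := univ) (g := fun g : G => pp p g)
      (fun _ _ => mem_univ _) F, ← Finset.add_sum_erase _ _ (mem_univ (1 : G))]
    push_cast
    congr 1
    · refine Finset.sum_congr ?_ ?_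
      · ext g
        simp only [mem_filter, mem_univ, true_and]
        exact pp_eq_one_iff g
      · intro g hg
        rw [mem_filter] at hg
        simp only [hF]
        rw [pow_eq_of_modEq_of_dvd hm1 hg.2]
    · exact Finset.sum_congr rfl fun u hu => hc u (Finset.ne_of_mem_erase hu)
  obtain ⟨c, hc0, hc⟩ := e4
  rw [hc, ← hr2] at e1
  rw [Nat.card_eq_fintype_card] at e1
  have e5 : (r : ℝ) * Fintype.card G + c = ((Srat red m B).card : ℝ) * Fintype.card G := by
    exact_mod_cast e1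
  have hG' : (0 : ℝ) < Fintype.card G := by exact_mod_cast Fintype.card_pos
  have e6 : (r : ℝ) ≤ (Srat red m B).card := by
    by_contra hlt
    push Not at hlt
    have := mul_lt_mul_of_pos_right hlt hG'
    linarith
  exact_mod_cast e6

end

section Final

variable {p : ℕ} [hp : Fact p.Prime] {k : Type*} [Field k] [CharP k p] [IsAlgClosed k]
  (red : AA →+* k) {G : Type} [Group G] [Fintype G]

/-- (c) the number of simple modules of a block with abelian defect group is at most the number of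
its `m`-rational characters, `m ≡ 1` modulo `p` and modulo the `p'`-part of `|G|` -/
theorem numSimpleIn_le_Srat {B : MonoidAlgebra k G} (hB : IsBlock B) {D : Subgroup G}
    (hDp : IsPGroup p D) (hab : ∀ a ∈ D, ∀ b ∈ D, a * b = b * a)
    {l : (G → k) → k} (hl : BP p D l) (hlz : ∀ z : G → k, IsCF z → l z = centralChar B (mkF z))
    (hT : ¬ p ∣ (centralizer (D : Set G)).relIndex (stabT D l)) {m : ℕ}
    (hmc : m.Coprime (Nat.card G)) (hm1 : m ≡ 1 [MOD ordCompl[p] (Nat.card G)])
    (hmp : m ≡ 1 [MOD p]) : numSimpleIn B ≤ (Srat red m B).card := by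
  have hlB : ∀ χ : Irr G, InL red l χ.1 ↔ CharInBlock red χ.1 B := inL_iff red hB hlz
  have h1 : ∀ χ ∈ IrrB red B, (fun g => χ (g ^ m)) ∈ IrrB red B := by
    intro χ hχ
    simp only [P179X.IrrB, mem_filter, P179X.mem_Irr] at hχ ⊢
    refine ⟨irr_pow hχ.1 hmc, ?_⟩
    exact charInBlock_of_reg p red hχ.1 (irr_pow hχ.1 hmc)
      (fun g hg => by rw [pow_eq_of_regular hm1 hg]) hχ.2
  exact P7m red hB l hlB m hmc hm1 h1 (K7m red hl hDp hab hT hmc hmp)

end Final

end P179Y
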