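import Vale.Agent.P179.R2.H843.WatF
import Vale.Agent.P179.R2.H46.Core
import Vale.Agent.P179.R2.H967.Sur2

/-!
# Watanabe's theorem: `l(B) = l(b_x)` for `x ∈ D` fixed by the inertial group
-/

namespace P179H843

open Subgroup Finset P179H524 P179C P179A P179P P179Y P179H12 P179H452

open scoped Classical

universe u

theorem coreE (p : ℕ) [hp : Fact p.Prime] (k : Type u) [Field k] [IsAlgClosed k] [CharP k p] :
    CoreE p k :=
  fun _ _ _ _ _ _ del _ _ hl hD hab hT hB hlB hdel hdT hx hxT hdx hw hw0 =>
    P179H46.core hl hD hab hT hB hlB del hdel hdT hx hxT hdx hw hw0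

/-- **the injectivity of the transfer** -/
theorem surStmt (p : ℕ) [hp : Fact p.Prime] (k : Type u) [Field k] [IsAlgClosed k] [CharP k p] :
    SurStmt p k := by
  intro G _ _ B D l hB hl hD hab hT hlz x hx hxT f hf hbf h0
  have hCH : centralizer (D : Set G) ≤ centralizer ({x} : Set G) := cent_le_of_mem hx
  obtain ⟨b, hb, hlb⟩ := exists_blk (BP.mulH hl hD hab hCH)
  rw [eH_eq hb hlb] at hbf
  exact P179H967.trace_inj hl hD hab hT hx hxT hB hlz hb hlb hf hbf h0

/-- **Watanabe's theorem** for blocks with abelian defect group `D`: if `x ∈ D` is fixed by the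
inertial group, then `B` and the block of `C_G(x)` below the Brauer pair have the same number of
simple modules -/
theorem watX (p : ℕ) [hp : Fact p.Prime] (k : Type u) [Field k] [IsAlgClosed k] [CharP k p] :
    P179H292.WatX p k := watX_of (coreE p k) (surStmt p k)

end P179H843

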