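import Vale.Agent.P179.R2.H843.EqFin
import Vale.Agent.P179.R2.H364.Fin

/-!
# `EqRel`: equality for the blocks with a normal `p`-subgroup `R` such that the elements of the
inertial group which centralise `R` centralise the defect group
-/

namespace P179H843

universe u

/-- **`EqRel`**, without hypotheses -/
theorem eqRel (p : ℕ) [hp : Fact p.Prime] (k : Type u) [Field k] [IsAlgClosed k] [CharP k p]
    (red : integralClosure ℤ ℂ →+* k) : P179H725.EqRel p red :=
  eqRel_of_onto red (P179H364.ontoStmt p k)

end P179H843
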