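import Mathlib

/-!
# Counting fixed points: the permutation half of the Clifford count for cyclic quotients
-/

namespace P179H843

open Subgroup

section Perm

variable {A X : Type*} [CommGroup A] [Finite A] [Finite X] [MulAction A X]

/-- the number of the points fixed by `S` -/
noncomputable def fixN (X : Type*) {A : Type*} [CommGroup A] [MulAction A X] (S : Subgroup A) : ℕ :=
  Nat.card {x : X // ∀ s ∈ S, s • x = x}

omit [Finite A] [Finite X] in
theorem fixN_bot : fixN X (⊥ : Subgroup A) = Nat.card X := by
  refine Nat.card_congr (Equiv.subtypeUnivEquiv fun x => ?_)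
  intro s hs
  rw [mem_bot.1 hs, one_smul]

omit [Finite A] in
theorem fixN_anti {S T : Subgroup A} (h : S ≤ T) : fixN X T ≤ fixN X S :=
  Nat.card_le_card_of_injective (fun x => ⟨x.1, fun s hs => x.2 s (h hs)⟩) fun _ _ hxy =>
    Subtype.ext (congrArg (fun z : {x : X // ∀ s ∈ S, s • x = x} => z.1) hxy)

omit [Finite A] [Finite X] in
theorem fixN_closure (a b : A) :
    fixN X (closure {a, b}) = Nat.card {x : X // a • x = x ∧ b • x = x} := by
  refine Nat.card_congr (Equiv.subtypeEquivRight fun x => ?_)
  constructor
  · intro h
    exact ⟨h a (subset_closure (by simp)), h b (subset_closure (by simp))⟩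
  · rintro ⟨ha, hb⟩ s hs
    have h1 : closure {a, b} ≤ MulAction.stabilizer A x := by
      rw [closure_le]
      rintro y (rfl | rfl)
      · exact ha
      · exact hb
    exact h1 hs

/-- the functions on the fixed points of `a` invariant under `S` -/
def invF (k : Type*) [Field k] (X : Type*) {A : Type*} [CommGroup A] [MulAction A X]
    (S : Subgroup A) (a : A) : Submodule k ({x : X // a • x = x} → k) where
  carrier := {f | ∀ s ∈ S, ∀ x y : {x : X // a • x = x}, y.1 = s • x.1 → f y = f x}
  add_mem' := by
    intro f g hf hg s hs x y h
    simp only [Pi.add_apply, hf s hs x y h, hg s hs x y h]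
  zero_mem' := fun _ _ _ _ _ => rfl
  smul_mem' := by
    intro c f hf s hs x y h
    simp only [Pi.smul_apply, hf s hs x y h]

/-- **Burnside** -/
theorem card_mul_finrank_invF (k : Type*) [Field k] (S : Subgroup A) (a : A) :
    Nat.card S * Module.finrank k (invF k X S a) =
      ∑ᶠ b : S, Nat.card {x : X // a • x = x ∧ (b : A) • x = x} := by
  classical
  have := Fintype.ofFinite A
  have := Fintype.ofFinite X
  have := Fintype.ofFinite S
  let Y := {x : X // a • x = x}
  let iY : MulAction S Y :=
    { smul := fun s x => ⟨(s : A) • x.1, by
        rw [← mul_smul, mul_comm, mul_smul, x.2]⟩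
      one_smul := fun x => Subtype.ext (one_smul A x.1)
      mul_smul := fun s t x => Subtype.ext (mul_smul (s : A) (t : A) x.1) }
  have hsm : ∀ (s : S) (x : Y), ((s • x : Y) : X) = (s : A) • x.1 := fun _ _ => rfl
  have : Fintype Y := Fintype.ofFinite Y
  have : Fintype (MulAction.orbitRel.Quotient S Y) := Fintype.ofFinite _
  -- invariant functions = functions on the orbits
  let e : invF k X S a ≃ₗ[k] (MulAction.orbitRel.Quotient S Y → k) :=
    { toFun := fun f => fun q => Quotient.liftOn' q f.1 (by
        intro x y hxy
        obtain ⟨s, hs⟩ := hxy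
        exact f.2 s s.2 y x (by
          have h1 := congrArg Subtype.val hs
          rw [hsm] at h1
          exact h1.symm))
      invFun := fun g => ⟨fun y => g (Quotient.mk'' y), by
        intro s hs x y h
        refine congrArg g (Quotient.sound' ?_)
        exact ⟨⟨s, hs⟩, Subtype.ext h.symm⟩⟩
      left_inv := fun f => rfl
      right_inv := fun g => by
        funext q
        induction q using Quotient.inductionOn' with
        | h y => rfl
      map_add' := fun f g => by
        funext q
        induction q using Quotient.inductionOn' with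
        | h y => rfl
      map_smul' := fun c f => by
        funext q
        induction q using Quotient.inductionOn' with
        | h y => rfl }
  rw [e.finrank_eq, Module.finrank_fintype_fun_eq_card, mul_comm, Nat.card_eq_fintype_card]
  have h1 := MulAction.sum_card_fixedBy_eq_card_orbits_mul_card_group S Y
  rw [← h1, finsum_eq_sum_of_fintype]
  refine Finset.sum_congr rfl fun b _ => ?_
  rw [← Nat.card_eq_fintype_card]
  refine Nat.card_congr ?_
  refine
    { toFun := fun x => ⟨x.1.1, x.1.2, congrArg Subtype.val x.2⟩
      invFun := fun x => ⟨⟨x.1, x.2.1⟩, Subtype.ext x.2.2⟩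
      left_inv := fun x => rfl
      right_inv := fun x => rfl }

/-- **the permutation half of the Clifford count** -/
theorem card_mul_sum_finrank (k : Type*) [Field k] (S : Subgroup A) :
    Nat.card S * ∑ᶠ a : S, Module.finrank k (invF k X S (a : A)) =
      ∑ᶠ z : S × S, fixN X (closure {(z.1 : A), (z.2 : A)}) := by
  classical
  have := Fintype.ofFinite S
  rw [finsum_eq_sum_of_fintype, finsum_eq_sum_of_fintype, Finset.mul_sum, Fintype.sum_prod_type]
  refine Finset.sum_congr rfl fun a _ => ?_
  rw [card_mul_finrank_invF, finsum_eq_sum_of_fintype]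
  exact Finset.sum_congr rfl fun b _ => (fixN_closure (a : A) (b : A)).symm

end Perm

end P179H843
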