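import Vale.Agent.P179.R2.H843.Clf4
import Vale.Agent.P179.R2.H843.Clf1
import Vale.Agent.P179.R2.H854.Fx2
import Vale.Agent.P179.R2.H12.Half

/-!
# The Clifford count for a cyclic quotient
-/

namespace P179H843

open P179H524 P179C P179A P179R P179H872 Finset MonoidAlgebra

universe u

section equivariant

/-- **equivariant sections** -/
theorem exists_equivariant {Γ X V : Type*} [Group Γ] (sX : Γ → X → X) (sV : Γ → V → V)
    (hX1 : ∀ x, sX 1 x = x) (hXm : ∀ a b x, sX (a * b) x = sX a (sX b x))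
    (hV1 : ∀ v, sV 1 v = v) (hVm : ∀ a b v, sV (a * b) v = sV a (sV b v))
    (R : X → V → Prop) (h1 : ∀ x, ∃ v, R x v) (h2 : ∀ y x v, R x v → R (sX y x) (sV y v))
    (h3 : ∀ y x v, R x v → sX y x = x → sV y v = v) :
    ∃ t : X → V, (∀ x, R x (t x)) ∧ ∀ y x, t (sX y x) = sV y (t x) := by
  classical
  let st : Setoid X :=
    { r := fun a b => ∃ y, sX y a = b
      iseqv := ⟨fun a => ⟨1, hX1 a⟩, fun {a b} ⟨y, hy⟩ => ⟨y⁻¹, by
        rw [← hy, ← hXm, inv_mul_cancel, hX1]⟩, fun {a b c} ⟨y, hy⟩ ⟨z, hz⟩ => ⟨z * y, by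
        rw [hXm, hy, hz]⟩⟩ }
  let rep : X → X := fun x => (Quotient.mk st x).out
  have hrep : ∀ x, ∃ y, sX y (rep x) = x := fun x => Quotient.exact (Quotient.out_eq (Quotient.mk st x))
  have hrep2 : ∀ y x, rep (sX y x) = rep x := by
    intro y x
    change (Quotient.mk st _).out = (Quotient.mk st _).out
    congr 1
    exact Quotient.sound ⟨y⁻¹, by rw [← hXm, inv_mul_cancel, hX1]⟩
  choose a ha using hrep
  choose v hv using h1
  refine ⟨fun x => sV (a x) (v (rep x)), fun x => ?_, fun y x => ?_⟩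
  · have h4 := h2 (a x) (rep x) _ (hv (rep x))
    rwa [ha] at h4
  · dsimp only
    rw [hrep2]
    have h4 := h3 ((y * a x)⁻¹ * a (sX y x)) (rep x) _ (hv _) (by
      have h5 := ha (sX y x)
      rw [hrep2] at h5
      have h6 : sX y x = sX (y * a x) (rep x) := by rw [hXm, ha]
      rw [hXm, h5, h6, ← hXm, inv_mul_cancel, hX1])
    rw [hVm] at h4
    have h5 := congrArg (sV (y * a x)) h4
    rwa [← hVm, mul_inv_cancel, hV1, hVm] at h5

end equivariant

section stepB

variable {k : Type u} [Field k] {Γ : Type} [Group Γ] [Fintype Γ] {N : Subgroup Γ} [hN : N.Normal]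
  {c : MonoidAlgebra k N}

/-- the `S`-invariant functions on the coset `g N` -/
noncomputable def LS (p : ℕ) (c : MonoidAlgebra k N) (S : Subgroup (Γ ⧸ N)) (g : Γ) :
    Submodule k (Γ → k) where
  carrier := {ψ | ψ ∈ LX p c g ∧ ∀ y : Γ, (y : Γ ⧸ N) ∈ S → cjF y ψ = ψ}
  add_mem' := by
    rintro a b ⟨ha, ha'⟩ ⟨hb, hb'⟩
    exact ⟨add_mem ha hb, fun y hy => by
      change cjF y a + cjF y b = _
      rw [ha' y hy, hb' y hy]⟩
  zero_mem' := ⟨zero_mem _, fun y _ => cjF_zero y⟩
  smul_mem' := by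
    rintro t a ⟨ha, ha'⟩
    exact ⟨Submodule.smul_mem _ _ ha, fun y hy => by rw [cjF_smul, ha' y hy]⟩

theorem smX_fix_iff (hc : ∀ g : Γ, cjA g c = c) (hab : ∀ a b : Γ, a * b * a⁻¹ * b⁻¹ ∈ N)
    (g y : Γ) (K : XK c) : smX hc g (smX hc y K) = smX hc y K ↔ smX hc g K = K := by
  have h1 : smX hc g (smX hc y K) = smX hc y (smX hc g K) := by
    rw [← smX_mul, ← smX_mul]
    apply smX_eq_of_coset
    rw [QuotientGroup.eq]
    have h2 : (g * y)⁻¹ * (y * g) = y⁻¹ * g⁻¹ * y⁻¹⁻¹ * g⁻¹⁻¹ := by group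
    rw [h2]
    exact hab _ _
  rw [h1]
  constructor
  · intro h
    have h3 := congrArg (smX hc y⁻¹) h
    have h4 : ∀ K', smX hc y⁻¹ (smX hc y K') = K' := fun K' => by
      rw [← smX_mul, inv_mul_cancel, smX_one]
    rwa [h4, h4] at h3
  · intro h
    rw [h]

/-- **the functions on a coset as a permutation module** -/
theorem exists_basis_coset (p : ℕ) [hp : Fact p.Prime] [CharP k p]
    (hidx : ¬ p ∣ N.index) (hc : ∀ g : Γ, cjA g c = c) [hcyc : IsCyclic (Γ ⧸ N)]
    (hab : ∀ a b : Γ, a * b * a⁻¹ * b⁻¹ ∈ N) (g : Γ) :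
    ∃ t : XK c → Γ → k, (∀ K, t K ∈ LK p c g K.1) ∧ (∀ K, smX hc g K = K → t K ≠ 0) ∧
      ∀ y K, t (smX hc y K) = cjF y (t K) := by
  classical
  have hgy : ∀ y K, smX hc g (smX hc y K) = smX hc y K ↔ smX hc g K = K := fun y K =>
    smX_fix_iff hc hab g y K
  obtain ⟨t, ht1, ht2⟩ := exists_equivariant (smX hc) (cjF (k := k)) (smX_one hc) (smX_mul hc)
    cjF_one cjF_mul (fun (K : XK c) v => v ∈ LK p c g K.1 ∧ (smX hc g K = K → v ≠ 0))
    (fun K => by
      by_cases h : smX hc g K = K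
      · obtain ⟨v, hv, hne⟩ := LK_ex p hidx hc h
        exact ⟨v, hv, fun _ => hne⟩
      · exact ⟨0, zero_mem _, fun h' => absurd h' h⟩)
    (fun y K v hv => ⟨cjF_LK hc hab y hv.1, fun h => cjF_ne_zero (hv.2 ((hgy y K).1 h))⟩)
    (fun y K v hv h => cjF_fix p hidx hc hv.1 h)
  exact ⟨t, fun K => (ht1 K).1, fun K => (ht1 K).2, ht2⟩

/-- the functions on the fixed points of `g`, invariant under `S` -/
def invX (hc : ∀ g : Γ, cjA g c = c) (S : Subgroup (Γ ⧸ N)) (g : Γ) :
    Submodule k ({K : XK c // smX hc g K = K} → k) where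
  carrier := {φ | ∀ y : Γ, (y : Γ ⧸ N) ∈ S → ∀ K K' : {K : XK c // smX hc g K = K},
    K'.1 = smX hc y K.1 → φ K' = φ K}
  add_mem' := by
    intro a b ha hb y hy K K' h
    rw [Pi.add_apply, Pi.add_apply, ha y hy K K' h, hb y hy K K' h]
  zero_mem' := fun _ _ _ _ _ => rfl
  smul_mem' := by
    intro t a ha y hy K K' h
    rw [Pi.smul_apply, Pi.smul_apply, ha y hy K K' h]

theorem finrank_LS (p : ℕ) [hp : Fact p.Prime] [IsAlgClosed k] [CharP k p]
    (hidx : ¬ p ∣ N.index) (hc : ∀ g : Γ, cjA g c = c) [hcyc : IsCyclic (Γ ⧸ N)]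
    (hab : ∀ a b : Γ, a * b * a⁻¹ * b⁻¹ ∈ N) (hcc : c ∈ Subalgebra.center k (MonoidAlgebra k N))
    (hc2 : c * c = c) (S : Subgroup (Γ ⧸ N)) (g : Γ) :
    Module.finrank k (LS p c S g) = Module.finrank k (invX hc S g) := by
  classical
  have := finite_XK hcc hc2
  have := Fintype.ofFinite (XK c)
  obtain ⟨t, ht1, ht2, ht3⟩ := exists_basis_coset p hidx hc hab g
  let T : invX hc S g →ₗ[k] LS p c S g :=
    { toFun := fun φ => ⟨∑ K : {K : XK c // smX hc g K = K}, φ.1 K • t K.1, by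
        refine ⟨Submodule.sum_mem _ fun K _ => Submodule.smul_mem _ _ (ht1 K.1).1,
          fun y hy => ?_⟩
        rw [cjF_sum]
        let σ : {K : XK c // smX hc g K = K} ≃ {K : XK c // smX hc g K = K} :=
          { toFun := fun K => ⟨smX hc y K.1, (smX_fix_iff hc hab g y K.1).2 K.2⟩
            invFun := fun K => ⟨smX hc y⁻¹ K.1, (smX_fix_iff hc hab g y⁻¹ K.1).2 K.2⟩
            left_inv := fun K => Subtype.ext (by
              change smX hc y⁻¹ (smX hc y K.1) = K.1
              rw [← smX_mul, inv_mul_cancel, smX_one])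
            right_inv := fun K => Subtype.ext (by
              change smX hc y (smX hc y⁻¹ K.1) = K.1
              rw [← smX_mul, mul_inv_cancel, smX_one]) }
        rw [← Equiv.sum_comp σ (fun K => φ.1 K • t K.1)]
        refine Finset.sum_congr rfl fun K _ => ?_
        rw [cjF_smul, ← ht3, φ.2 y hy K (σ K) rfl]
        rfl⟩
      map_add' := fun φ φ' => by
        apply Subtype.ext
        change ∑ K : {K : XK c // smX hc g K = K}, (φ.1 + φ'.1) K • t K.1 = _ + _
        rw [← Finset.sum_add_distrib]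
        exact Finset.sum_congr rfl fun K _ => by rw [Pi.add_apply, add_smul]
      map_smul' := fun a φ => by
        apply Subtype.ext
        change ∑ K : {K : XK c // smX hc g K = K}, (a • φ.1) K • t K.1 = a • _
        rw [Finset.smul_sum]
        exact Finset.sum_congr rfl fun K _ => by rw [Pi.smul_apply, smul_assoc] }
  have hT : ∀ φ, (T φ).1 = ∑ K : {K : XK c // smX hc g K = K}, φ.1 K • t K.1 := fun φ => rfl
  symm
  refine LinearEquiv.finrank_eq (LinearEquiv.ofBijective T ⟨?_, ?_⟩)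
  · rw [injective_iff_map_eq_zero]
    intro φ hφ
    have h1 := hT φ
    rw [hφ] at h1
    let v : XK c → Γ → k := fun K => if h : smX hc g K = K then φ.1 ⟨K, h⟩ • t K else 0
    have hv : ∀ K, v K ∈ LK p c g K.1 := by
      intro K
      by_cases h : smX hc g K = K
      · have h2 : v K = φ.1 ⟨K, h⟩ • t K := dif_pos h
        rw [h2]
        exact Submodule.smul_mem _ _ (ht1 K)
      · have h2 : v K = 0 := dif_neg h
        rw [h2]
        exact zero_mem _
    have h0 : ∑ K, v K = 0 := by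
      rw [← Finset.sum_filter_of_ne (p := fun K => smX hc g K = K)
        (fun K _ hK => by_contra fun h => hK (dif_neg h)),
        Finset.sum_subtype (p := fun K => smX hc g K = K) _ fun x => by simp]
      refine Eq.trans (Finset.sum_congr rfl fun K _ => dif_pos K.2) h1.symm
    apply Subtype.ext
    funext K
    have h2 := XK_indep hcc hc2 hv h0 K.1
    have h3 : v K.1 = φ.1 K • t K.1 := dif_pos K.2
    rw [h3] at h2
    exact (smul_eq_zero.1 h2).resolve_right (ht2 K.1 K.2)
  · rintro ⟨ψ, hψ, hψS⟩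
    obtain ⟨v, hv, hsum⟩ := XK_dec hcc hc2 p hidx hψ
    -- the stability of the components
    have hvy : ∀ y : Γ, (y : Γ ⧸ N) ∈ S → ∀ K, v (smX hc y K) = cjF y (v K) := by
      intro y hy K
      have h1 := hψS y hy
      rw [hsum, cjF_sum] at h1
      let σ : XK c ≃ XK c :=
        { toFun := fun K => smX hc y K
          invFun := fun K => smX hc y⁻¹ K
          left_inv := fun K => by
            change smX hc y⁻¹ (smX hc y K) = K
            rw [← smX_mul, inv_mul_cancel, smX_one]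
          right_inv := fun K => by
            change smX hc y (smX hc y⁻¹ K) = K
            rw [← smX_mul, mul_inv_cancel, smX_one] }
      have h2 : ∑ K, (cjF y (v (σ.symm K)) - v K) = 0 := by
        rw [Finset.sum_sub_distrib, sub_eq_zero, ← h1,
          ← Equiv.sum_comp σ (fun K => cjF y (v (σ.symm K)))]
        exact Finset.sum_congr rfl fun K _ => by rw [Equiv.symm_apply_apply]
      have h3 := XK_indep hcc hc2 (g := g) (fun K => sub_mem (by
        have h4 := cjF_LK hc hab y (hv (σ.symm K))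
        have h5 : smX hc y (σ.symm K) = K := σ.apply_symm_apply K
        rwa [h5] at h4) (hv K)) h2 (σ K)
      rw [Equiv.symm_apply_apply, sub_eq_zero] at h3
      exact h3.symm
    have hκ : ∀ K : {K : XK c // smX hc g K = K}, ∃ κ : k, v K.1 = κ • t K.1 := fun K =>
      LK_line' (ht1 K.1) (ht2 K.1 K.2) (hv K.1)
    choose κ hκ using hκ
    refine ⟨⟨κ, fun y hy K K' h => ?_⟩, ?_⟩
    · have h1 := hvy y hy K.1
      rw [hκ K, ← h, hκ K', cjF_smul, ← ht3, ← h] at h1
      have h2 : (κ K' - κ K) • t K'.1 = 0 := by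
        rw [sub_smul, h1, sub_self]
      exact sub_eq_zero.1 ((smul_eq_zero.1 h2).resolve_right (ht2 K'.1 K'.2))
    · apply Subtype.ext
      rw [hT]
      change _ = ψ
      rw [hsum, ← Finset.sum_filter_of_ne (p := fun K => smX hc g K = K)
        (fun K _ hK => LK_stable hc (hv K) hK),
        Finset.sum_subtype (p := fun K => smX hc g K = K) _ fun x => by simp]
      exact Finset.sum_congr rfl fun K _ => (hκ K).symm

end stepB

section stepA

open P179P P179Y P179H12

open scoped Classical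

variable {k : Type u} [Field k] {Γ : Type} [Group Γ] [Fintype Γ] {N : Subgroup Γ} [hN : N.Normal]

omit hN in
/-- sums over a subgroup of functions supported on `N` -/
theorem sum_supp {H : Subgroup Γ} (hNH : N ≤ H) {e : Γ → k} (he : ∀ x, x ∉ N → e x = 0)
    (F : H → k) : ∑ g : H, (mkF fun t : H => e t).coeff g * F g =
      ∑ m : N, (mkF fun x : N => e x).coeff m * F ⟨m, hNH m.2⟩ := by
  symm
  refine Fintype.sum_of_injective (fun m : N => (⟨m, hNH m.2⟩ : H)) (fun a b h => Subtype.ext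
    (congrArg (fun z : H => (z : Γ)) h)) _ _ (fun g hg => ?_) fun m => ?_
  · rw [coeff_mkF, he g, zero_mul]
    intro h
    exact hg ⟨⟨g, h⟩, rfl⟩
  · rw [coeff_mkF, coeff_mkF]

theorem finrank_FB_eq (p : ℕ) [hp : Fact p.Prime] [IsAlgClosed k] [CharP k p]
    (hidx : ¬ p ∣ N.index) (hab : ∀ a b : Γ, a * b * a⁻¹ * b⁻¹ ∈ N) {e : Γ → k}
    (he : ∀ x, x ∉ N → e x = 0) (S : Subgroup (Γ ⧸ N)) :
    Module.finrank k (FB p (mkF fun t : S.comap (QuotientGroup.mk' N) => e t)) =
      ∑ a : S, Module.finrank k (LS p (mkF fun x : N => e x) S (Quotient.out (a : Γ ⧸ N))) := by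
  set H : Subgroup Γ := S.comap (QuotientGroup.mk' N) with hH
  have hNH : N ≤ H := by
    intro x hx
    change (x : Γ ⧸ N) ∈ S
    rw [(QuotientGroup.eq_one_iff x).2 hx]
    exact one_mem S
  have hmem : ∀ x : Γ, x ∈ H ↔ (x : Γ ⧸ N) ∈ S := fun x => Iff.rfl
  have hout : ∀ (a : Γ ⧸ N) (h : Γ), (Quotient.out a)⁻¹ * h ∈ N ↔ (h : Γ ⧸ N) = a := by
    intro a h
    rw [← QuotientGroup.eq, QuotientGroup.out_eq', eq_comm]
  set cN : MonoidAlgebra k N := mkF fun x : N => e x with hcN
  set cH : MonoidAlgebra k H := mkF fun t : H => e t with hcH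
  have hsum : ∀ F : H → k, ∑ g : H, cH.coeff g * F g = ∑ m : N, cN.coeff m * F ⟨m, hNH m.2⟩ :=
    fun F => sum_supp hNH he F
  have hconj : ∀ a b : Γ, ((a * b * a⁻¹ : Γ) : Γ ⧸ N) = b := by
    intro a b
    rw [eq_comm, QuotientGroup.eq]
    have h1 : b⁻¹ * (a * b * a⁻¹) = b⁻¹ * a * b⁻¹⁻¹ * a⁻¹ := by group
    rw [h1]
    exact hab _ _
  have hmulN : ∀ (m : N) (b : Γ), (((m : Γ) * b : Γ) : Γ ⧸ N) = b := by
    intro m b
    rw [QuotientGroup.mk_mul, (QuotientGroup.eq_one_iff _).2 m.2, one_mul]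
  -- the component of a function on a coset
  let comp : (H → k) → S → Γ → k := fun ψ a h =>
    if hh : (h : Γ ⧸ N) = a then ψ ⟨h, by rw [hmem, hh]; exact a.2⟩ else 0
  have hcomp1 : ∀ ψ (a : S) (h : H), ((h : Γ) : Γ ⧸ N) = a → comp ψ a h = ψ h := by
    intro ψ a h hh
    exact dif_pos hh
  have hcomp2 : ∀ ψ (a : S) (h : Γ), (h : Γ ⧸ N) ≠ a → comp ψ a h = 0 := by
    intro ψ a h hh
    exact dif_neg hh
  have hcompH : ∀ (a : S) (h : Γ), (h : Γ ⧸ N) = a → h ∈ H := by
    intro a h hh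
    rw [hmem, hh]
    exact a.2
  have hcompLS : ∀ ψ ∈ FB p cH, ∀ a : S, comp ψ a ∈ LS p cN S (Quotient.out (a : Γ ⧸ N)) := by
    intro ψ hψ a
    have hcj : ∀ y ∈ H, ∀ h : Γ, comp ψ a (y * h * y⁻¹) = comp ψ a h := by
      intro y hy h
      by_cases hh : (h : Γ ⧸ N) = a
      · have hh' : ((y * h * y⁻¹ : Γ) : Γ ⧸ N) = a := (hconj y h).trans hh
        have h1 := hcomp1 ψ a ⟨h, hcompH a h hh⟩ hh
        have h2 := hcomp1 ψ a ⟨y * h * y⁻¹, hcompH a _ hh'⟩ hh'
        dsimp only at h1 h2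
        rw [h1, h2]
        exact hψ.1 ⟨y, hy⟩ ⟨h, _⟩
      · rw [hcomp2 ψ a h hh, hcomp2 ψ a _ fun h' => hh ((hconj y h).symm.trans h')]
    refine ⟨⟨fun h hh => ?_, fun m hm h => hcj m (hNH hm) h, fun h => ?_, fun y => ?_⟩,
      fun y hy => ?_⟩
    · exact hcomp2 ψ a h fun h' => hh ((hout _ _).2 h')
    · by_cases hh : (h : Γ ⧸ N) = a
      · have hh' : ((pr p h : Γ) : Γ ⧸ N) = a := (pr_coset p hidx h).trans hh
        have h1 := hcomp1 ψ a ⟨h, hcompH a h hh⟩ hh
        have h2 := hcomp1 ψ a ⟨pr p h, hcompH a _ hh'⟩ hh'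
        dsimp only at h1 h2
        rw [h1, h2, ← hψ.2.1 ⟨h, hcompH a h hh⟩]
        congr 1
        apply Subtype.ext
        exact (Q7.map_pr p H.subtype ⟨h, hcompH a h hh⟩ (C2.ord_ne _)).symm
      · rw [hcomp2 ψ a h hh, hcomp2 ψ a _ fun h' => hh ((pr_coset p hidx h).symm.trans h')]
    · rw [sum_inc_coeff_mul N cN (fun g => comp ψ a (g * y))]
      by_cases hh : (y : Γ ⧸ N) = a
      · have h1 := hcomp1 ψ a ⟨y, hcompH a y hh⟩ hh
        have h2 := hψ.2.2 ⟨y, hcompH a y hh⟩
        rw [hsum (fun g => ψ (g * ⟨y, hcompH a y hh⟩))] at h2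
        dsimp only at h1
        rw [h1, ← h2]
        refine Finset.sum_congr rfl fun m _ => ?_
        congr 1
        exact hcomp1 ψ a (⟨m, hNH m.2⟩ * ⟨y, hcompH a y hh⟩) ((hmulN m y).trans hh)
      · rw [hcomp2 ψ a y hh]
        refine Finset.sum_eq_zero fun m _ => ?_
        rw [hcomp2 ψ a _ fun h' => hh ((hmulN m y).symm.trans h'), mul_zero]
    · funext h
      have h1 := hcj y⁻¹ (inv_mem hy) h
      rw [inv_inv] at h1
      exact h1
  let F : FB p cH →ₗ[k] (Π a : S, LS p cN S (Quotient.out (a : Γ ⧸ N))) :=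
    { toFun := fun ψ a => ⟨comp ψ.1 a, hcompLS ψ.1 ψ.2 a⟩
      map_add' := fun ψ ψ' => by
        funext a
        apply Subtype.ext
        funext h
        change comp (ψ.1 + ψ'.1) a h = comp ψ.1 a h + comp ψ'.1 a h
        by_cases hh : (h : Γ ⧸ N) = a
        · simp only [comp, dif_pos hh]
          rfl
        · simp only [comp, dif_neg hh, add_zero]
      map_smul' := fun t ψ => by
        funext a
        apply Subtype.ext
        funext h
        change comp (t • ψ.1) a h = t * comp ψ.1 a h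
        by_cases hh : (h : Γ ⧸ N) = a
        · simp only [comp, dif_pos hh]
          rfl
        · simp only [comp, dif_neg hh, mul_zero] }
  have hF : ∀ ψ a, (F ψ a).1 = comp ψ.1 a := fun ψ a => rfl
  have hbij : Function.Bijective F := by
    constructor
    · rw [injective_iff_map_eq_zero]
      intro ψ hψ
      apply Subtype.ext
      funext h
      have h1 := hF ψ ⟨((h : Γ) : Γ ⧸ N), h.2⟩
      rw [hψ] at h1
      have h2 := congrFun h1 h
      rw [hcomp1 ψ.1 ⟨((h : Γ) : Γ ⧸ N), h.2⟩ h rfl] at h2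
      exact h2.symm
    · intro φ
      have hval : ∀ (a b : S), a = b → ∀ h : Γ, (φ a).1 h = (φ b).1 h := by
        rintro a _ rfl h
        rfl
      refine ⟨⟨fun h => (φ ⟨((h : Γ) : Γ ⧸ N), h.2⟩).1 h, fun g x => ?_, fun x => ?_,
        fun y => ?_⟩, ?_⟩
      · dsimp only
        rw [hval _ ⟨((x : Γ) : Γ ⧸ N), x.2⟩ (Subtype.ext (hconj g x))]
        have h1 := congrFun ((φ ⟨((x : Γ) : Γ ⧸ N), x.2⟩).2.2 (g : Γ)⁻¹ (inv_mem g.2)) x
        unfold cjF at h1
        rw [inv_inv] at h1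
        exact h1
      · dsimp only
        have h2 : ((pr p x : H) : Γ) = pr p (x : Γ) := Q7.map_pr p H.subtype x (C2.ord_ne x)
        rw [hval _ ⟨((x : Γ) : Γ ⧸ N), x.2⟩ (Subtype.ext (by
          change (((pr p x : H) : Γ) : Γ ⧸ N) = (x : Γ)
          rw [h2]
          exact pr_coset p hidx x)), h2]
        exact (φ ⟨((x : Γ) : Γ ⧸ N), x.2⟩).2.1.2.2.1 x
      · dsimp only
        rw [hsum (fun g => (φ ⟨(((g * y : H) : Γ) : Γ ⧸ N), (g * y).2⟩).1 ((g * y : H) : Γ))]
        have h2 := (φ ⟨((y : Γ) : Γ ⧸ N), y.2⟩).2.1.2.2.2 y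
        rw [sum_inc_coeff_mul N cN (fun g => (φ ⟨((y : Γ) : Γ ⧸ N), y.2⟩).1 (g * y))] at h2
        rw [← h2]
        refine Finset.sum_congr rfl fun m _ => ?_
        congr 1
        exact hval _ _ (Subtype.ext (hmulN m y)) _
      · funext a
        apply Subtype.ext
        rw [hF]
        funext h
        by_cases hh : (h : Γ ⧸ N) = a
        · have h1 := hcomp1 (fun h : H => (φ ⟨((h : Γ) : Γ ⧸ N), h.2⟩).1 h) a
            ⟨h, hcompH a h hh⟩ hh
          refine h1.trans ?_
          exact hval _ _ (Subtype.ext hh) _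
        · refine (hcomp2 _ a h hh).trans ?_
          exact ((φ a).2.1.1 h fun h' => hh ((hout _ _).1 h')).symm
  rw [(LinearEquiv.ofBijective F hbij).finrank_eq, Module.finrank_pi_fintype]

/-- **the Clifford count for a cyclic quotient** -/
theorem clfStmt (p : ℕ) [hp : Fact p.Prime] (k : Type u) [Field k] [IsAlgClosed k] [CharP k p] :
    P179H854.ClfStmt p k := by
  intro Γ _ _ N hN e hcyc hidx heN hcf hee
  let iC : CommGroup (Γ ⧸ N) := IsCyclic.commGroup
  set c : MonoidAlgebra k N := mkF fun x : N => e x with hcdef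
  have hincN : inc N c = mkF e := inc_mkF N e heN
  have hcen : inc N c ∈ Subalgebra.center k (MonoidAlgebra k Γ) := by
    rw [hincN]
    exact mkF_mem hcf
  have hc : ∀ g : Γ, cjA g c = c := fun g => cjA_fix hcen g
  have hcc : c ∈ Subalgebra.center k (MonoidAlgebra k N) :=
    mkF_mem fun t x => hcf (t : Γ) (x : Γ)
  have hc2 : c * c = c := by
    apply inc_injective N
    rw [map_mul, hincN, ← mkF_conv, hee]
  have hab : ∀ a b : Γ, a * b * a⁻¹ * b⁻¹ ∈ N := by
    intro a b
    rw [← QuotientGroup.eq_one_iff]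
    change (a : Γ ⧸ N) * (b : Γ ⧸ N) * (a : Γ ⧸ N)⁻¹ * (b : Γ ⧸ N)⁻¹ = 1
    rw [mul_comm (a : Γ ⧸ N) (b : Γ ⧸ N), mul_inv_cancel_right, mul_inv_cancel]
  have := finite_XK hcc hc2
  let iA : MulAction (Γ ⧸ N) (XK c) := actQ hc
  refine ⟨fun S => fixN (XK c) S, ?_, fun S T h => fixN_anti h, fun S => ?_⟩
  · rw [← card_XK hcc hc2]
    exact fixN_bot
  · rw [← card_mul_sum_finrank k S]
    congr 1
    -- the element of the group algebra of the preimage
    set H : Subgroup Γ := S.comap (QuotientGroup.mk' N) with hH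
    have hNH : N ≤ H := by
      intro x hx
      change (x : Γ ⧸ N) ∈ S
      rw [(QuotientGroup.eq_one_iff x).2 hx]
      exact one_mem S
    have heH : ∀ x, x ∉ H → e x = 0 := fun x hx => heN x fun h => hx (hNH h)
    have hcHc : (mkF fun t : H => e t) ∈ Subalgebra.center k (MonoidAlgebra k H) :=
      mkF_mem fun t x => hcf (t : Γ) (x : Γ)
    have hcH2 : (mkF fun t : H => e t) * (mkF fun t : H => e t) = mkF fun t : H => e t := by
      apply inc_injective H
      rw [map_mul, inc_mkF H e heH, ← mkF_conv, hee]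
    rw [← finrank_FB p hcHc hcH2, finrank_FB_eq p hidx hab heN S, finsum_eq_sum_of_fintype]
    refine Finset.sum_congr rfl fun a _ => ?_
    rw [finrank_LS p hidx hc hab hcc hc2 S]
    have key : ∀ (g : Γ) (a : Γ ⧸ N), (g : Γ ⧸ N) = a →
        Module.finrank k (invX hc S g) = Module.finrank k (invF k (XK c) S a) := by
      rintro g _ rfl
      refine LinearEquiv.finrank_eq
        { toFun := fun φ => ⟨φ.1, ?_⟩
          invFun := fun φ => ⟨φ.1, fun y hy K K' h => φ.2 (y : Γ ⧸ N) hy K K' h⟩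
          left_inv := fun φ => rfl
          right_inv := fun φ => rfl
          map_add' := fun φ φ' => rfl
          map_smul' := fun t φ => rfl }
      intro s hs K K' h
      induction s using QuotientGroup.induction_on with
      | H y => exact φ.2 y hs K K' h
    exact key _ _ (QuotientGroup.out_eq' _)

end stepA

end P179H843
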