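import Vale.Agent.P179.R2.H843.SolvAct
import Vale.Agent.P179.R2.H450.Ab3
import Vale.Agent.P179.R2.H364.KnCov

/-!
# Transfer of the condition `Solved` along `ActSub`, conclusion
-/

namespace P179H843

open Subgroup P179H292 P179B P179H364

open scoped Classical

/-- transfer of `Known` for finite `K` -/
theorem known_act_fin {p : ℕ} {G X : Type*} [Group G] [Group X] {K S : Subgroup G}
    {D' T' : Subgroup X} (hfin : Finite K) (hN : S ≤ normalizer (K : Set G))
    (hact : ActSub K S D' T') (h : Known p K S) : Known p D' T' := by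
  have hK : ∀ t ∈ S, ∀ x ∈ K, t * x * t⁻¹ ∈ K := fun t ht x hx =>
    (mem_normalizer_iff.1 (hN ht) x).1 hx
  obtain ⟨e, -⟩ := id hact
  rcases h with ⟨h1, h2⟩ | h | ⟨h1, h2⟩ | ⟨j, h1, h2⟩ | ⟨h1, h2⟩ | h | ⟨h1, h2⟩
  · refine Or.inl ⟨by rw [card_omega_act p hact]; exact h1, h2.imp_right ?_⟩
    rintro ⟨z, hz, hz1⟩
    refine ⟨e ⟨z, hz⟩, (e _).2, fun h3 => hz1 ?_⟩
    have h4 : e (⟨z, hz⟩ ^ p) = 1 := by
      rw [map_pow]
      exact Subtype.ext h3
    have h5 : (⟨z, hz⟩ : K) ^ p = 1 := (MulEquiv.map_eq_one_iff e).1 h4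
    exact congrArg (fun z : K => (z : G)) h5
  · exact Or.inr (Or.inl (P179H450.growBy_equiv e h))
  · exact Or.inr (Or.inr (Or.inl ⟨(P179H450.ActAb.act hact ⟨hN, h1⟩).2,
      P179H450.growBy_equiv e h2⟩))
  · exact Or.inr (Or.inr (Or.inr (Or.inl
      ⟨j, (relIndex_act_fin hfin hK hact).trans h1, P179H450.growBy_equiv e h2⟩)))
  · have h3 := relIndex_act_fin hfin hK hact
    refine Or.inr (Or.inr (Or.inr (Or.inr (Or.inl
      ⟨(Nat.add_le_add_right h3 1).trans_lt h1, ?_⟩))))
    rcases h2 with h2 | ⟨h2, h4⟩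
    · exact Or.inl (P179H450.growBy_equiv e h2)
    · exact Or.inr ⟨h3.trans (h2.trans (Nat.pow_le_pow_left (by omega) 2)),
        P179H450.growBy_equiv e h4⟩
  · exact Or.inr (Or.inr (Or.inr (Or.inr (Or.inr (Or.inl
      (P179H364.fewFixed_act hfin hN hact h))))))
  · refine Or.inr (Or.inr (Or.inr (Or.inr (Or.inr (Or.inr ⟨free_act hK hact h1, ?_⟩)))))
    rcases h2 with h2 | h2
    · left
      rw [exponent_act hact]
      exact (relIndex_act_fin hfin hK hact).trans_lt h2
    · right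
      rw [exponent_act hact, card_omega_act p hact]
      exact h2

/-- **`Solved` is preserved by isomorphisms and by the restriction of the action** -/
theorem solved_act {p : ℕ} {G X : Type*} [Group G] [Group X] {K S : Subgroup G}
    {D' T' : Subgroup X} (hfin : Finite K) (hN : S ≤ normalizer (K : Set G))
    (hact : ActSub K S D' T') (h : Solved p K S) :
    Finite D' ∧ T' ≤ normalizer (D' : Set X) ∧ Solved p D' T' := by
  refine ⟨?_, norm_act hN hact, Solved.act (fun h1 h2 h3 h4 => known_act_fin h1 h2 h3 h4) h hfin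
    hN hact⟩
  obtain ⟨e, -⟩ := hact
  exact Finite.of_equiv _ e.toEquiv

end P179H843
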