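import Vale.Agent.P179.R2.H843.SolvDef
import Vale.Agent.P179.R2.H364.ActT

/-!
# Transfer of the condition `Solved` along `ActSub`
-/

namespace P179H843

open Subgroup P179H292 P179B P179H364

open scoped Classical

section Act

variable {G X : Type*} [Group G] [Group X] {K T : Subgroup G} {D' T' : Subgroup X}

/-- the index of the kernel of the action, for finite `K` -/
theorem relIndex_act_fin (hfin : Finite K) (hK : ∀ t ∈ T, ∀ x ∈ K, t * x * t⁻¹ ∈ K)
    (h : ActSub K T D' T') :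
    (centralizer (D' : Set X)).relIndex T' ≤ (centralizer (K : Set G)).relIndex T := by
  obtain ⟨e, he⟩ := act_spec hK h
  choose! φ hφ hφe hφc using he
  have hfq : Finite (T ⧸ (centralizer (K : Set G)).subgroupOf T) := by
    refine Finite.of_injective (fun q : T ⧸ (centralizer (K : Set G)).subgroupOf T =>
      fun x : K => (⟨(q.out : G) * x * (q.out : G)⁻¹, hK _ q.out.2 x x.2⟩ : K)) ?_
    intro q r hqr
    rw [← q.out_eq', ← r.out_eq']
    refine QuotientGroup.eq.2 ?_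
    rw [mem_subgroupOf, mem_centralizer_iff]
    intro y hy
    have h1 := congrArg Subtype.val (congrFun hqr ⟨y, hy⟩)
    change (q.out : G) * y * (q.out : G)⁻¹ = r.out * y * (r.out : G)⁻¹ at h1
    change y * ((q.out : G)⁻¹ * r.out) = (q.out : G)⁻¹ * r.out * y
    calc y * ((q.out : G)⁻¹ * r.out)
        = (q.out : G)⁻¹ * ((q.out : G) * y * (q.out : G)⁻¹) * r.out := by group
      _ = (q.out : G)⁻¹ * r.out * y := by rw [h1]; group
  unfold relIndex
  refine Nat.card_le_card_of_injective (fun q : T' ⧸ (centralizer (D' : Set X)).subgroupOf T' =>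
    ((⟨φ q.out, hφ _ q.out.2⟩ : T) : T ⧸ (centralizer (K : Set G)).subgroupOf T)) ?_
  intro q r hqr
  have h0 : (⟨φ q.out, hφ _ q.out.2⟩ : T)⁻¹ * ⟨φ r.out, hφ _ r.out.2⟩ ∈
      (centralizer (K : Set G)).subgroupOf T := QuotientGroup.eq.1 hqr
  have h1 : (φ q.out)⁻¹ * φ r.out ∈ centralizer (K : Set G) := h0
  rw [mem_centralizer_iff] at h1
  rw [← q.out_eq', ← r.out_eq']
  refine QuotientGroup.eq.2 ?_
  rw [mem_subgroupOf, mem_centralizer_iff]
  intro y hy
  obtain ⟨x, hx⟩ := e.surjective ⟨y, hy⟩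
  have h2 : φ (q.out : X) * (x : G) * (φ (q.out : X))⁻¹ =
      φ (r.out : X) * (x : G) * (φ (r.out : X))⁻¹ := by
    have h3 := h1 x x.2
    calc φ (q.out : X) * (x : G) * (φ (q.out : X))⁻¹
        = φ (q.out : X) * ((x : G) * ((φ (q.out : X))⁻¹ * φ (r.out : X))) *
            (φ (r.out : X))⁻¹ := by group
      _ = φ (r.out : X) * (x : G) * (φ (r.out : X))⁻¹ := by rw [h3]; group
  have h4 := (hφe _ q.out.2 x ⟨φ (q.out : X) * x * (φ (q.out : X))⁻¹,
    hK _ (hφ _ q.out.2) x x.2⟩).1 rfl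
  have h5 := (hφe _ r.out.2 x ⟨φ (q.out : X) * x * (φ (q.out : X))⁻¹,
    hK _ (hφ _ q.out.2) x x.2⟩).1 h2
  rw [h4, hx] at h5
  change (q.out : X) * y * (q.out : X)⁻¹ = r.out * y * (r.out : X)⁻¹ at h5
  change y * ((q.out : X)⁻¹ * r.out) = (q.out : X)⁻¹ * r.out * y
  calc y * ((q.out : X)⁻¹ * r.out)
      = (q.out : X)⁻¹ * ((q.out : X) * y * (q.out : X)⁻¹) * r.out := by group
    _ = (q.out : X)⁻¹ * r.out * y := by rw [h5]; group

/-- the group `T'` normalises `D'` -/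
theorem norm_act (hN : T ≤ normalizer (K : Set G)) (h : ActSub K T D' T') :
    T' ≤ normalizer (D' : Set X) := by
  obtain ⟨e, he⟩ := h
  have hconj : ∀ t' ∈ T', ∀ d ∈ D', t' * d * t'⁻¹ ∈ D' := by
    intro t' ht' d hd
    obtain ⟨t, ht, h1⟩ := he t' ht'
    have hy : t * (e.symm ⟨d, hd⟩ : K) * t⁻¹ ∈ K :=
      (mem_normalizer_iff.1 (hN ht) _).1 (e.symm ⟨d, hd⟩).2
    have h2 := h1 (e.symm ⟨d, hd⟩) ⟨_, hy⟩ rfl
    rw [e.apply_symm_apply] at h2
    change _ = t' * d * t'⁻¹ at h2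
    rw [← h2]
    exact (e _).2
  intro t ht
  rw [mem_normalizer_iff]
  intro x
  refine ⟨fun hx => hconj t ht x hx, fun hx => ?_⟩
  have h1 := hconj t⁻¹ (inv_mem ht) _ hx
  have e : t⁻¹ * (t * x * t⁻¹) * t⁻¹⁻¹ = x := by group
  rwa [e] at h1

/-- the number of the regular elements -/
theorem card_reg_act (hfin : Finite K) (hK : ∀ t ∈ T, ∀ x ∈ K, t * x * t⁻¹ ∈ K)
    (h : ActSub K T D' T') :
    Nat.card {u : G // u ∈ K ∧ ∀ n ∈ T, n * u * n⁻¹ = u → n ∈ centralizer (K : Set G)} ≤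
      Nat.card {u : X // u ∈ D' ∧ ∀ n ∈ T', n * u * n⁻¹ = u →
        n ∈ centralizer (D' : Set X)} := by
  obtain ⟨e, he⟩ := act_spec hK h
  have hfD : Finite D' := Finite.of_equiv _ e.toEquiv
  have hf2 : Finite {u : X // u ∈ D' ∧ ∀ n ∈ T', n * u * n⁻¹ = u →
      n ∈ centralizer (D' : Set X)} :=
    Finite.of_injective (fun u => (⟨u.1, u.2.1⟩ : D')) fun u v huv => by
      exact Subtype.ext (congrArg (fun z : D' => (z : X)) huv)
  refine Nat.card_le_card_of_injective (fun u => ⟨(e ⟨u.1, u.2.1⟩ : X), (e _).2, ?_⟩) ?_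
  · intro n' hn' hnu
    obtain ⟨n, hn, hne, hc⟩ := he n' hn'
    refine hc.1 (u.2.2 n hn ?_)
    exact ((hne ⟨u.1, u.2.1⟩ ⟨u.1, u.2.1⟩).2 hnu.symm).symm
  · intro u v huv
    have h1 := congrArg Subtype.val huv
    have h2 := e.injective (Subtype.ext h1)
    exact Subtype.ext (congrArg (fun z : K => (z : G)) h2)

/-- the subgroups `[F, K]` and `[F', D']` with their normalisers -/
theorem comm_act (hK : ∀ t ∈ T, ∀ x ∈ K, t * x * t⁻¹ ∈ K) (h : ActSub K T D' T') {q : ℕ}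
    {F' : Subgroup X} (hF' : F' ≤ T') (hq : ∀ n ∈ F', ∀ d ∈ D', n * d ^ q * n⁻¹ = d ^ q) :
    ∃ F ≤ T, (∀ n ∈ F, ∀ d ∈ K, n * d ^ q * n⁻¹ = d ^ q) ∧
      ActSub (⁅F, K⁆ : Subgroup G) (T ⊓ normalizer ((⁅F, K⁆ : Subgroup G) : Set G))
        (⁅F', D'⁆ : Subgroup X) (T' ⊓ normalizer ((⁅F', D'⁆ : Subgroup X) : Set X)) := by
  obtain ⟨e, he⟩ := act_spec hK h
  have hF'D : ∀ t' ∈ T', ∀ d ∈ D', t' * d * t'⁻¹ ∈ D' := by
    intro t' ht' d hd
    obtain ⟨t, ht, h1, -⟩ := he t' ht'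
    have h2 := (h1 (e.symm ⟨d, hd⟩) ⟨_, hK t ht _ (e.symm ⟨d, hd⟩).2⟩).1 rfl
    rw [e.apply_symm_apply] at h2
    change _ = t' * d * t'⁻¹ at h2
    rw [← h2]
    exact (e _).2
  let F : Subgroup G :=
    { carrier := {t | t ∈ T ∧ ∃ f ∈ F', ∀ x y : K, (y : G) = t * x * t⁻¹ →
        (e y : X) = f * (e x : X) * f⁻¹}
      mul_mem' := by
        rintro s t ⟨hs, f, hf, hfs⟩ ⟨ht, g, hg, hgt⟩
        refine ⟨mul_mem hs ht, f * g, mul_mem hf hg, fun x y hxy => ?_⟩
        have h1 := hgt x ⟨t * x * t⁻¹, hK t ht x x.2⟩ rfl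
        have h2 := hfs ⟨t * x * t⁻¹, hK t ht x x.2⟩ y (by
          rw [hxy]
          change s * t * x * (s * t)⁻¹ = s * (t * x * t⁻¹) * s⁻¹
          group)
        rw [h2, h1]
        group
      one_mem' := ⟨one_mem T, 1, one_mem F', fun x y hxy => by
        have h1 : y = x := Subtype.ext (by rw [hxy]; group)
        rw [h1]
        group⟩
      inv_mem' := by
        rintro t ⟨ht, f, hf, hft⟩
        refine ⟨inv_mem ht, f⁻¹, inv_mem hf, fun x y hxy => ?_⟩
        have h1 := hft y x (by rw [hxy]; group)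
        rw [h1]
        group }
  have hFT : F ≤ T := fun t ht => ht.1
  have hFK : ∀ t ∈ F, ∀ x ∈ K, t * x * t⁻¹ ∈ K := fun t ht => hK t (hFT ht)
  have h1 : (⁅F, K⁆ : Subgroup G) ≤ K := by
    rw [commutator_le]
    intro f hf x hx
    rw [commutatorElement_def]
    exact mul_mem (hFK f hf x hx) (inv_mem hx)
  have h2 : (⁅F', D'⁆ : Subgroup X) ≤ D' := by
    rw [commutator_le]
    intro f hf x hx
    rw [commutatorElement_def]
    exact mul_mem (hF'D f (hF' hf) x hx) (inv_mem hx)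
  -- the correspondence
  have key : ∀ x : K, (x : G) ∈ (⁅F, K⁆ : Subgroup G) ↔ (e x : X) ∈ (⁅F', D'⁆ : Subgroup X) := by
    intro x
    constructor
    · intro hx
      have h3 : (⁅F, K⁆ : Subgroup G) ≤ (((⁅F', D'⁆ : Subgroup X).subgroupOf D').comap
          e.toMonoidHom).map K.subtype := by
        rw [commutator_le]
        rintro t ⟨ht, f, hf, hft⟩ d hd
        have h4 := hft ⟨d, hd⟩ ⟨t * d * t⁻¹, hK t ht d hd⟩ rfl
        refine ⟨⟨t * d * t⁻¹, hK t ht d hd⟩ * ⟨d, hd⟩⁻¹, ?_, ?_⟩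
        · change ((e (⟨t * d * t⁻¹, hK t ht d hd⟩ * ⟨d, hd⟩⁻¹) : D') : X) ∈ (⁅F', D'⁆ : Subgroup X)
          rw [map_mul, map_inv]
          change ((e ⟨t * d * t⁻¹, hK t ht d hd⟩ : D') : X) * ((e ⟨d, hd⟩ : D') : X)⁻¹ ∈
            (⁅F', D'⁆ : Subgroup X)
          rw [h4]
          exact commutator_mem_commutator hf (e ⟨d, hd⟩).2
        · rw [commutatorElement_def]
          rfl
      obtain ⟨y, hy, hyx⟩ := h3 hx
      have h5 : y = x := Subtype.ext hyx
      rw [← h5]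
      exact hy
    · intro hx
      have h3 : (⁅F', D'⁆ : Subgroup X) ≤ (((⁅F, K⁆ : Subgroup G).subgroupOf K).comap
          e.symm.toMonoidHom).map D'.subtype := by
        rw [commutator_le]
        intro f hf d' hd'
        obtain ⟨t, ht, hte, -⟩ := he f (hF' hf)
        have htF : t ∈ F := ⟨ht, f, hf, fun x y hxy => (hte x y).1 hxy⟩
        set d : K := e.symm ⟨d', hd'⟩ with hd
        have hed : (e d : X) = d' := by rw [hd, e.apply_symm_apply]
        have h4 := (hte d ⟨t * d * t⁻¹, hK t ht d d.2⟩).1 rfl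
        rw [hed] at h4
        refine ⟨e (⟨t * d * t⁻¹, hK t ht d d.2⟩ * d⁻¹), ?_, ?_⟩
        · change ((e.symm (e (⟨t * d * t⁻¹, hK t ht d d.2⟩ * d⁻¹)) : K) : G) ∈
            (⁅F, K⁆ : Subgroup G)
          rw [e.symm_apply_apply]
          exact commutator_mem_commutator htF d.2
        · rw [map_mul, map_inv, commutatorElement_def]
          change ((e ⟨t * d * t⁻¹, hK t ht d d.2⟩ : D') : X) * ((e d : D') : X)⁻¹ = _
          rw [h4, hed]
      obtain ⟨y, hy, hyx⟩ := h3 hx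
      have h5 : y = e x := Subtype.ext hyx
      rw [h5] at hy
      change ((e.symm (e x) : K) : G) ∈ (⁅F, K⁆ : Subgroup G) at hy
      rwa [e.symm_apply_apply] at hy
  refine ⟨F, hFT, ?_, ?_⟩
  · rintro t ⟨ht, f, hf, hft⟩ d hd
    have h3 := hft (⟨d, hd⟩ ^ q) ⟨t * d ^ q * t⁻¹, hK t ht _ (pow_mem hd q)⟩ rfl
    have h4 := hq f hf _ (e ⟨d, hd⟩).2
    have h5 : ((e (⟨d, hd⟩ ^ q) : D') : X) = ((e ⟨d, hd⟩ : D') : X) ^ q := by
      rw [map_pow]
      rfl
    rw [h5, h4, ← h5] at h3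
    exact congrArg (fun z : K => (z : G)) (e.injective (Subtype.ext h3))
  · let e' : (⁅F, K⁆ : Subgroup G) ≃* (⁅F', D'⁆ : Subgroup X) :=
      { toFun := fun x => ⟨e ⟨x, h1 x.2⟩, (key _).1 x.2⟩
        invFun := fun y => ⟨e.symm ⟨y, h2 y.2⟩, (key _).2 (by
          rw [e.apply_symm_apply]
          exact y.2)⟩
        left_inv := fun x => by
          apply Subtype.ext
          change ((e.symm (e ⟨x, h1 x.2⟩) : K) : G) = x
          rw [e.symm_apply_apply]
        right_inv := fun y => by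
          apply Subtype.ext
          change ((e (e.symm ⟨y, h2 y.2⟩) : D') : X) = y
          rw [e.apply_symm_apply]
        map_mul' := fun x y => by
          apply Subtype.ext
          change ((e (⟨x, h1 x.2⟩ * ⟨y, h1 y.2⟩) : D') : X) = _
          rw [map_mul]
          rfl }
    refine ⟨e', fun t' ht' => ?_⟩
    obtain ⟨t, ht, hte, -⟩ := he t' ht'.1
    refine ⟨t, mem_inf.2 ⟨ht, ?_⟩, fun x y hxy => (hte ⟨x, h1 x.2⟩ ⟨y, h1 y.2⟩).1 hxy⟩
    have h3 : ∀ x ∈ K, (x ∈ (⁅F, K⁆ : Subgroup G) ↔ t * x * t⁻¹ ∈ (⁅F, K⁆ : Subgroup G)) := by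
      intro x hx
      have h4 := (hte ⟨x, hx⟩ ⟨t * x * t⁻¹, hK t ht x hx⟩).1 rfl
      have h5 := key ⟨x, hx⟩
      have h6 := key ⟨t * x * t⁻¹, hK t ht x hx⟩
      rw [h4] at h6
      change x ∈ (⁅F, K⁆ : Subgroup G) ↔ _ at h5
      change t * x * t⁻¹ ∈ (⁅F, K⁆ : Subgroup G) ↔ _ at h6
      rw [h5, h6]
      exact mem_normalizer_iff.1 ht'.2 _
    rw [mem_normalizer_iff]
    intro x
    refine ⟨fun hx => (h3 x (h1 hx)).1 hx, fun hx => ?_⟩
    -- `x = t⁻¹ (t x t⁻¹) t ∈ K`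
    have h4 : x ∈ K := by
      obtain ⟨y, hy⟩ : ∃ y ∈ K, t * y * t⁻¹ = t * x * t⁻¹ := by
        have h6 : t'⁻¹ * (e ⟨_, h1 hx⟩ : X) * t' ∈ D' := by
          have h7 := hF'D t'⁻¹ (inv_mem ht'.1) _ (e ⟨_, h1 hx⟩).2
          rwa [inv_inv] at h7
        refine ⟨e.symm ⟨_, h6⟩, (e.symm ⟨_, h6⟩).2, ?_⟩
        refine ((hte (e.symm ⟨_, h6⟩) ⟨_, h1 hx⟩).2 ?_).symm
        rw [e.apply_symm_apply]
        group
      have h5 : y = x := by
        have h6 := hy.2
        exact mul_left_cancel (mul_right_cancel h6)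
      rw [← h5]
      exact hy.1
    exact (h3 x h4).2 hx

end Act

/-- **`Solved` is preserved by isomorphisms and by the restriction of the action** -/
theorem Solved.act {p : ℕ} {G X : Type*} [Group G] [Group X]
    (hKn : ∀ {K S : Subgroup G} {D' T' : Subgroup X}, Finite K → S ≤ normalizer (K : Set G) →
      ActSub K S D' T' → Known p K S → Known p D' T')
    {K S : Subgroup G} (h : Solved p K S) :
    ∀ {D' T' : Subgroup X}, Finite K → S ≤ normalizer (K : Set G) → ActSub K S D' T' →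
      Solved p D' T' := by
  induction h with
  | known h => exact fun hfin hN hact => .known (hKn hfin hN hact h)
  | @step K S a j o w hex hj ho hw hord hreg hii he hcd _ ih =>
    intro D' T' hfin hN hact
    have hK : ∀ t ∈ S, ∀ x ∈ K, t * x * t⁻¹ ∈ K := fun t ht x hx =>
      (mem_normalizer_iff.1 (hN ht) x).1 hx
    obtain ⟨e, hee⟩ := act_spec hK hact
    have hinj : ∀ {x y : K}, (e x : X) = e y → x = y := fun h => e.injective (Subtype.ext h)
    refine .step a j o (e ⟨w, hw⟩) ?_ hj ho (e _).2 (fun i => ?_) ?_ ?_ ?_ ?_ ?_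
    · obtain ⟨d, hd, hd1⟩ := hex
      refine ⟨e ⟨d, hd⟩, (e _).2, fun h1 => hd1 ?_⟩
      have h2 : ((e (⟨d, hd⟩ ^ p ^ a) : D') : X) = e 1 := by
        rw [map_pow, map_one]
        exact h1
      exact congrArg (fun z : K => (z : G)) (hinj h2)
    · rw [← hord i]
      constructor
      · rintro ⟨d', hd', h1⟩
        refine ⟨e.symm ⟨d', hd'⟩, (e.symm _).2, ?_⟩
        have h2 : ((e (⟨w, hw⟩ ^ i) : D') : X) = e (e.symm ⟨d', hd'⟩ ^ p ^ j) := by
          rw [map_pow, map_pow, e.apply_symm_apply]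
          exact h1
        exact congrArg (fun z : K => (z : G)) (hinj h2)
      · rintro ⟨d, hd, h1⟩
        refine ⟨e ⟨d, hd⟩, (e _).2, ?_⟩
        have h2 : (⟨w, hw⟩ : K) ^ i = ⟨d, hd⟩ ^ p ^ j := Subtype.ext h1
        have h3 := congrArg e h2
        rw [map_pow, map_pow] at h3
        exact congrArg (fun z : D' => (z : X)) h3
    · rintro n' hn' ⟨d', hd', h1⟩
      obtain ⟨n, hn, hne, hc⟩ := hee n' hn'
      refine hc.1 (hreg n hn ⟨e.symm ⟨d', hd'⟩, (e.symm _).2, ?_⟩)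
      have h2 := (hne ⟨w, hw⟩ ⟨n * w * n⁻¹, hK n hn w hw⟩).1 rfl
      have h3 : ((e (⟨n * w * n⁻¹, hK n hn w hw⟩ * ⟨w, hw⟩⁻¹) : D') : X) =
          e (e.symm ⟨d', hd'⟩ ^ p ^ j) := by
        rw [map_mul, map_inv, map_pow, e.apply_symm_apply]
        change ((e ⟨n * w * n⁻¹, hK n hn w hw⟩ : D') : X) * ((e ⟨w, hw⟩ : D') : X)⁻¹ = d' ^ p ^ j
        rw [h2]
        exact h1
      exact congrArg (fun z : K => (z : G)) (hinj h3)
    · rw [card_act hact]
      calc (centralizer (D' : Set X)).relIndex T' * Nat.card K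
          ≤ (centralizer (K : Set G)).relIndex S * Nat.card K :=
            Nat.mul_le_mul_right _ (relIndex_act_fin hfin hK hact)
        _ < _ := hii
        _ ≤ _ := Nat.mul_le_mul_left _ (card_reg_act hfin hK hact)
    · exact (relIndex_act_fin hfin hK hact).trans he
    · rw [card_act hact, card_pow_act (p ^ j) hact]
      exact hcd
    · intro F' hF' hq
      obtain ⟨F, hFS, hFq, hF⟩ := comm_act hK hact hF' hq
      have h1 : (⁅F, K⁆ : Subgroup G) ≤ K := by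
        rw [commutator_le]
        intro f hf x hx
        rw [commutatorElement_def]
        exact mul_mem (hK f (hFS hf) x hx) (inv_mem hx)
      refine ih F hFS hFq ?_ inf_le_right hF
      exact Finite.of_injective (fun x : (⁅F, K⁆ : Subgroup G) => (⟨x, h1 x.2⟩ : K))
        fun x y hxy => Subtype.ext (congrArg (fun z : K => (z : G)) hxy)

end P179H843
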