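import Vale.Agent.P179.R2.H12.Small2

/-!
# The number of the elements which are not regular
-/

namespace P179H843

open Subgroup P179B

open scoped Classical

/-- the first condition of `GrowBy` -/
theorem div_of_growBy {p : ℕ} {G : Type*} [Group G] [Finite G] {D : Subgroup G} {f : ℕ → ℕ}
    {n : ℕ} (hn : f 1 - 1 = n) (h : GrowBy f p D) :
    ∀ x ∈ D, x ^ p = 1 → ∃ y ∈ D, y ^ p ^ n = x := by
  have h2 := h 1 le_rfl
  rw [Nat.sub_self, pow_zero, one_mul, hn] at h2
  have h4 : {x : G | (∃ y ∈ D, y ^ p ^ n = x) ∧ x ^ p = 1} = {x : G | x ∈ D ∧ x ^ p = 1} := by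
    refine Set.eq_of_subset_of_ncard_le ?_ h2 (Set.toFinite _)
    rintro x ⟨⟨y, hy, rfl⟩, hx⟩
    exact ⟨pow_mem hy _, hx⟩
  intro x hx hx1
  have h5 : x ∈ {x : G | (∃ y ∈ D, y ^ p ^ n = x) ∧ x ^ p = 1} := by
    rw [h4]
    exact ⟨hx, hx1⟩
  exact h5.1

/-- **the number of the elements which are not regular**, if all cyclic factors of `D` have order
at least `p ^ m` -/
theorem nonreg_card {p : ℕ} [hp : Fact p.Prime] {G : Type*} [Group G] [Finite G]
    {D T : Subgroup G} (hD : IsPGroup p D) (hab : ∀ a ∈ D, ∀ b ∈ D, a * b = b * a)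
    (hTN : T ≤ normalizer (D : Set G)) (hT : ¬ p ∣ (centralizer (D : Set G)).relIndex T) {m : ℕ}
    (hG : GrowBy (fun _ => m) p D) :
    p ^ m * (Nat.card D - Nat.card {u : G // u ∈ D ∧ ∀ n ∈ T, n * u * n⁻¹ = u →
      n ∈ centralizer (D : Set G)}) ≤
      ((centralizer (D : Set G)).relIndex T - 1) * Nat.card D := by
  have hdiv : ∀ x ∈ D, x ^ p = 1 → ∃ y ∈ D, y ^ p ^ (m - 1) = x := div_of_growBy rfl hG
  have h1 := P179H12.card_good_level hD hab hTN hT hdiv
  set A := Nat.card {w : G // w ∈ D ∧ ∀ t ∈ T, t * w * t⁻¹ * w⁻¹ ∈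
    P179H92.pwS hab (p ^ (m - 1 + 1)) → t ∈ centralizer (D : Set G)} with hA
  set R := Nat.card {u : G // u ∈ D ∧ ∀ n ∈ T, n * u * n⁻¹ = u →
      n ∈ centralizer (D : Set G)} with hR
  have hAR : A ≤ R := by
    refine Nat.card_mono (Set.toFinite {u : G | u ∈ D ∧ ∀ n ∈ T, n * u * n⁻¹ = u →
      n ∈ centralizer (D : Set G)}) ?_
    rintro u ⟨hu, h⟩
    refine ⟨hu, fun n hn hnu => h n hn ?_⟩
    rw [hnu, mul_inv_cancel]
    exact one_mem _
  have hRD : R ≤ Nat.card D := Nat.card_mono (Set.toFinite (D : Set G)) fun u hu => hu.1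
  set e := (centralizer (D : Set G)).relIndex T with he
  have he0 : e ≠ 0 := by
    intro h0
    apply hT
    rw [h0]
    exact dvd_zero p
  obtain ⟨c, hc⟩ := Nat.exists_eq_succ_of_ne_zero he0
  obtain ⟨d, hd⟩ := Nat.exists_eq_add_of_le hRD
  have hle : p ^ m ≤ p ^ (m - 1 + 1) := Nat.pow_le_pow_right hp.out.pos (by omega)
  have h2 : p ^ (m - 1 + 1) * A ≤ p ^ (m - 1 + 1) * R := Nat.mul_le_mul_left _ hAR
  have h3 : p ^ (m - 1 + 1) * d ≤ c * Nat.card D := by
    have h4 : p ^ (m - 1 + 1) * Nat.card D = p ^ (m - 1 + 1) * R + p ^ (m - 1 + 1) * d := by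
      rw [hd, mul_add]
    have h5 : e * Nat.card D = c * Nat.card D + Nat.card D := by
      rw [hc, Nat.succ_eq_add_one, add_mul, one_mul]
    omega
  have h4 : Nat.card D - R = d := by omega
  have h5 : e - 1 = c := by omega
  rw [h4, h5]
  exact (Nat.mul_le_mul_right _ hle).trans h3

/-- the same with the regular elements of a block -/
theorem nonreg_card' {p : ℕ} [hp : Fact p.Prime] {G : Type*} [Group G] [Finite G]
    {D T : Subgroup G} (hD : IsPGroup p D) (hab : ∀ a ∈ D, ∀ b ∈ D, a * b = b * a)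
    (hTN : T ≤ normalizer (D : Set G)) (hT : ¬ p ∣ (centralizer (D : Set G)).relIndex T) {m : ℕ}
    (hG : GrowBy (fun _ => m) p D) :
    p ^ m * Nat.card D + Nat.card D ≤ p ^ m * Nat.card {u : G // u ∈ D ∧ ∀ n ∈ T, n * u * n⁻¹ = u →
      n ∈ centralizer (D : Set G)} + (centralizer (D : Set G)).relIndex T * Nat.card D := by
  have h1 := nonreg_card hD hab hTN hT hG
  have hRD : Nat.card {u : G // u ∈ D ∧ ∀ n ∈ T, n * u * n⁻¹ = u →
      n ∈ centralizer (D : Set G)} ≤ Nat.card D :=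
    Nat.card_mono (Set.toFinite (D : Set G)) fun u hu => hu.1
  set R := Nat.card {u : G // u ∈ D ∧ ∀ n ∈ T, n * u * n⁻¹ = u →
      n ∈ centralizer (D : Set G)} with hR
  set e := (centralizer (D : Set G)).relIndex T with he
  have he0 : e ≠ 0 := by
    intro h0
    apply hT
    rw [h0]
    exact dvd_zero p
  obtain ⟨c, hc⟩ := Nat.exists_eq_succ_of_ne_zero he0
  obtain ⟨d, hd⟩ := Nat.exists_eq_add_of_le hRD
  have h4 : Nat.card D - R = d := by omega
  have h5 : e - 1 = c := by omega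
  rw [h4, h5] at h1
  have h6 : p ^ m * Nat.card D = p ^ m * R + p ^ m * d := by
    rw [hd, mul_add]
  have h7 : e * Nat.card D = c * Nat.card D + Nat.card D := by
    rw [hc, Nat.succ_eq_add_one, add_mul, one_mul]
  omega

end P179H843
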