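import Mathlib

/-!
# The Fitting idempotent of an element of a finite dimensional algebra
-/

namespace P179H843

open Polynomial

section fit

variable {k : Type*} [Field k]

/-- values of polynomials at idempotents -/
theorem aeval_idem' {B : Type*} [Ring B] [Algebra k B] (q : k[X]) {b : B}
    (hb : IsIdempotentElem b) : aeval b q = (q.eval 1) • b + (q.eval 0) • (1 - b) := by
  induction q using Polynomial.induction_on' with
  | add p q hp hq =>
    rw [map_add, hp, hq, eval_add, eval_add, add_smul, add_smul]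
    abel
  | monomial n a =>
    rw [aeval_monomial, eval_monomial, eval_monomial, one_pow, mul_one, ← Algebra.smul_def]
    rcases Nat.eq_zero_or_pos n with h | h
    · subst h
      rw [pow_zero, pow_zero, mul_one, ← smul_add, add_sub_cancel]
    · rw [hb.pow_eq h.ne', zero_pow h.ne', mul_zero, zero_smul, add_zero]

/-- a polynomial fixing `0` and `1` fixes the idempotents -/
theorem aeval_idem {B : Type*} [Ring B] [Algebra k B] {q : k[X]} (h0 : q.eval 0 = 0)
    (h1 : q.eval 1 = 1) {b : B} (hb : IsIdempotentElem b) : aeval b q = b := by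
  rw [aeval_idem' q hb, h0, h1, one_smul, zero_smul, add_zero]

/-- **the Fitting idempotent** -/
theorem exists_fitting {A : Type*} [Ring A] [Algebra k A] [Module.Finite k A] (a : A) :
    ∃ q : k[X], q.eval 0 = 0 ∧ q.eval 1 = 1 ∧ IsIdempotentElem (aeval a q) := by
  classical
  have hm0 : minpoly k a ≠ 0 := minpoly.ne_zero (Algebra.IsIntegral.isIntegral a)
  obtain ⟨g, hg, hgX⟩ := exists_eq_pow_rootMultiplicity_mul_and_not_dvd (minpoly k a) hm0 0
  set s := rootMultiplicity 0 (minpoly k a)
  rw [C_0, sub_zero] at hg hgX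
  -- `X ^ (s + 1)` and `g (X - 1)` are coprime
  have hXg : IsCoprime (X : k[X]) g := (prime_X.coprime_iff_not_dvd).2 hgX
  have hX1 : IsCoprime (X : k[X]) (X - 1) := by
    refine ⟨1, -1, ?_⟩
    ring
  obtain ⟨u, v, huv⟩ := (hXg.mul_right hX1).pow_left (m := s + 1)
  refine ⟨u * X ^ (s + 1), ?_, ?_, ?_⟩
  · rw [eval_mul, eval_pow, eval_X, zero_pow (Nat.succ_ne_zero s), mul_zero]
  · have h1 := congrArg (eval 1) huv
    have h2 : eval 1 (v * (g * (X - 1))) = 0 := by
      rw [eval_mul, eval_mul, eval_sub, eval_X, eval_one, sub_self, mul_zero, mul_zero]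
    rw [eval_add, h2, add_zero, eval_one] at h1
    exact h1
  · have h1 : (minpoly k a) ∣ (u * X ^ (s + 1)) * (u * X ^ (s + 1)) - u * X ^ (s + 1) := by
      have h2 : (u * X ^ (s + 1)) * (u * X ^ (s + 1)) - u * X ^ (s + 1) =
          X ^ s * g * (-(u * X * v * (X - 1))) := by
        have h3 : u * X ^ (s + 1) - 1 = -(v * (g * (X - 1))) := by
          linear_combination huv
        calc (u * X ^ (s + 1)) * (u * X ^ (s + 1)) - u * X ^ (s + 1) =
            u * X ^ (s + 1) * (u * X ^ (s + 1) - 1) := by ring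
          _ = X ^ s * g * (-(u * X * v * (X - 1))) := by
            rw [h3]
            ring
      rw [h2, ← hg]
      exact dvd_mul_right _ _
    have h2 : aeval a ((u * X ^ (s + 1)) * (u * X ^ (s + 1)) - u * X ^ (s + 1)) = 0 := by
      obtain ⟨w, hw⟩ := h1
      rw [hw, map_mul, minpoly.aeval, zero_mul]
    rw [map_sub, map_mul, sub_eq_zero] at h2
    exact h2

/-- the Fitting idempotent and algebra homomorphisms -/
theorem map_fitting {A B : Type*} [Ring A] [Algebra k A] [Ring B] [Algebra k B] {a : A} {q : k[X]}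
    (h0 : q.eval 0 = 0) (h1 : q.eval 1 = 1) (ψ : A →ₐ[k] B) (hb : IsIdempotentElem (ψ a)) :
    ψ (aeval a q) = ψ a := by
  rw [← aeval_algHom_apply, aeval_idem h0 h1 hb]

/-- the Fitting idempotent lies in `a A` and `A a` -/
theorem fitting_factor {q : k[X]} (h0 : q.eval 0 = 0) : ∃ q' : k[X], ∀ {A : Type*} [Ring A]
    [Algebra k A] (a : A), aeval a q = a * aeval a q' ∧ aeval a q = aeval a q' * a := by
  have h1 : (X : k[X]) ∣ q := by
    have := dvd_iff_isRoot.2 (show q.IsRoot 0 from h0)
    rwa [C_0, sub_zero] at this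
  obtain ⟨q', rfl⟩ := h1
  refine ⟨q', fun {A} _ _ a => ⟨?_, ?_⟩⟩
  · rw [map_mul, aeval_X]
  · rw [mul_comm, map_mul, aeval_X]

end fit

end P179H843
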