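import Vale.Agent.P179.R2.H12.Tst

/-!
# The block of `C_G(P)` below a pair `(D, l)`, `P ≤ D`, and its stabiliser in `N_G(P)`
-/

namespace P179H843

open Subgroup Finset P179H524 P179C P179A P179P P179Y P179H12

open scoped Classical

universe u

section

variable {p : ℕ} [hp : Fact p.Prime] {k : Type u} [Field k] [IsAlgClosed k] [CharP k p]
  {G : Type} [Group G] [Fintype G] {D P : Subgroup G} {l : (G → k) → k}

omit [Fintype G] in
theorem norm_le_norm_cent (P : Subgroup G) :
    normalizer (P : Set G) ≤ normalizer (centralizer (P : Set G) : Set G) := by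
  intro n hn
  rw [mem_normalizer_iff]
  intro x
  exact (conj_mem_cent hn x).symm

omit [Fintype G] [IsAlgClosed k] in
theorem mem_stabT_iff {n : G} :
    n ∈ stabT P l ↔ n ∈ normalizer (P : Set G) ∧ n ∈ stH (centralizer (P : Set G)) l :=
  ⟨fun h => ⟨h.1, norm_le_norm_cent P h.1, h.2⟩, fun h => ⟨h.1, h.2.2⟩⟩

omit [Fintype G] [IsAlgClosed k] in
theorem stabT_le_norm_cent : stabT P l ≤ normalizer (centralizer (P : Set G) : Set G) :=
  fun _ h => norm_le_norm_cent P h.1

omit [IsAlgClosed k] [CharP k p] hp in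
theorem inf_le_stabT (hl : BP p D l) (hPD : P ≤ D) :
    stabT D l ⊓ normalizer (P : Set G) ≤ stabT P l := by
  intro n hn
  rw [mem_stabT_iff]
  exact ⟨hn.2, stabT_le_stH hl (centralizer_le hPD) hn.1 (norm_le_norm_cent P hn.2)⟩

theorem exists_stab' (hl : BP p D l) (hD : IsPGroup p D) (hab : D ≤ centralizer (D : Set G))
    (hT : ¬ p ∣ (centralizer (D : Set G)).relIndex (stabT D l)) (hPD : P ≤ D) {g : G}
    (hg : g ∈ stabT P l) :
    ∃ c ∈ centralizer (P : Set G), c⁻¹ * g ∈ stabT D l ⊓ normalizer (P : Set G) := by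
  have hCP : centralizer (D : Set G) ≤ centralizer (P : Set G) := centralizer_le hPD
  obtain ⟨c, hc, hcg⟩ := exists_stab hl hD hab hT (hab.trans hCP) hCP (mem_stabT_iff.1 hg).2
  exact ⟨c, hc, mem_inf.2 ⟨hcg, (normalizer (P : Set G)).mul_mem
    ((normalizer (P : Set G)).inv_mem (cent_le_norm P hc)) hg.1⟩⟩

/-- the index is prime to `p` -/
theorem relIndex_dvd (hl : BP p D l) (hD : IsPGroup p D) (hab : D ≤ centralizer (D : Set G))
    (hT : ¬ p ∣ (centralizer (D : Set G)).relIndex (stabT D l)) (hPD : P ≤ D)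
    (hnil : ∀ n ∈ stabT D l, n ∈ centralizer (P : Set G) → n ∈ centralizer (D : Set G)) :
    (centralizer (P : Set G)).relIndex (stabT P l) ∣
      (centralizer (D : Set G)).relIndex (stabT D l) := by
  set Γ := stabT P l with hΓ
  set C := centralizer (P : Set G) with hC
  have hCΓ : C ≤ Γ := cent_le_stabT P l
  have hSΓ : stabT D l ⊓ normalizer (P : Set G) ≤ Γ := inf_le_stabT hl hPD
  have hn : (C.subgroupOf Γ).Normal := by
    refine ⟨fun x hx g => ?_⟩
    rw [mem_subgroupOf] at hx ⊢
    exact (mem_normalizer_iff.1 (stabT_le_norm_cent g.2) _).1 hx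
  have hsup : (stabT D l ⊓ normalizer (P : Set G)).subgroupOf Γ ⊔ C.subgroupOf Γ = ⊤ := by
    rw [eq_top_iff]
    rintro ⟨g, hg⟩ -
    obtain ⟨c, hc, hcg⟩ := exists_stab' hl hD hab hT hPD hg
    have h1 : (⟨g, hg⟩ : Γ) = ⟨c, hCΓ hc⟩ * ⟨c⁻¹ * g, hSΓ hcg⟩ := by
      apply Subtype.ext
      change g = c * (c⁻¹ * g)
      group
    rw [h1]
    exact mul_mem (mem_sup_right (mem_subgroupOf.2 hc)) (mem_sup_left (mem_subgroupOf.2 hcg))
  have h1 : C.relIndex Γ = C.relIndex (stabT D l ⊓ normalizer (P : Set G)) := by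
    change (C.subgroupOf Γ).index = _
    rw [← relIndex_top_right, ← hsup, relIndex_sup_right, relIndex_subgroupOf hSΓ]
  have h2 : C ⊓ (stabT D l ⊓ normalizer (P : Set G)) = centralizer (D : Set G) := by
    apply le_antisymm
    · intro x hx
      exact hnil x hx.2.1 hx.1
    · refine le_inf (centralizer_le hPD) (le_inf (cent_le_stabT D l) ?_)
      exact (centralizer_le hPD).trans (cent_le_norm P)
  rw [h1, ← inf_relIndex_right, h2]
  refine Dvd.intro _ (relIndex_mul_relIndex _ _ _ ?_ inf_le_left)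
  rw [← h2]
  exact inf_le_right

/-- the data of the block of `C_G(P)` below the pair -/
theorem block_data (red : integralClosure ℤ ℂ →+* k) (hl : BP p D l) (hD : IsPGroup p D)
    (hab : D ≤ centralizer (D : Set G))
    (hT : ¬ p ∣ (centralizer (D : Set G)).relIndex (stabT D l)) (hPD : P ≤ D)
    (hnil : ∀ n ∈ stabT D l, n ∈ centralizer (P : Set G) → n ∈ centralizer (D : Set G)) :
    ∃ b : MonoidAlgebra k (centralizer (P : Set G)), IsBlock b ∧
      Low (centralizer (P : Set G)) l b ∧
      (∀ b' : MonoidAlgebra k (centralizer (P : Set G)), IsBlock b' →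
        Low (centralizer (P : Set G)) l b' → b' = b) ∧
      (∀ x, x ∉ centralizer (P : Set G) → bF (centralizer (P : Set G)) b x = 0) ∧
      (∀ t ∈ stabT P l, ∀ x, bF (centralizer (P : Set G)) b (t * x * t⁻¹) =
        bF (centralizer (P : Set G)) b x) ∧
      conv (bF (centralizer (P : Set G)) b) (bF (centralizer (P : Set G)) b) =
        bF (centralizer (P : Set G)) b ∧
      numSimpleIn b = 1 ∧ ¬ p ∣ (centralizer (P : Set G)).relIndex (stabT P l) := by
  have hCP : centralizer (D : Set G) ≤ centralizer (P : Set G) := centralizer_le hPD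
  have hml : MulH (centralizer (P : Set G)) l := BP.mulH hl hD hab hCP
  obtain ⟨b, hb, hlb⟩ := exists_blk hml
  refine ⟨b, hb, hlb, fun b' hb' hlb' => ?_, (invOn_bF hb.1).2, fun t ht x => ?_,
    conv_bF_self hb, numSimple_low red hl hD hab (hab.trans hCP) hCP hnil hb hlb, fun h =>
      hT (h.trans (relIndex_dvd hl hD hab hT hPD hnil))⟩
  · refine hlb.unique hb hb' ?_
    rw [hlb'.one hb']
    exact one_ne_zero
  · have h0 := inv_mem ht
    have h1 := (mem_stH_iff hml hb hlb (stabT_le_norm_cent h0)).1 (mem_stabT_iff.1 h0).2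
    have h2 := congrFun h1 x
    unfold cj at h2
    rwa [inv_inv] at h2

end

end P179H843
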