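import Vale.Agent.P179.R2.H843.Quad

/-!
# The quadratic identity for finite sets with an action of the braid group on four strands
-/

set_option linter.unusedSectionVars false

namespace P179N

open Finset

open scoped commutatorElement

section F2

/-- the free group of rank two -/
abbrev F2 := FreeGroup (Fin 2)

/-- first generator -/
def gu : F2 := FreeGroup.of 0

/-- second generator -/
def gv : F2 := FreeGroup.of 1

/-- the commutator `[v, u⁻¹]` -/
def kap : F2 := gv * gu⁻¹ * gv⁻¹ * gu

theorem kap_mem : kap ∈ commutator F2 := by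
  have h : kap = ⁅gv, gu⁻¹⁆ := by
    rw [commutatorElement_def, inv_inv]
    rfl
  rw [h]
  exact Subgroup.commutator_mem_commutator (Subgroup.mem_top _) (Subgroup.mem_top _)

theorem hom_ext2 {G : Type*} [Group G] {f g : F2 →* G} (hu : f gu = g gu) (hv : f gv = g gv) :
    f = g := by
  refine FreeGroup.ext_hom _ _ fun i => ?_
  fin_cases i
  · exact hu
  · exact hv

/-- the homomorphism with given values -/
def lft {G : Type*} [Group G] (x y : G) : F2 →* G := FreeGroup.lift ![x, y]

@[simp] theorem lft_u {G : Type*} [Group G] (x y : G) : lft x y gu = x := by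
  simp [lft, gu]

@[simp] theorem lft_v {G : Type*} [Group G] (x y : G) : lft x y gv = y := by
  simp [lft, gv]

/-- the automorphism `u ↦ u, v ↦ v u⁻¹` -/
def t1 : MulAut F2 := MonoidHom.toMulEquiv (lft gu (gv * gu⁻¹)) (lft gu (gv * gu))
  (hom_ext2 (by simp) (by simp)) (hom_ext2 (by simp) (by simp))

/-- the automorphism `u ↦ v, v ↦ v u⁻¹ v` -/
def t2 : MulAut F2 := MonoidHom.toMulEquiv (lft gv (gv * gu⁻¹ * gv)) (lft (gu * gv⁻¹ * gu) gu)
  (hom_ext2 (by simp) (by simp [mul_assoc])) (hom_ext2 (by simp [mul_assoc]) (by simp))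

@[simp] theorem t1_u : t1 gu = gu := by
  change lft gu (gv * gu⁻¹) gu = _
  simp

@[simp] theorem t1_v : t1 gv = gv * gu⁻¹ := by
  change lft gu (gv * gu⁻¹) gv = _
  simp

@[simp] theorem t2_u : t2 gu = gv := by
  change lft gv (gv * gu⁻¹ * gv) gu = _
  simp

@[simp] theorem t2_v : t2 gv = gv * gu⁻¹ * gv := by
  change lft gv (gv * gu⁻¹ * gv) gv = _
  simp

theorem t1_kap : t1 kap = kap := by
  simp only [kap, map_mul, map_inv, t1_u, t1_v]
  group

theorem t2_kap : t2 kap = kap := by
  simp only [kap, map_mul, map_inv, t2_u, t2_v]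
  group

theorem aut_ext {f g : MulAut F2} (hu : f gu = g gu) (hv : f gv = g gv) : f = g := by
  have h : f.toMonoidHom = g.toMonoidHom := hom_ext2 hu hv
  ext x
  exact congrArg (fun h : F2 →* F2 => h x) h

theorem t_braid : t1 * t2 * t1 = t2 * t1 * t2 := by
  refine aut_ext ?_ ?_
  · simp only [MulAut.mul_apply, t1_u, t2_u, t1_v, map_mul, map_inv, t2_v]
    group
  · simp only [MulAut.mul_apply, t1_u, t2_u, t1_v, map_mul, map_inv, t2_v]
    group

theorem t_pow3_u : ((t1 * t2) ^ 3) gu = gv * gu⁻¹ * gv⁻¹ := by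
  simp only [pow_succ, pow_zero, one_mul, MulAut.mul_apply, t1_u, t2_u, t1_v, map_mul, map_inv, t2_v]
  group

theorem t_pow3_v : ((t1 * t2) ^ 3) gv = gv * gu⁻¹ * gv⁻¹ * gu * gv⁻¹ := by
  simp only [pow_succ, pow_zero, one_mul, MulAut.mul_apply, t1_u, t2_u, t1_v, map_mul, map_inv, t2_v]
  group

theorem t_pow6 (g : F2) : ((t1 * t2) ^ 6) g = kap * g * kap⁻¹ := by
  have h : (t1 * t2) ^ 6 = (t1 * t2) ^ 3 * (t1 * t2) ^ 3 := by rw [← pow_add]
  have h2 : (t1 * t2) ^ 6 = MulAut.conj kap := by
    rw [h]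
    refine aut_ext ?_ ?_
    · rw [MulAut.conj_apply]
      simp only [MulAut.mul_apply, t_pow3_u, map_mul, map_inv, t_pow3_v]
      unfold kap
      group
    · rw [MulAut.conj_apply]
      simp only [MulAut.mul_apply, t_pow3_u, map_mul, map_inv, t_pow3_v]
      unfold kap
      group
  rw [h2, MulAut.conj_apply]

end F2

section Ext

variable {ι Y M : Type*} [MulAction (FreeGroup ι) Y] [AddCommGroup M]

/-- Cocycles of a free group are determined by the values at the generators. -/
theorem IsCoc.ext_free {f f' : FreeGroup ι → Y → M} (hf : IsCoc f) (hf' : IsCoc f')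
    (h : ∀ i y, f (FreeGroup.of i) y = f' (FreeGroup.of i) y) : f = f' := by
  funext g
  induction g using FreeGroup.induction_on with
  | C1 => funext y; rw [hf.one, hf'.one]
  | of i => funext y; exact h i y
  | inv_of i ih =>
    funext y
    rw [hf.inv, hf'.inv, h]
  | mul g k hg hk =>
    funext y
    rw [hf, hf', hg, hk]

end Ext

/-- the standard integer lift -/
def zl {q : ℕ} (x : ZMod q) : ℤ := (x.val : ℤ)

@[simp] theorem zl_cast {q : ℕ} [NeZero q] (x : ZMod q) : ((zl x : ℤ) : ZMod q) = x := by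
  unfold zl
  rw [Int.cast_natCast, ZMod.natCast_zmod_val]

theorem dvd_iff_cast {q : ℕ} (x : ℤ) : (q : ℤ) ∣ x ↔ ((x : ℤ) : ZMod q) = 0 :=
  (ZMod.intCast_zmod_eq_zero_iff_dvd x q).symm

end P179N
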