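import Vale.Agent.P179.R2.H872.Line2

/-!
# The functions on a coset of a normal subgroup as a sum over the simple modules
-/

namespace P179H843

open P179H524 P179C P179A P179R P179H872 Finset MonoidAlgebra

universe u

section trform

variable {k : Type u} [Field k]

/-- functionals on a matrix algebra -/
theorem exists_trace_rep1 (n : ℕ) (φ : Matrix (Fin n) (Fin n) k →ₗ[k] k) :
    ∃ M : Matrix (Fin n) (Fin n) k, ∀ B, φ B = (M * B).trace := by
  classical
  refine ⟨Matrix.of fun b a => φ (Matrix.single a b 1), fun B => ?_⟩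
  conv_lhs => rw [Matrix.matrix_eq_sum_single B]
  simp only [map_sum, Matrix.trace, Matrix.diag_apply, Matrix.mul_apply, Matrix.of_apply]
  rw [Finset.sum_comm]
  refine Finset.sum_congr rfl fun a _ => Finset.sum_congr rfl fun b _ => ?_
  have h : Matrix.single b a (B b a) = B b a • Matrix.single b a (1 : k) := by
    rw [Matrix.smul_single, smul_eq_mul, mul_one]
  rw [h, map_smul, smul_eq_mul, mul_comm]

/-- functionals on a product of matrix algebras -/
theorem exists_trace_rep {r : ℕ} {d : Fin r → ℕ}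
    (Φ : (Π i, Matrix (Fin (d i)) (Fin (d i)) k) →ₗ[k] k) :
    ∃ M : Π i, Matrix (Fin (d i)) (Fin (d i)) k, ∀ B, Φ B = ∑ i, (M i * B i).trace := by
  classical
  choose M hM using fun i => exists_trace_rep1 (d i)
    (Φ.comp (LinearMap.single k (fun i => Matrix (Fin (d i)) (Fin (d i)) k) i))
  refine ⟨M, fun B => ?_⟩
  have h2 : B = ∑ i, Pi.single i (B i) := (Finset.univ_sum_single B).symm
  conv_lhs => rw [h2, map_sum]
  exact Finset.sum_congr rfl fun i _ => by rw [← hM]; rfl

end trform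

section coset

variable {k : Type u} [Field k] {Γ : Type} [Group Γ] [Fintype Γ] {N : Subgroup Γ}

/-- the functional on `kN` of a function on the coset `g N` -/
noncomputable def cf (ψ : Γ → k) (g : Γ) : MonoidAlgebra k N →ₗ[k] k :=
  (lin ψ).comp ((LinearMap.mulLeft k (single g 1)).comp (inc N).toLinearMap)

theorem cf_apply (ψ : Γ → k) (g : Γ) (x : MonoidAlgebra k N) :
    cf ψ g x = lin ψ (single g 1 * inc N x) := rfl

theorem cf_single (ψ : Γ → k) (g : Γ) (m : N) : cf ψ g (single m 1) = ψ (g * m) := by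
  rw [cf_apply, inc_single, single_mul_single, lin_single, one_mul, one_mul]

theorem cf_eq_sum [Fintype N] (ψ : Γ → k) (g : Γ) (x : MonoidAlgebra k N) :
    cf ψ g x = ∑ m : N, x.coeff m * ψ (g * m) := by
  conv_lhs => rw [P179H872.sum_single x]
  rw [map_sum]
  exact Finset.sum_congr rfl fun m _ => by rw [map_smul, cf_single, smul_eq_mul]

theorem lin_inc_comm {ψ : Γ → k} (h : ∀ m ∈ N, ∀ g, ψ (m * g * m⁻¹) = ψ g) (a : MonoidAlgebra k Γ)
    (y : MonoidAlgebra k N) : lin ψ (a * inc N y) = lin ψ (inc N y * a) := by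
  have := Fintype.ofFinite N
  refine ext_single (f := (lin ψ).comp ((LinearMap.mul k (MonoidAlgebra k Γ) a).comp
    (inc N).toLinearMap)) (g := (lin ψ).comp (((LinearMap.mul k (MonoidAlgebra k Γ)).flip a).comp
    (inc N).toLinearMap)) (fun m => ?_) y
  change lin ψ (a * inc N (single m 1)) = lin ψ (inc N (single m 1) * a)
  rw [inc_single, lin_mul_single, lin_single_mul]
  refine Finset.sum_congr rfl fun g _ => ?_
  rw [← h m m.2 (g * m)]
  congr 2
  group

theorem cf_add (ψ ψ' : Γ → k) (g : Γ) (x : MonoidAlgebra k N) :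
    cf (ψ + ψ') g x = cf ψ g x + cf ψ' g x := by
  rw [cf_apply, cf_apply, cf_apply, lin_apply, lin_apply, lin_apply, ← Finset.sum_add_distrib]
  exact Finset.sum_congr rfl fun y _ => by rw [Pi.add_apply, mul_add]

theorem cf_smul (t : k) (ψ : Γ → k) (g : Γ) (x : MonoidAlgebra k N) :
    cf (t • ψ) g x = t * cf ψ g x := by
  rw [cf_apply, cf_apply, lin_apply, lin_apply, Finset.mul_sum]
  exact Finset.sum_congr rfl fun y _ => by rw [Pi.smul_apply, smul_eq_mul]; ring

theorem cf_zero (g : Γ) (x : MonoidAlgebra k N) : cf (0 : Γ → k) g x = 0 := by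
  have := cf_smul 0 (0 : Γ → k) g x
  rwa [zero_smul, zero_mul] at this

theorem cf_sum {ι : Type*} (s : Finset ι) (v : ι → Γ → k) (g : Γ) (x : MonoidAlgebra k N) :
    cf (∑ i ∈ s, v i) g x = ∑ i ∈ s, cf (v i) g x := by
  classical
  induction s using Finset.induction_on with
  | empty => simp [cf_zero]
  | insert i s hi ih => rw [Finset.sum_insert hi, Finset.sum_insert hi, cf_add, ih]

variable [hN : N.Normal]

omit [Fintype Γ] in
theorem cjA_mul [Finite Γ] (x y : Γ) (z : MonoidAlgebra k N) : cjA x (cjA y z) = cjA (x * y) z := by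
  apply inc_injective N
  rw [inc_cjA, inc_cjA, inc_cjA]
  simp only [← mul_assoc, single_mul_single, mul_one, mul_inv_rev]
  rw [mul_assoc (single (x * y) 1 * inc N z), single_mul_single, mul_one]

omit [Fintype Γ] in
theorem cjA_one [Finite Γ] (z : MonoidAlgebra k N) : cjA (1 : Γ) z = z := by
  apply inc_injective N
  rw [inc_cjA, inv_one, ← MonoidAlgebra.one_def, one_mul, mul_one]

theorem cf_twist {ψ : Γ → k} (h : ∀ m ∈ N, ∀ g, ψ (m * g * m⁻¹) = ψ g) (g : Γ)
    (x y : MonoidAlgebra k N) : cf ψ g (x * y) = cf ψ g (cjA g⁻¹ y * x) := by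
  rw [cf_apply, cf_apply, map_mul (inc N), map_mul (inc N), ← mul_assoc, lin_inc_comm h, inc_cjA,
    inv_inv]
  congr 1
  simp only [← mul_assoc]
  rw [single_mul_single, mul_inv_cancel, one_mul, ← MonoidAlgebra.one_def, one_mul]

omit hN in
theorem cf_c {p : ℕ} {c : MonoidAlgebra k N} {g : Γ} {ψ : Γ → k} (hψ : ψ ∈ LX p c g)
    (x : MonoidAlgebra k N) : cf ψ g (x * c) = cf ψ g x := by
  rw [cf_apply, cf_apply, map_mul (inc N), ← mul_assoc, lin_inc_comm hψ.2.1,
    lin_mul_of hψ.2.2.2]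

omit hN in
theorem ext_cf {p : ℕ} {c : MonoidAlgebra k N} {g : Γ} {ψ ψ' : Γ → k} (hψ : ψ ∈ LX p c g)
    (hψ' : ψ' ∈ LX p c g) (h : ∀ x, (cf ψ g : MonoidAlgebra k N →ₗ[k] k) x = cf ψ' g x) :
    ψ = ψ' := by
  funext y
  by_cases hy : g⁻¹ * y ∈ N
  · have h1 := h (single ⟨_, hy⟩ 1)
    rw [cf_single, cf_single] at h1
    rwa [mul_inv_cancel_left] at h1
  · rw [hψ.1 y hy, hψ'.1 y hy]

/-- functions on a group depending on the classes of the regular parts kill the radical of a
normal subgroup -/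
theorem FB_rad (p : ℕ) [hp : Fact p.Prime] [IsAlgClosed k] [CharP k p] {ψ : Γ → k}
    (h1 : ∀ g x, ψ (g * x * g⁻¹) = ψ x) (h2 : ∀ x, ψ (pr p x) = ψ x) (g : Γ)
    {x : MonoidAlgebra k N} (hx : x ∈ Ring.jacobson (MonoidAlgebra k N)) :
    lin ψ (single g 1 * inc N x) = 0 := by
  obtain ⟨r, d, hd, f, hf, hfker⟩ := exists_wedderburn k Γ
  obtain ⟨cf, hcf⟩ := exists_trFun p f hf hfker h1 h2
  have hrad : f (inc N x) = 0 := by
    funext i
    have := compRep_isIrreducible f hf i
    have h2 := rad_zero (compRep f i) hx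
    rw [compRep_asAlgebraHom] at h2
    exact Matrix.toLin'.injective (by rw [h2]; exact (map_zero _).symm)
  rw [hcf]
  refine Finset.sum_eq_zero fun i _ => ?_
  rw [map_mul, hrad, mul_zero, Pi.zero_apply, Matrix.trace_zero, mul_zero]

theorem LX_rad (p : ℕ) [hp : Fact p.Prime] [IsAlgClosed k] [CharP k p] {c : MonoidAlgebra k N}
    {g : Γ} {ψ : Γ → k} (hψ : ψ ∈ LX p c g) {x : MonoidAlgebra k N}
    (hx : x ∈ Ring.jacobson (MonoidAlgebra k N)) : cf ψ g x = 0 := by
  classical
  let H : Subgroup Γ := N ⊔ Subgroup.zpowers g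
  have hNH : N ≤ H := le_sup_left
  have hxH : g ∈ H := le_sup_right (a := N) (Subgroup.mem_zpowers g)
  let N0 : Subgroup H := N.subgroupOf H
  have : Fintype H := Fintype.ofFinite _
  have : Fintype N := Fintype.ofFinite _
  have : Fintype N0 := Fintype.ofFinite _
  let e : N0 ≃* N := Subgroup.subgroupOfEquivOfLe hNH
  let E : MonoidAlgebra k N0 ≃ₐ[k] MonoidAlgebra k N := MonoidAlgebra.domCongr k k e
  have h1 : E.symm x ∈ Ring.jacobson (MonoidAlgebra k N0) := by
    rw [← jacobson_equiv E.toRingEquiv]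
    change E (E.symm x) ∈ _
    rwa [AlgEquiv.apply_symm_apply]
  have h2 := FB_rad (N := N0) p (ψ := fun h : H => ψ h) (fun a b => LX_conj hψ a.2 b)
    (fun a => by
      have h3 : ((pr p a : H) : Γ) = pr p (a : Γ) := Q7.map_pr p H.subtype a (C2.ord_ne a)
      change ψ ((pr p a : H) : Γ) = ψ a
      rw [h3]
      exact hψ.2.2.1 a) ⟨g, hxH⟩ h1
  rw [← cf_apply, cf_eq_sum] at h2
  have h4 := lin_domCongr e (fun m : N => ψ (g * m)) (E.symm x)
  have h5 : MonoidAlgebra.domCongr k k e (E.symm x) = x := E.apply_symm_apply x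
  rw [h5, lin_apply, lin_apply] at h4
  rw [cf_eq_sum, h4]
  exact h2

omit [Fintype Γ] in
/-- twisted commuting matrices are intertwiners -/
theorem exists_IP [Finite Γ] {n : ℕ} {A : MonoidAlgebra k N →ₐ[k] Matrix (Fin n) (Fin n) k}
    (hA : Function.Surjective A) {g : Γ} {M : Matrix (Fin n) (Fin n) k}
    (h : ∀ y, A y * M = M * A (cjA g⁻¹ y)) (hM : M ≠ 0) :
    ∃ X ∈ IP (uhom A), X.1 = g ∧ (X.2 : Matrix (Fin n) (Fin n) k) = M := by
  classical
  have hu : IsUnit M := by
    rw [← Matrix.mulVec_injective_iff_isUnit]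
    have h0 : ∀ v, M.mulVec v = 0 → v = 0 := by
      intro v hv
      by_contra hne
      apply hM
      obtain ⟨i, hi⟩ := Function.ne_iff.1 hne
      have hall : ∀ w, M.mulVec w = 0 := by
        intro w
        obtain ⟨y, hy⟩ := hA (Matrix.of fun a b => if b = i then w a * (v i)⁻¹ else 0)
        have h1 : (A y).mulVec v = w := by
          rw [hy]
          funext a
          rw [Matrix.mulVec, dotProduct, Finset.sum_eq_single i]
          · rw [Matrix.of_apply, if_pos rfl, mul_assoc, inv_mul_cancel₀ hi, mul_one]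
          · intro b _ hb
            rw [Matrix.of_apply, if_neg hb, zero_mul]
          · intro h
            exact absurd (Finset.mem_univ i) h
        have h2 := h (cjA g y)
        have h3 : cjA g⁻¹ (cjA g y) = y := by rw [cjA_mul, inv_mul_cancel, cjA_one]
        rw [h3] at h2
        rw [← h1, Matrix.mulVec_mulVec, ← h2, ← Matrix.mulVec_mulVec, hv, Matrix.mulVec_zero]
      ext a b
      have h5 := congrFun (hall (Pi.single b 1)) a
      rwa [Matrix.mulVec_single_one] at h5
    intro v w hvw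
    have := h0 (v - w) (by rw [Matrix.mulVec_sub]; exact sub_eq_zero.2 hvw)
    exact sub_eq_zero.1 this
  obtain ⟨U, rfl⟩ := hu
  refine ⟨(g, U), fun m => ?_, rfl, rfl⟩
  apply Units.ext
  have h1 := h (single (MulAut.conjNormal g m) 1)
  rw [cjA_single, ← MulAut.mul_apply, ← map_mul, inv_mul_cancel, map_one, MulAut.one_apply] at h1
  change A (single (MulAut.conjNormal g m) 1) = U * A (single m 1) * (U⁻¹ : (Matrix (Fin n) (Fin n) k)ˣ)
  rw [← h1, mul_assoc, Units.mul_inv, mul_one]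

/-- the part of the functions on the coset `g N` belonging to the simple module with kernel `K` -/
noncomputable def LK (p : ℕ) (c : MonoidAlgebra k N) (g : Γ) (K : Set (MonoidAlgebra k N)) :
    Submodule k (Γ → k) where
  carrier := {ψ | ψ ∈ LX p c g ∧ ∀ x ∈ K, cf ψ g x = 0}
  add_mem' := by
    rintro a b ⟨ha, ha'⟩ ⟨hb, hb'⟩
    exact ⟨add_mem ha hb, fun x hx => by rw [cf_add, ha' x hx, hb' x hx, add_zero]⟩
  zero_mem' := ⟨zero_mem _, fun x _ => cf_zero g x⟩
  smul_mem' := by
    rintro t a ⟨ha, ha'⟩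
    exact ⟨Submodule.smul_mem _ _ ha, fun x hx => by rw [cf_smul, ha' x hx, mul_zero]⟩

omit hN in
theorem mem_LK {p : ℕ} {c : MonoidAlgebra k N} {g : Γ} {K : Set (MonoidAlgebra k N)} {ψ : Γ → k} :
    ψ ∈ LK p c g K ↔ ψ ∈ LX p c g ∧ ∀ x ∈ K, cf ψ g x = 0 := Iff.rfl

omit hN in
theorem cf_tX {n : ℕ} (A : MonoidAlgebra k N →ₐ[k] Matrix (Fin n) (Fin n) k)
    (X : Γ × (Matrix (Fin n) (Fin n) k)ˣ) (x : MonoidAlgebra k N) :
    cf (tX A X) X.1 x = ((X.2 : Matrix (Fin n) (Fin n) k) * A x).trace := by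
  have := Fintype.ofFinite N
  rw [cf_eq_sum, apply_eq_sum A x, Finset.mul_sum, Matrix.trace_sum]
  refine Finset.sum_congr rfl fun m _ => ?_
  rw [mul_smul_comm, Matrix.trace_smul, smul_eq_mul, tX_mul]
  rfl

omit [Fintype Γ] in
/-- the twisted symmetry in terms of matrices -/
theorem twist_matrix {n : ℕ} {A : MonoidAlgebra k N →ₐ[k] Matrix (Fin n) (Fin n) k}
    (hA : Function.Surjective A) {g : Γ} {M : Matrix (Fin n) (Fin n) k}
    (h : ∀ x y, (M * A (x * y)).trace = (M * A (cjA g⁻¹ y * x)).trace) (y : MonoidAlgebra k N) :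
    A y * M = M * A (cjA g⁻¹ y) := by
  rw [Matrix.ext_iff_trace_mul_right]
  intro B
  obtain ⟨x, rfl⟩ := hA B
  have h1 := h x y
  rw [map_mul, map_mul] at h1
  rw [mul_assoc (A y), Matrix.trace_mul_comm, mul_assoc, h1, mul_assoc]

/-- the functions of a simple module on a coset come from the intertwiners -/
theorem LK_form {p : ℕ} {c : MonoidAlgebra k N} {g : Γ} {n : ℕ}
    {A : MonoidAlgebra k N →ₐ[k] Matrix (Fin n) (Fin n) k} (hA : Function.Surjective A)
    {ψ : Γ → k} (hψ : ψ ∈ LK p c g {x | A x = 0}) (hne : ψ ≠ 0) :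
    ∃ X ∈ IP (uhom A), X.1 = g ∧ ψ = tX A X := by
  obtain ⟨s, hs⟩ := A.toLinearMap.exists_rightInverse_of_surjective (LinearMap.range_eq_top.2 hA)
  have hs' : ∀ B, A (s B) = B := fun B => LinearMap.congr_fun hs B
  obtain ⟨M, hM⟩ := exists_trace_rep1 n ((cf ψ g).comp s)
  have hcf : ∀ x, cf ψ g x = (M * A x).trace := by
    intro x
    rw [← hM, LinearMap.comp_apply, ← sub_eq_zero, ← map_sub]
    apply hψ.2
    change A _ = 0
    rw [map_sub, hs', sub_self]
  have hM0 : M ≠ 0 := by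
    rintro rfl
    apply hne
    refine ext_cf hψ.1 (zero_mem _) fun x => ?_
    rw [hcf, zero_mul, Matrix.trace_zero, cf_zero]
  obtain ⟨X, hX, hXg, hX2⟩ := exists_IP hA (twist_matrix hA (g := g) (M := M) fun x y => by
    rw [← hcf, ← hcf, cf_twist hψ.1.2.1]) hM0
  refine ⟨X, hX, hXg, ?_⟩
  funext y
  by_cases hy : g⁻¹ * y ∈ N
  · have h1 := hcf (single ⟨_, hy⟩ 1)
    rw [cf_single, ← hX2, ← cf_tX, hXg, cf_single] at h1
    rwa [mul_inv_cancel_left] at h1
  · rw [hψ.1.1 y hy, tX_neg X (by rwa [hXg])]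

/-- one-dimensionality -/
theorem LK_line {p : ℕ} {c : MonoidAlgebra k N} {g : Γ} {n : ℕ} [NeZero n]
    {A : MonoidAlgebra k N →ₐ[k] Matrix (Fin n) (Fin n) k} (hA : Function.Surjective A)
    {ψ ψ' : Γ → k} (hψ : ψ ∈ LK p c g {x | A x = 0}) (hne : ψ ≠ 0)
    (hψ' : ψ' ∈ LK p c g {x | A x = 0}) : ∃ κ : k, ψ' = κ • ψ := by
  by_cases h0 : ψ' = 0
  · exact ⟨0, by rw [h0, zero_smul]⟩
  obtain ⟨X, hX, hXg, rfl⟩ := LK_form hA hψ hne
  obtain ⟨X', hX', hXg', rfl⟩ := LK_form hA hψ' h0
  obtain ⟨e, he⟩ := schur (uhom A) (span_uhom hA) hX hX' (hXg.trans hXg'.symm)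
  refine ⟨(e : k), ?_⟩
  refine ext_cf hψ'.1 (Submodule.smul_mem _ _ hψ.1) fun x => ?_
  have h1 := cf_tX A X x
  have h2 := cf_tX A X' x
  rw [hXg] at h1
  rw [hXg'] at h2
  rw [cf_smul, h1, h2, he, snd_mul_scal, smul_mul_assoc, Matrix.trace_smul, smul_eq_mul]

section wedderburn

variable {r : ℕ} {d : Fin r → ℕ}
  (f : MonoidAlgebra k N →ₐ[k] Π i, Matrix (Fin (d i)) (Fin (d i)) k)

omit [Fintype Γ] hN in
theorem comp_surj (hf : Function.Surjective f) (i : Fin r) :
    Function.Surjective ((Pi.evalAlgHom k (fun i => Matrix (Fin (d i)) (Fin (d i)) k) i).comp f) := by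
  classical
  intro M
  obtain ⟨x, hx⟩ := hf (Function.update 0 i M)
  refine ⟨x, ?_⟩
  change f x i = M
  rw [hx, Function.update_self]

omit hN in
/-- the parts of the simple modules are independent -/
theorem LK_indep (hf : Function.Surjective f) {p : ℕ} {c : MonoidAlgebra k N} {g : Γ}
    {v : Fin r → Γ → k} (hv : ∀ i, v i ∈ LK p c g {x | f x i = 0}) (h0 : ∑ i, v i = 0) (i : Fin r) :
    v i = 0 := by
  classical
  refine ext_cf (hv i).1 (zero_mem _) fun x => ?_
  obtain ⟨y, hy⟩ := hf (Pi.single i (f x i))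
  have h1 : ∑ j, cf (v j) g y = 0 := by rw [← cf_sum, h0, cf_zero]
  rw [Finset.sum_eq_single i] at h1
  · have h2 : cf (v i) g (x - y) = 0 := (hv i).2 _ (by
      change f (x - y) i = 0
      rw [map_sub, Pi.sub_apply, hy, Pi.single_eq_same, sub_self])
    rw [map_sub, h1, sub_zero] at h2
    rw [h2, cf_zero]
  · intro j _ hj
    refine (hv j).2 _ ?_
    change f y j = 0
    rw [hy, Pi.single_eq_of_ne hj]
  · intro h
    exact absurd (Finset.mem_univ i) h

/-- **the decomposition** of a function on a coset -/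
theorem exists_dec (p : ℕ) [hp : Fact p.Prime] [IsAlgClosed k] [CharP k p] (hidx : ¬ p ∣ N.index)
    (hf : Function.Surjective f) (hfker : ∀ x, f x = 0 → x ∈ Ring.jacobson (MonoidAlgebra k N))
    {c : MonoidAlgebra k N} {l : Fin r → k} (hl : ∀ i, f c i = Matrix.scalar _ (l i)) {g : Γ}
    {ψ : Γ → k} (hψ : ψ ∈ LX p c g) :
    ∃ v : Fin r → Γ → k, (∀ i, v i ∈ LK p c g {x | f x i = 0}) ∧ ψ = ∑ i, v i ∧
      ∀ i, l i ≠ 1 → v i = 0 := by
  classical
  obtain ⟨s, hs⟩ := f.toLinearMap.exists_rightInverse_of_surjective (LinearMap.range_eq_top.2 hf)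
  have hs' : ∀ B, f (s B) = B := fun B => LinearMap.congr_fun hs B
  obtain ⟨M, hM⟩ := exists_trace_rep ((cf ψ g).comp s)
  have hcf : ∀ x, cf ψ g x = ∑ i, (M i * f x i).trace := by
    intro x
    rw [← hM, LinearMap.comp_apply, ← sub_eq_zero, ← map_sub]
    apply LX_rad p hψ
    apply hfker
    rw [map_sub, hs', sub_self]
  -- restriction to one component
  have hcomp : ∀ i x, ∃ x' : MonoidAlgebra k N, ∀ y z, cf ψ g (y * x' * z) =
      (M i * (f y i * f x i * f z i)).trace := by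
    intro i x
    obtain ⟨x', hx'⟩ := hf (Pi.single i (f x i))
    refine ⟨x', fun y z => ?_⟩
    rw [hcf, Finset.sum_eq_single i]
    · rw [map_mul, map_mul, Pi.mul_apply, Pi.mul_apply, hx', Pi.single_eq_same]
    · intro j _ hj
      rw [map_mul, map_mul, Pi.mul_apply, Pi.mul_apply, hx', Pi.single_eq_of_ne hj, mul_zero,
        zero_mul, mul_zero, Matrix.trace_zero]
    · intro h
      exact absurd (Finset.mem_univ i) h
  let A : (i : Fin r) → MonoidAlgebra k N →ₐ[k] Matrix (Fin (d i)) (Fin (d i)) k :=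
    fun i => (Pi.evalAlgHom k (fun i => Matrix (Fin (d i)) (Fin (d i)) k) i).comp f
  have hA : ∀ i, Function.Surjective (A i) := comp_surj f hf
  have hAf : ∀ i x, A i x = f x i := fun i x => rfl
  -- the matrices `M i` are twisted commuting
  have htw : ∀ i y, A i y * M i = M i * A i (cjA g⁻¹ y) := by
    intro i y
    refine twist_matrix (hA i) (fun x y => ?_) y
    obtain ⟨x', hx'⟩ := hcomp i x
    have h1 := hx' 1 y
    have h2 := hx' (cjA g⁻¹ y) 1
    rw [one_mul, cf_twist hψ.2.1] at h1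
    rw [mul_one] at h2
    rw [h2] at h1
    simp only [map_one, Pi.one_apply, one_mul, mul_one] at h1
    rw [map_mul, map_mul]
    exact h1.symm
  -- the matrices outside of `c` vanish
  have hMc : ∀ i, l i ≠ 1 → M i = 0 := by
    intro i hi
    have h1 : ∀ B, (M i * B).trace = (0 * B).trace := by
      intro B
      obtain ⟨x, rfl⟩ := hA i B
      obtain ⟨x', hx'⟩ := hcomp i x
      have h1 := hx' 1 c
      have h2 := hx' 1 1
      rw [cf_c hψ] at h1
      rw [mul_one, h1] at h2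
      have h3 : f c i = l i • (1 : Matrix (Fin (d i)) (Fin (d i)) k) := by
        rw [hl, Matrix.scalar_apply, Matrix.smul_one_eq_diagonal]
      rw [h3, map_one, Pi.one_apply, one_mul, mul_one, mul_smul_comm, mul_one, mul_smul_comm,
        Matrix.trace_smul, smul_eq_mul] at h2
      have h4 : (l i - 1) * (M i * A i x).trace = 0 := by
        rw [sub_mul, one_mul, sub_eq_zero]
        exact h2
      rw [zero_mul, Matrix.trace_zero]
      exact (mul_eq_zero.1 h4).resolve_left (sub_ne_zero.2 hi)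
    exact Matrix.ext_iff_trace_mul_right.2 h1
  have hv : ∀ i, ∃ v : Γ → k, v ∈ LK p c g {x | f x i = 0} ∧
      (∀ x, cf v g x = (M i * f x i).trace) ∧ (l i ≠ 1 → v = 0) := by
    intro i
    by_cases h0 : M i = 0
    · refine ⟨0, zero_mem _, fun x => ?_, fun _ => rfl⟩
      rw [cf_zero, h0, zero_mul, Matrix.trace_zero]
    · obtain ⟨X, hX, hXg, hX2⟩ := exists_IP (hA i) (htw i) h0
      have hli : l i = 1 := by
        by_contra h
        exact h0 (hMc i h)
      have h1 : A i c = 1 := by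
        rw [hAf, hl, hli, map_one]
      have h2 : ∀ x, cf (tX (A i) X) g x = (M i * f x i).trace := by
        intro x
        have h3 := cf_tX (A i) X x
        rw [hXg, hX2] at h3
        exact h3
      refine ⟨tX (A i) X, ⟨?_, ?_⟩, h2, fun h => absurd hli h⟩
      · have h3 := tX_mem p hidx h1 hX
        rwa [hXg] at h3
      · intro x hx
        have h4 : f x i = 0 := hx
        rw [h2, h4, mul_zero, Matrix.trace_zero]
  choose v hv1 hv2 hv3 using hv
  refine ⟨v, hv1, ?_, hv3⟩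
  refine ext_cf hψ (Submodule.sum_mem _ fun i _ => (hv1 i).1) fun x => ?_
  rw [cf_sum, hcf]
  exact Finset.sum_congr rfl fun i _ => (hv2 i x).symm

end wedderburn

end coset

end P179H843
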