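import Vale.Agent.P179.R2.H843.Clf2

/-!
# The action on the simple modules of a normal subgroup
-/

namespace P179H843

open P179H524 P179C P179A P179R P179H872 Finset MonoidAlgebra

universe u

section simple

variable {k : Type u} [Field k] {Γ : Type} [Group Γ] [Fintype Γ] {N : Subgroup Γ} [hN : N.Normal]

omit [Fintype Γ] hN in
/-- the kernels of the simple modules in `c` -/
abbrev XK (c : MonoidAlgebra k N) : Type u :=
  {K : Set (MonoidAlgebra k N) // ∃ (n : ℕ) (_ : NeZero n)
    (A : MonoidAlgebra k N →ₐ[k] Matrix (Fin n) (Fin n) k),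
    Function.Surjective A ∧ A c = 1 ∧ K = {x | A x = 0}}

variable {c : MonoidAlgebra k N}

/-- the action on the kernels -/
noncomputable def smX (hc : ∀ g : Γ, cjA g c = c) (g : Γ) (K : XK c) : XK c :=
  ⟨{x | cjA g⁻¹ x ∈ K.1}, by
    obtain ⟨n, hn, A, hA, hA1, hK⟩ := K.2
    refine ⟨n, hn, A.comp ((cjA g⁻¹ : MonoidAlgebra k N ≃ₐ[k] MonoidAlgebra k N) :
      MonoidAlgebra k N →ₐ[k] MonoidAlgebra k N), hA.comp (cjA g⁻¹).surjective, ?_, ?_⟩
    · change A (cjA g⁻¹ c) = 1
      rw [hc, hA1]
    · rw [hK]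
      rfl⟩

omit [Fintype Γ] in
theorem mem_smX (hc : ∀ g : Γ, cjA g c = c) (g : Γ) (K : XK c) (x : MonoidAlgebra k N) :
    x ∈ (smX hc g K).1 ↔ cjA g⁻¹ x ∈ K.1 := Iff.rfl

theorem smX_one (hc : ∀ g : Γ, cjA g c = c) (K : XK c) : smX hc 1 K = K := by
  apply Subtype.ext
  ext x
  rw [mem_smX, inv_one, cjA_one]

theorem smX_mul (hc : ∀ g : Γ, cjA g c = c) (g h : Γ) (K : XK c) :
    smX hc (g * h) K = smX hc g (smX hc h K) := by
  apply Subtype.ext
  ext x
  rw [mem_smX, mem_smX, mem_smX, cjA_mul, mul_inv_rev]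

theorem cjA_coe (m : N) (x : MonoidAlgebra k N) :
    cjA (m : Γ) x = single m 1 * x * single m⁻¹ 1 := by
  apply inc_injective N
  rw [inc_cjA, map_mul, map_mul, inc_single, inc_single]
  rfl

theorem smX_of_mem (hc : ∀ g : Γ, cjA g c = c) {g : Γ} (hg : g ∈ N) (K : XK c) :
    smX hc g K = K := by
  apply Subtype.ext
  ext x
  rw [mem_smX]
  obtain ⟨n, hn, A, hA, hA1, hK⟩ := K.2
  have h1 : cjA g⁻¹ x = _ := cjA_coe (⟨g, hg⟩⁻¹ : N) x
  rw [h1, hK]
  change A _ = 0 ↔ A x = 0
  rw [map_mul, map_mul]
  constructor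
  · intro h
    have h2 : A (single (⟨g, hg⟩ : N) 1) * (A (single (⟨g, hg⟩⁻¹ : N) 1) * A x *
        A (single (⟨g, hg⟩⁻¹⁻¹ : N) 1)) * A (single (⟨g, hg⟩⁻¹ : N) 1) = A x := by
      rw [← map_mul, ← map_mul, ← map_mul, ← map_mul]
      congr 1
      simp only [← mul_assoc, single_mul_single, mul_one, mul_inv_cancel]
      rw [← MonoidAlgebra.one_def, one_mul, mul_assoc, single_mul_single, mul_one, inv_inv,
        mul_inv_cancel, ← MonoidAlgebra.one_def, mul_one]
    rw [← h2, h, mul_zero, zero_mul]
  · intro h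
    rw [h, mul_zero, zero_mul]

theorem smX_eq_of_coset (hc : ∀ g : Γ, cjA g c = c) {g h : Γ} (hgh : (g : Γ ⧸ N) = h)
    (K : XK c) : smX hc g K = smX hc h K := by
  have h1 : h = g * (g⁻¹ * h) := by group
  rw [h1, smX_mul, smX_of_mem hc (QuotientGroup.eq.1 hgh)]

/-- the action of the quotient -/
@[reducible] noncomputable def actQ (hc : ∀ g : Γ, cjA g c = c) : MulAction (Γ ⧸ N) (XK c) where
  smul q K := Quotient.liftOn' q (fun g => smX hc g K) fun a b hab =>
    smX_eq_of_coset hc (Quotient.sound' hab) K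
  one_smul K := smX_one hc K
  mul_smul := by
    intro a b K
    induction a using QuotientGroup.induction_on with
    | H a =>
      induction b using QuotientGroup.induction_on with
      | H b => exact smX_mul hc a b K

section wedderburn

variable {r : ℕ} {d : Fin r → ℕ} [hd : ∀ i, NeZero (d i)]
  (f : MonoidAlgebra k N →ₐ[k] Π i, Matrix (Fin (d i)) (Fin (d i)) k)

/-- the kernel of a component -/
def kerX {l : Fin r → k} (hf : Function.Surjective f) (hl : ∀ i, f c i = Matrix.scalar _ (l i))
    (i : {i : Fin r // l i = 1}) : XK c :=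
  ⟨{x | f x i = 0}, d i, hd i,
    (Pi.evalAlgHom k (fun i => Matrix (Fin (d i)) (Fin (d i)) k) i.1).comp f, comp_surj f hf i.1, by
      change f c i.1 = 1
      rw [hl, i.2, map_one], rfl⟩

theorem kerX_bijective {l : Fin r → k} (hf : Function.Surjective f)
    (hfker : ∀ x, f x = 0 → x ∈ Ring.jacobson (MonoidAlgebra k N))
    (hl : ∀ i, f c i = Matrix.scalar _ (l i)) (hl' : ∀ i, l i = 0 ∨ l i = 1) :
    Function.Bijective (kerX f hf hl) := by
  classical
  constructor
  · intro i j hij
    by_contra hne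
    obtain ⟨x, hx⟩ := hf (Pi.single i.1 1)
    have h1 : x ∈ (kerX f hf hl j).1 := by
      change f x j = 0
      rw [hx, Pi.single_eq_of_ne fun h => hne (Subtype.ext h.symm)]
    rw [← hij] at h1
    have h2 : f x i = 0 := h1
    rw [hx, Pi.single_eq_same] at h2
    exact one_ne_zero h2
  · rintro ⟨K, n, hn, A, hA, hA1, rfl⟩
    have := Fintype.ofFinite N
    -- the radical is killed by `A`
    have hrad : ∀ x ∈ Ring.jacobson (MonoidAlgebra k N), A x = 0 := by
      intro x hx
      have : RingHomSurjective (A : MonoidAlgebra k N →+* Matrix (Fin n) (Fin n) k) := ⟨hA⟩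
      have h1 := Ring.le_comap_jacobson (A : MonoidAlgebra k N →+* Matrix (Fin n) (Fin n) k) hx
      have h2 : Ring.jacobson (Matrix (Fin n) (Fin n) k) = ⊥ :=
        IsSemisimpleRing.jacobson_eq_bot _
      rw [Ideal.mem_comap, h2] at h1
      exact h1
    -- the idempotents
    choose e he using fun i => hf (Pi.single i 1)
    have hcomm : ∀ i x, A (e i) * A x = A x * A (e i) := by
      intro i x
      rw [← map_mul, ← map_mul, ← sub_eq_zero, ← map_sub]
      apply hrad
      apply hfker
      rw [map_sub, map_mul, map_mul, he, sub_eq_zero]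
      funext j
      rw [Pi.mul_apply, Pi.mul_apply]
      by_cases hij : j = i
      · subst hij
        rw [Pi.single_eq_same, one_mul, mul_one]
      · rw [Pi.single_eq_of_ne hij, zero_mul, mul_zero]
    have hsum : ∑ i, A (e i) = 1 := by
      rw [← map_sum, ← map_one A, ← sub_eq_zero, ← map_sub]
      apply hrad
      apply hfker
      rw [map_sub, map_sum, map_one, sub_eq_zero, Finset.sum_congr rfl fun i _ => he i]
      exact Finset.univ_sum_single 1
    obtain ⟨i, hi⟩ : ∃ i, A (e i) ≠ 0 := by
      by_contra hcon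
      push Not at hcon
      rw [Finset.sum_eq_zero fun i _ => hcon i] at hsum
      exact zero_ne_one hsum
    -- `ker f i ⊆ ker A`
    have hidem : A (e i) * A (e i) = A (e i) := by
      rw [← map_mul, ← sub_eq_zero, ← map_sub]
      apply hrad
      apply hfker
      rw [map_sub, map_mul, he, sub_eq_zero, ← Pi.single_mul, one_mul]
    have he1 : A (e i) = 1 := by
      have h1 : A (e i) ∈ Set.range (Matrix.scalar (Fin n)) := by
        rw [Matrix.mem_range_scalar_iff_commute_single']
        intro a b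
        obtain ⟨x, hx⟩ := hA (Matrix.single a b 1)
        rw [← hx]
        exact (hcomm i x).symm
      obtain ⟨t, ht⟩ := h1
      rw [← ht] at hidem hi ⊢
      rw [← map_mul] at hidem
      have h2 : t * t = t := C2.scalar_inj _ _ hidem
      have h3 : t ≠ 0 := by
        rintro rfl
        exact hi (map_zero _)
      have h4 : t = 1 := mul_left_cancel₀ h3 (by rw [h2, mul_one])
      rw [h4, map_one]
    have hsub : ∀ x, f x i = 0 → A x = 0 := by
      intro x hx
      have h1 : A (e i * x) = 0 := by
        apply hrad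
        apply hfker
        rw [map_mul, he]
        funext j
        rw [Pi.mul_apply, Pi.zero_apply]
        by_cases hij : j = i
        · subst hij
          rw [hx, mul_zero]
        · rw [Pi.single_eq_of_ne hij, zero_mul]
      rwa [map_mul, he1, one_mul] at h1
    have hli : l i = 1 := by
      rcases hl' i with h | h
      · exfalso
        have h1 : A c = 0 := hsub c (by rw [hl, h, map_zero])
        rw [hA1] at h1
        exact one_ne_zero h1
      · exact h
    refine ⟨⟨i, hli⟩, ?_⟩
    apply Subtype.ext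
    ext x
    change f x i = 0 ↔ A x = 0
    refine ⟨hsub x, fun hx => ?_⟩
    -- the matrix algebra is simple
    by_contra hne
    obtain ⟨a, b, hab⟩ : ∃ a b, f x i a b ≠ 0 := by
      by_contra hcon
      push Not at hcon
      exact hne (Matrix.ext hcon)
    have hall : ∀ s t, ∀ y, f y i = Matrix.single s t 1 → A y = 0 := by
      intro s t y hy
      obtain ⟨u, hu⟩ := comp_surj f hf i (Matrix.single s a 1)
      obtain ⟨w, hw⟩ := comp_surj f hf i (Matrix.single b t 1)
      have hu' : f u i = Matrix.single s a 1 := hu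
      have hw' : f w i = Matrix.single b t 1 := hw
      have h1 : A (u * x * w) = 0 := by
        rw [map_mul, map_mul, hx, mul_zero, zero_mul]
      have h2 : A ((f x i a b) • y - u * x * w) = 0 := by
        apply hsub
        rw [map_sub, map_smul, map_mul, map_mul, Pi.sub_apply, Pi.smul_apply, Pi.mul_apply,
          Pi.mul_apply, hy, hu', hw', sub_eq_zero]
        rw [Matrix.single_mul_mul_single, Matrix.smul_single, smul_eq_mul, one_mul, mul_one]
      rw [map_sub, h1, sub_zero, map_smul] at h2
      exact (smul_eq_zero.1 h2).resolve_left hab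
    have h1 : A 1 = 0 := by
      choose y hy using fun s => comp_surj f hf i (Matrix.single s s 1)
      have h2 : A (1 - ∑ s, y s) = 0 := by
        apply hsub
        rw [map_sub, Pi.sub_apply, map_one, Pi.one_apply, map_sum, Finset.sum_apply, sub_eq_zero]
        have h3 : ∀ s, f (y s) i = Matrix.single s s 1 := hy
        rw [Finset.sum_congr rfl fun s _ => h3 s]
        exact (Matrix.sum_single_one).symm
      rw [map_sub, map_sum, Finset.sum_eq_zero fun s _ => hall s s (y s) (hy s), sub_zero] at h2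
      exact h2
    rw [map_one] at h1
    exact one_ne_zero h1

end wedderburn

variable (hcc : c ∈ Subalgebra.center k (MonoidAlgebra k N)) (hc2 : c * c = c)

include hcc hc2

/-- the number of the kernels -/
theorem card_XK [IsAlgClosed k] : Nat.card (XK c) = numSimpleIn c := by
  obtain ⟨r, d, hd, f, hf, hfker⟩ := exists_wedderburn k N
  obtain ⟨l, hl⟩ := C2.exists_scalar f hf c hcc
  have hl' := C2.scalar_idem f c hc2 l hl
  rw [C2.numSimpleIn_eq_card f hf hfker c l hl]
  exact (Nat.card_congr (Equiv.ofBijective _ (kerX_bijective f hf hfker hl hl'))).symm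

theorem finite_XK [IsAlgClosed k] : Finite (XK c) := by
  obtain ⟨r, d, hd, f, hf, hfker⟩ := exists_wedderburn k N
  obtain ⟨l, hl⟩ := C2.exists_scalar f hf c hcc
  have hl' := C2.scalar_idem f c hc2 l hl
  exact Finite.of_equiv _ (Equiv.ofBijective _ (kerX_bijective f hf hfker hl hl'))

/-- the decomposition -/
theorem XK_dec (p : ℕ) [hp : Fact p.Prime] [IsAlgClosed k] [CharP k p] (hidx : ¬ p ∣ N.index)
    [Fintype (XK c)] {g : Γ} {ψ : Γ → k} (hψ : ψ ∈ LX p c g) :
    ∃ v : XK c → Γ → k, (∀ K, v K ∈ LK p c g K.1) ∧ ψ = ∑ K, v K := by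
  classical
  obtain ⟨r, d, hd, f, hf, hfker⟩ := exists_wedderburn k N
  obtain ⟨l, hl⟩ := C2.exists_scalar f hf c hcc
  have hl' := C2.scalar_idem f c hc2 l hl
  obtain ⟨v, hv, hsum, hv0⟩ := exists_dec f p hidx hf hfker hl hψ
  let e := Equiv.ofBijective _ (kerX_bijective f hf hfker hl hl')
  refine ⟨fun K => v (e.symm K), fun K => ?_, ?_⟩
  · obtain ⟨i, rfl⟩ := e.surjective K
    have h1 : e.symm (e i) = i := e.symm_apply_apply i
    dsimp only
    rw [h1]
    exact hv i
  · rw [hsum, ← Equiv.sum_comp e (fun K => v (e.symm K))]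
    simp only [Equiv.symm_apply_apply]
    rw [← Finset.sum_filter_of_ne (p := fun i => l i = 1)
      (fun i _ hi => by_contra fun h => hi (hv0 i h)),
      Finset.sum_subtype (p := fun i => l i = 1) _ fun x => by simp]

/-- the independence -/
theorem XK_indep {p : ℕ} [IsAlgClosed k] [Fintype (XK c)] {g : Γ} {v : XK c → Γ → k}
    (hv : ∀ K, v K ∈ LK p c g K.1) (h0 : ∑ K, v K = 0) (K : XK c) : v K = 0 := by
  classical
  obtain ⟨r, d, hd, f, hf, hfker⟩ := exists_wedderburn k N
  obtain ⟨l, hl⟩ := C2.exists_scalar f hf c hcc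
  have hl' := C2.scalar_idem f c hc2 l hl
  let e := Equiv.ofBijective _ (kerX_bijective f hf hfker hl hl')
  let v' : Fin r → Γ → k := fun i => if h : l i = 1 then v (e ⟨i, h⟩) else 0
  have h1 : ∀ i, v' i ∈ LK p c g {x | f x i = 0} := by
    intro i
    by_cases h : l i = 1
    · have h2 : v' i = v (e ⟨i, h⟩) := dif_pos h
      rw [h2]
      exact hv (e ⟨i, h⟩)
    · have h2 : v' i = 0 := dif_neg h
      rw [h2]
      exact zero_mem _
  have h2 : ∑ i, v' i = 0 := by
    rw [← h0, ← Equiv.sum_comp e, ← Finset.sum_filter_of_ne (p := fun i => l i = 1)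
      (fun i _ hi => by_contra fun h => hi (dif_neg h)),
      Finset.sum_subtype (p := fun i => l i = 1) _ fun x => by simp]
    exact Finset.sum_congr rfl fun i _ => dif_pos i.2
  obtain ⟨i, rfl⟩ := e.surjective K
  have h3 := LK_indep f hf h1 h2 i.1
  have h4 : v' i.1 = v (e i) := dif_pos i.2
  rwa [h4] at h3

end simple

end P179H843
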