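import Vale.Agent.P179.R2.H843.Clf3

/-!
# The lines of the simple modules on a coset and the conjugation action
-/

namespace P179H843

open P179H524 P179C P179A P179R P179H872 Finset MonoidAlgebra

universe u

section facts

variable {k : Type u} [Field k] {Γ : Type} [Group Γ] [Fintype Γ] {N : Subgroup Γ} [hN : N.Normal]
  {c : MonoidAlgebra k N}

/-- conjugation of functions -/
def cjF (y : Γ) (ψ : Γ → k) : Γ → k := fun h => ψ (y⁻¹ * h * y)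

omit [Field k] [Fintype Γ] in
theorem cjF_one (ψ : Γ → k) : cjF 1 ψ = ψ := by
  funext h
  simp [cjF]

omit [Field k] [Fintype Γ] in
theorem cjF_mul (x y : Γ) (ψ : Γ → k) : cjF (x * y) ψ = cjF x (cjF y ψ) := by
  funext h
  unfold cjF
  congr 1
  group

omit [Fintype Γ] in
theorem cjF_smul (y : Γ) (t : k) (ψ : Γ → k) : cjF y (t • ψ) = t • cjF y ψ := rfl

omit [Fintype Γ] in
theorem cjF_zero (y : Γ) : cjF y (0 : Γ → k) = 0 := rfl

omit [Fintype Γ] in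
theorem cjF_sum {ι : Type*} (s : Finset ι) (y : Γ) (v : ι → Γ → k) :
    cjF y (∑ i ∈ s, v i) = ∑ i ∈ s, cjF y (v i) := by
  funext h
  simp only [cjF, Finset.sum_apply]

omit [Fintype Γ] in
theorem cjF_ne_zero {y : Γ} {ψ : Γ → k} (h : ψ ≠ 0) : cjF y ψ ≠ 0 := by
  intro h1
  apply h
  rw [← cjF_one ψ, ← inv_mul_cancel y, cjF_mul, h1, cjF_zero]

theorem lin_cjF (y : Γ) (ψ : Γ → k) (z : MonoidAlgebra k Γ) :
    lin (cjF y ψ) z = lin ψ (single y⁻¹ 1 * z * single y 1) := by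
  rw [lin_mul_single, ← lin_apply (fun g => ψ (g * y)) (single y⁻¹ 1 * z), lin_single_mul,
    lin_apply]
  rfl

theorem cf_cjF (y g : Γ) (ψ : Γ → k) (x : MonoidAlgebra k N) :
    cf (cjF y ψ) g x = cf ψ (y⁻¹ * g * y) (cjA y⁻¹ x) := by
  rw [cf_apply, cf_apply, lin_cjF, inc_cjA, inv_inv]
  congr 1
  simp only [← mul_assoc, single_mul_single, mul_one, mul_inv_cancel_right]

omit hN in
theorem cf_mul_right (ψ : Γ → k) (g : Γ) (m : N) (x : MonoidAlgebra k N) :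
    cf ψ (g * m) x = cf ψ g (single m 1 * x) := by
  rw [cf_apply, cf_apply, map_mul (inc N), inc_single, ← mul_assoc, single_mul_single, one_mul]

/-- the functions on a coset are permuted by the conjugations -/
theorem cjF_LX {p : ℕ} [hp : Fact p.Prime] (hc : ∀ g : Γ, cjA g c = c) (hab : ∀ a b : Γ, a * b * a⁻¹ * b⁻¹ ∈ N)
    {g : Γ} (y : Γ) {ψ : Γ → k} (hψ : ψ ∈ LX p c g) : cjF y ψ ∈ LX p c g := by
  refine ⟨fun h hh => hψ.1 _ fun h1 => hh ?_, fun m hm h => ?_, fun h => ?_, fun z => ?_⟩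
  · have h2 : g⁻¹ * h = (g⁻¹ * (y⁻¹ * h * y)) * ((y⁻¹ * h⁻¹ * y⁻¹⁻¹ * h⁻¹⁻¹)) := by group
    rw [h2]
    exact mul_mem h1 (hab _ _)
  · have h1 := hψ.2.1 _ (hN.conj_mem m hm y⁻¹) (y⁻¹ * h * y)
    unfold cjF
    rw [← h1]
    congr 1
    group
  · have h1 := hψ.2.2.1 (y⁻¹ * h * y)
    unfold cjF
    rw [← h1]
    congr 1
    have h2 := Q7.map_pr p (MulAut.conj y⁻¹).toMonoidHom h (C2.ord_ne h)
    have h3 : ∀ z : Γ, (MulAut.conj y⁻¹).toMonoidHom z = y⁻¹ * z * y := by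
      intro z
      simp
    rw [h3, h3] at h2
    exact h2
  · have := Fintype.ofFinite N
    have h1 := hψ.2.2.2 (y⁻¹ * z * y)
    have h2 : ∀ w : Γ, ∑ g : Γ, (inc N c).coeff g * ψ (g * w) = lin ψ (inc N c * single w 1) := by
      intro w
      rw [lin_mul_single]
    have h3 : ∑ g : Γ, (inc N c).coeff g * cjF y ψ (g * z) =
        lin (cjF y ψ) (inc N c * single z 1) := by
      rw [lin_mul_single]
    rw [h3, lin_cjF]
    rw [h2] at h1
    change _ = ψ (y⁻¹ * z * y)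
    rw [← h1]
    congr 1
    have h4 : inc N c = single y⁻¹ 1 * inc N c * single y 1 := by
      have h5 := inc_cjA y⁻¹ c
      rw [hc, inv_inv] at h5
      exact h5
    conv_rhs => rw [h4]
    simp only [mul_assoc, single_mul_single, mul_one]
    congr 3
    group

theorem cjF_LK {p : ℕ} [hp : Fact p.Prime] (hc : ∀ g : Γ, cjA g c = c) (hab : ∀ a b : Γ, a * b * a⁻¹ * b⁻¹ ∈ N)
    {g : Γ} (y : Γ) {K : XK c} {ψ : Γ → k} (hψ : ψ ∈ LK p c g K.1) :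
    cjF y ψ ∈ LK p c g (smX hc y K).1 := by
  refine ⟨cjF_LX hc hab y hψ.1, fun x hx => ?_⟩
  rw [mem_smX] at hx
  have hm : g⁻¹ * (y⁻¹ * g * y) ∈ N := by
    have h1 : g⁻¹ * (y⁻¹ * g * y) = g⁻¹ * y⁻¹ * g⁻¹⁻¹ * y⁻¹⁻¹ := by group
    rw [h1]
    exact hab _ _
  have h2 : y⁻¹ * g * y = g * (⟨_, hm⟩ : N) := by
    change _ = g * (g⁻¹ * (y⁻¹ * g * y))
    group
  rw [cf_cjF, h2, cf_mul_right]
  apply hψ.2
  obtain ⟨n, hn, A, hA, hA1, hK⟩ := K.2
  rw [hK] at hx ⊢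
  have h3 : A (cjA y⁻¹ x) = 0 := hx
  change A _ = 0
  rw [map_mul, h3, mul_zero]

/-- a module with a nonzero function on the coset `g N` is stable under `g` -/
theorem LK_stable {p : ℕ} (hc : ∀ g : Γ, cjA g c = c) {g : Γ} {K : XK c} {ψ : Γ → k}
    (hψ : ψ ∈ LK p c g K.1) (hne : ψ ≠ 0) : smX hc g K = K := by
  obtain ⟨n, hn, A, hA, hA1, hK⟩ := K.2
  rw [hK] at hψ
  obtain ⟨X, hX, hXg, -⟩ := LK_form hA hψ hne
  apply Subtype.ext
  ext x
  rw [mem_smX, hK]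
  change A (cjA g⁻¹ x) = 0 ↔ A x = 0
  have h1 := apply_cjA (inv_mem hX) x
  rw [Prod.fst_inv, Prod.snd_inv, inv_inv, hXg] at h1
  rw [h1]
  constructor
  · intro h
    have h2 : (X.2 : Matrix (Fin n) (Fin n) k) * (((X.2⁻¹ : (Matrix (Fin n) (Fin n) k)ˣ) :
        Matrix (Fin n) (Fin n) k) * A x * X.2) * ((X.2⁻¹ : (Matrix (Fin n) (Fin n) k)ˣ) :
        Matrix (Fin n) (Fin n) k) = A x := by
      simp only [← mul_assoc, Units.mul_inv, one_mul]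
      rw [mul_assoc, Units.mul_inv, mul_one]
    rw [← h2, h, mul_zero, zero_mul]
  · intro h
    rw [h, mul_zero, zero_mul]

/-- a module stable under `g` has a nonzero function on the coset `g N` -/
theorem LK_ex (p : ℕ) [hp : Fact p.Prime] [CharP k p] (hidx : ¬ p ∣ N.index)
    (hc : ∀ g : Γ, cjA g c = c) {g : Γ} {K : XK c} (h : smX hc g K = K) :
    ∃ ψ ∈ LK p c g K.1, ψ ≠ 0 := by
  obtain ⟨n, hn, A, hA, hA1, hK⟩ := K.2
  have h1 : ∀ a, A a = 0 → A (cjA g a) = 0 := by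
    intro a ha
    have h2 : cjA g a ∈ (smX hc g K).1 := by
      rw [mem_smX, cjA_mul, inv_mul_cancel, cjA_one, hK]
      exact ha
    rw [h, hK] at h2
    exact h2
  obtain ⟨M, hM⟩ := exists_inner hA h1
  have hX : ((g, M) : Γ × (Matrix (Fin n) (Fin n) k)ˣ) ∈ IP (uhom A) := by
    intro m
    apply Units.ext
    have h2 := hM (single m 1)
    rw [cjA_single] at h2
    exact h2
  refine ⟨tX A (g, M), ⟨tX_mem p hidx hA1 hX, fun x hx => ?_⟩, ?_⟩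
  · rw [hK] at hx
    have h3 : A x = 0 := hx
    have h4 := cf_tX A (g, M) x
    rw [h3, mul_zero, Matrix.trace_zero] at h4
    exact h4
  · obtain ⟨m, hm⟩ := tX_ne_zero hA (g, M)
    intro h
    exact hm (congrFun h _)

theorem LK_line' {p : ℕ} {g : Γ} {K : XK c} {ψ ψ' : Γ → k} (hψ : ψ ∈ LK p c g K.1)
    (hne : ψ ≠ 0) (hψ' : ψ' ∈ LK p c g K.1) : ∃ κ : k, ψ' = κ • ψ := by
  obtain ⟨n, hn, A, hA, hA1, hK⟩ := K.2
  rw [hK] at hψ hψ'
  exact LK_line hA hψ hne hψ'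

omit [Fintype Γ] in
/-- commuting elements in a common cyclic subgroup have commuting intertwiners modulo `N` -/
theorem comm_cyc {n : ℕ} [NeZero n] {ρ : N →* (Matrix (Fin n) (Fin n) k)ˣ}
    (hspan : Submodule.span k (Set.range fun m : N => ((ρ m : Matrix (Fin n) (Fin n) k))) = ⊤)
    {a t Z : Γ × (Matrix (Fin n) (Fin n) k)ˣ} (ha : a ∈ IP ρ) (ht : t ∈ IP ρ) (hZ : Z ∈ IP ρ)
    (ha' : a.1 ∈ N ⊔ Subgroup.zpowers Z.1) (ht' : t.1 ∈ N ⊔ Subgroup.zpowers Z.1) :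
    ∃ m : N, t * a * t⁻¹ * a⁻¹ = nu ρ m := by
  have key : ∀ b ∈ IP ρ, b.1 ∈ N ⊔ Subgroup.zpowers Z.1 → ∃ (i : ℤ) (m : N) (c : kˣ),
      b = Z ^ i * nu ρ m * scal c := by
    intro b hb hb'
    rw [sup_comm, Subgroup.mem_sup_of_normal_right] at hb'
    obtain ⟨y, hy, w, hw, hyw⟩ := hb'
    obtain ⟨i, rfl⟩ := Subgroup.mem_zpowers_iff.1 hy
    obtain ⟨c, hc⟩ := schur ρ hspan (a := Z ^ i * nu ρ ⟨w, hw⟩) (b := b)
      (mul_mem (zpow_mem hZ i) (nu_mem ρ _)) hb (by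
        rw [← hyw, Prod.fst_mul, Prod.pow_fst]
        rfl)
    exact ⟨i, ⟨w, hw⟩, c, hc⟩
  obtain ⟨i, m₁, c₁, h1⟩ := key a ha ha'
  obtain ⟨j, m₂, c₂, h2⟩ := key t ht ht'
  let P := IP ρ
  let M : Subgroup P := (nu ρ).range.subgroupOf P
  have hM : M.Normal := by
    constructor
    rintro ⟨x, hx⟩ ⟨m, hm⟩ g
    refine ⟨MulAut.conjNormal g.1.1 m, ?_⟩
    rw [← conj_nu ρ g.2, hm]
    rfl
  have h3 := comm_mem M (z := (⟨Z, hZ⟩ : P)) (m₁ := ⟨nu ρ m₁, nu_mem ρ m₁⟩)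
    (m₂ := ⟨nu ρ m₂, nu_mem ρ m₂⟩) (s₁ := ⟨scal c₁, scal_mem ρ c₁⟩)
    (s₂ := ⟨scal c₂, scal_mem ρ c₂⟩) (i := i) (j := j) ⟨m₁, rfl⟩ ⟨m₂, rfl⟩
    (fun g => Subtype.ext (scal_comm _ _)) (fun g => Subtype.ext (scal_comm _ _))
  obtain ⟨m, hm⟩ := h3
  refine ⟨m, ?_⟩
  rw [h1, h2]
  exact hm.symm

/-- **the stabiliser acts trivially on the line**, for a cyclic quotient -/
theorem cjF_fix (p : ℕ) [hp : Fact p.Prime] [CharP k p] (hidx : ¬ p ∣ N.index)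
    (hc : ∀ g : Γ, cjA g c = c) [hcyc : IsCyclic (Γ ⧸ N)] {g y : Γ}
    {K : XK c} {ψ : Γ → k} (hψ : ψ ∈ LK p c g K.1) (hy : smX hc y K = K) : cjF y ψ = ψ := by
  classical
  by_cases hne : ψ = 0
  · rw [hne, cjF_zero]
  have hg := LK_stable hc hψ hne
  -- the stabiliser
  let S : Subgroup Γ :=
    { carrier := {h | smX hc h K = K}
      mul_mem' := fun {a b} ha hb => by
        change smX hc (a * b) K = K
        rw [smX_mul, (hb : smX hc b K = K), (ha : smX hc a K = K)]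
      one_mem' := smX_one hc K
      inv_mem' := fun {a} ha => by
        change smX hc a⁻¹ K = K
        conv_lhs => rw [← (ha : smX hc a K = K)]
        rw [← smX_mul, inv_mul_cancel, smX_one] }
  obtain ⟨zq, hzq⟩ := (inferInstance : IsCyclic (S.map (QuotientGroup.mk' N))).exists_generator
  obtain ⟨z, hzS, hz⟩ := zq.2
  have hgen : ∀ h ∈ S, h ∈ N ⊔ Subgroup.zpowers z := by
    intro h hh
    obtain ⟨i, hi⟩ := Subgroup.mem_zpowers_iff.1
      (hzq ⟨(h : Γ ⧸ N), Subgroup.mem_map_of_mem (QuotientGroup.mk' N) hh⟩)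
    have h1 := congrArg Subtype.val hi
    rw [Subgroup.coe_zpow, ← hz] at h1
    change ((z ^ i : Γ) : Γ ⧸ N) = (h : Γ ⧸ N) at h1
    rw [QuotientGroup.eq] at h1
    rw [sup_comm, Subgroup.mem_sup_of_normal_right]
    exact ⟨z ^ i, Subgroup.zpow_mem_zpowers z i, _, h1, by group⟩
  -- intertwiners
  obtain ⟨n, hn, A, hA, hA1, hK⟩ := K.2
  have hIP : ∀ h ∈ S, ∃ X ∈ IP (uhom A), X.1 = h := by
    intro h hh
    obtain ⟨φ, hφ, hφne⟩ := LK_ex p hidx hc (K := K) (g := h) hh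
    rw [hK] at hφ
    obtain ⟨X, hX, hXg, -⟩ := LK_form hA hφ hφne
    exact ⟨X, hX, hXg⟩
  have hψ' := hψ
  rw [hK] at hψ'
  obtain ⟨X, hX, hXg, hψX⟩ := LK_form hA hψ' hne
  obtain ⟨Y, hY, hYy⟩ := hIP y hy
  obtain ⟨Z, hZ, hZz⟩ := hIP z hzS
  obtain ⟨m0, hm0⟩ := comm_cyc (span_uhom hA) hX (inv_mem hY) hZ
    (by rw [hZz, hXg]; exact hgen g hg)
    (by rw [hZz, Prod.fst_inv, hYy]; exact inv_mem (hgen y hy))
  rw [inv_inv] at hm0
  -- `Y⁻¹ X Y = X ν`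
  have h1 : Y⁻¹ * X * Y = X * nu (uhom A) (MulAut.conjNormal X.1⁻¹ m0) := by
    have h2 := conj_nu (uhom A) (inv_mem hX) m0
    rw [Prod.fst_inv] at h2
    rw [← h2, ← hm0]
    group
  rw [hψX]
  funext h
  change tX A X (y⁻¹ * h * y) = tX A X h
  by_cases hh : X.1⁻¹ * h ∈ N
  · set m1 : N := ⟨_, hh⟩ with hm1
    have hh' : h = X.1 * m1 := by
      change h = X.1 * (X.1⁻¹ * h)
      group
    have h2 : Y⁻¹ * (X * nu (uhom A) m1) * Y = X * nu (uhom A)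
        (MulAut.conjNormal X.1⁻¹ m0 * MulAut.conjNormal Y.1⁻¹ m1) := by
      have h3 := conj_nu (uhom A) (inv_mem hY) m1
      rw [Prod.fst_inv] at h3
      rw [map_mul, ← mul_assoc X (nu (uhom A) (MulAut.conjNormal X.1⁻¹ m0)), ← h1, ← h3]
      group
    have h4 : (Y⁻¹ * (X * nu (uhom A) m1) * Y).1 = y⁻¹ * h * y := by
      simp only [Prod.fst_mul, Prod.fst_inv, nu_fst, hYy]
      rw [← hh']
    have h5 : X.1⁻¹ * (y⁻¹ * h * y) ∈ N := by
      rw [← h4, h2, Prod.fst_mul, nu_fst, inv_mul_cancel_left]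
      exact Subtype.coe_prop _
    rw [tX_pos h5 h2 h4]
    have h6 := trace_conj Y⁻¹ (X * nu (uhom A) m1)
    rw [inv_inv] at h6
    rw [h6, hh', tX_mul]
  · rw [tX_neg X hh, tX_neg X]
    intro h5
    apply hh
    have h6 : y⁻¹ * X.1 * y = X.1 * (MulAut.conjNormal X.1⁻¹ m0 : N) := by
      have h7 := congrArg Prod.fst h1
      simp only [Prod.fst_mul, Prod.fst_inv, nu_fst, hYy] at h7
      exact h7
    have h8 : X.1⁻¹ * (y⁻¹ * X.1 * y) ∈ N := by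
      rw [h6, inv_mul_cancel_left]
      exact Subtype.coe_prop _
    have h9 : X.1⁻¹ * h = y * ((X.1⁻¹ * (y⁻¹ * X.1 * y))⁻¹ * (X.1⁻¹ * (y⁻¹ * h * y))) * y⁻¹ := by
      group
    rw [h9]
    exact hN.conj_mem _ (mul_mem (inv_mem h8) h5) _

end facts

end P179H843
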