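import Mathlib

/-!
# Integer cocycles of a free group acting on a finite set, and the pairing at a commutator

`F` is a free group acting on a finite set `Y`. For cocycles `A, B : F → Y → R` there is a
function `C` with `C(gh, y) = C(g, hy) + C(h, y) + A(g, hy) B(h, y)`, and for `κ` in the commutator
subgroup the number `∑ y, C(κ, y)` depends only on `A` and `B`.
-/

namespace P179N

open Finset

section Coc

variable {G Y M : Type*} [Group G] [MulAction G Y]

/-- additive cocycles -/
def IsCoc [AddCommGroup M] (f : G → Y → M) : Prop :=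
  ∀ g h y, f (g * h) y = f g (h • y) + f h y

namespace IsCoc

variable [AddCommGroup M] {f f' : G → Y → M}

theorem one (hf : IsCoc f) (y : Y) : f 1 y = 0 := by
  have h := hf 1 1 y
  rw [one_mul, one_smul] at h
  simpa using h

theorem inv (hf : IsCoc f) (g : G) (y : Y) : f g⁻¹ y = -f g (g⁻¹ • y) := by
  have h := hf g g⁻¹ y
  rw [mul_inv_cancel, hf.one] at h
  exact (neg_eq_of_add_eq_zero_right h.symm).symm

theorem add (hf : IsCoc f) (hf' : IsCoc f') : IsCoc (f + f') := by
  intro g h y
  simp only [Pi.add_apply, hf g h y, hf' g h y]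
  abel

theorem sub (hf : IsCoc f) (hf' : IsCoc f') : IsCoc (f - f') := by
  intro g h y
  simp only [Pi.sub_apply, hf g h y, hf' g h y]
  abel

theorem neg (hf : IsCoc f) : IsCoc (-f) := by
  intro g h y
  simp only [Pi.neg_apply, hf g h y]
  abel

/-- the sum over `Y` is a homomorphism, hence vanishes on commutators -/
theorem sum_comm [Fintype Y] (hf : IsCoc f) {κ : G} (hκ : κ ∈ commutator G) :
    ∑ y, f κ y = 0 := by
  let φ : G →* Multiplicative M :=
    { toFun := fun g => Multiplicative.ofAdd (∑ y, f g y)
      map_one' := by simp [hf.one]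
      map_mul' := fun g h => by
        rw [← ofAdd_add]
        congr 1
        simp only [hf g h, Finset.sum_add_distrib]
        congr 1
        exact Equiv.sum_comp (MulAction.toPerm h) (fun y => f g y) }
  have h1 : κ ∈ φ.ker := Abelianization.commutator_subset_ker φ hκ
  exact Multiplicative.ofAdd.injective ((MonoidHom.mem_ker).1 h1)

end IsCoc

/-- coboundary -/
def cob [AddCommGroup M] (t : Y → M) : G → Y → M := fun g y => t (g • y) - t y

theorem isCoc_cob [AddCommGroup M] (t : Y → M) : IsCoc (cob t : G → Y → M) := by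
  intro g h y
  simp only [cob, mul_smul]
  abel

/-- A cocycle that is trivial on the stabilisers is a coboundary. -/
theorem IsCoc.exists_cob [AddCommGroup M] {f : G → Y → M} (hf : IsCoc f)
    (h : ∀ g y, g • y = y → f g y = 0) : ∃ t : Y → M, ∀ g y, f g y = t (g • y) - t y := by
  classical
  let r : Y → Y := fun y => (Quotient.mk (MulAction.orbitRel G Y) y).out
  have hr : ∀ y, ∃ g : G, g • r y = y := by
    intro y
    have h1 : (MulAction.orbitRel G Y) (r y) y := Quotient.exact (Quotient.out_eq _)
    rw [MulAction.orbitRel_apply] at h1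
    obtain ⟨g, hg⟩ := h1
    exact ⟨g⁻¹, by rw [← hg]; simp⟩
  choose c hc using hr
  have hrr : ∀ (g : G) y, r (g • y) = r y := by
    intro g y
    have : (Quotient.mk (MulAction.orbitRel G Y) (g • y)) = Quotient.mk _ y := by
      apply Quotient.sound
      change (MulAction.orbitRel G Y) (g • y) y
      rw [MulAction.orbitRel_apply]
      exact ⟨g, rfl⟩
    simp only [r, this]
  refine ⟨fun y => f (c y) (r y), fun g y => ?_⟩
  have h1 : f (g * c y) (r y) = f g y + f (c y) (r y) := by
    rw [hf, hc]
  have h2 : f (c (g • y)) (r y) = f (g * c y) (r y) := by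
    have h3 : (c (g • y))⁻¹ • (g * c y) • r y = r y := by
      rw [mul_smul, hc, inv_smul_eq_iff]
      have := hc (g • y)
      rw [hrr] at this
      exact this.symm
    have h4 := h ((c (g • y))⁻¹ * (g * c y)) (r y) (by rw [mul_smul]; exact h3)
    have h5 : g * c y = c (g • y) * ((c (g • y))⁻¹ * (g * c y)) := by group
    rw [h5, hf, h4, add_zero, ← mul_assoc, mul_smul, mul_smul] 
    rw [mul_smul] at h3
    rw [h3]
  have h6 : f (c (g • y)) (r (g • y)) = f (g * c y) (r y) := by
    rw [hrr, h2]
  change f g y = f (c (g • y)) (r (g • y)) - f (c y) (r y)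
  rw [h6, h1]
  abel

end Coc

section Free

variable {ι Y : Type*} [MulAction (FreeGroup ι) Y]

/-- the permutation of `Y × M` attached to a generator -/
def genPerm {M : Type*} [AddCommGroup M] (a : ι → Y → M) (i : ι) : Equiv.Perm (Y × M) where
  toFun x := (FreeGroup.of i • x.1, x.2 + a i x.1)
  invFun x := ((FreeGroup.of i)⁻¹ • x.1, x.2 - a i ((FreeGroup.of i)⁻¹ • x.1))
  left_inv x := by simp
  right_inv x := by simp

/-- A cocycle of a free group with given values at the generators. -/
theorem exists_coc {M : Type*} [AddCommGroup M] (a : ι → Y → M) :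
    ∃ f : FreeGroup ι → Y → M, IsCoc f ∧ ∀ i y, f (FreeGroup.of i) y = a i y := by
  let ρ : FreeGroup ι →* Equiv.Perm (Y × M) := FreeGroup.lift (genPerm a)
  have key : ∀ g : FreeGroup ι, ∀ y m, ρ g (y, m) = (g • y, m + (ρ g (y, 0)).2) := by
    intro g
    induction g using FreeGroup.induction_on with
    | C1 => intro y m; simp
    | of i => intro y m; simp [ρ, genPerm]
    | inv_of i ih =>
      intro y m
      simp only [map_inv, ρ, FreeGroup.lift_apply_of]
      simp [genPerm, Equiv.Perm.inv_def, Equiv.symm]
      abel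
    | mul g h hg hh =>
      intro y m
      rw [map_mul, Equiv.Perm.mul_apply, Equiv.Perm.mul_apply, hh y m, hg, hh y 0, hg (h • y) (0 + _),
        mul_smul]
      simp only [zero_add]
      rw [add_assoc]
  refine ⟨fun g y => (ρ g (y, 0)).2, fun g h y => ?_, fun i y => ?_⟩
  · change (ρ (g * h) (y, 0)).2 = _
    rw [map_mul, Equiv.Perm.mul_apply, key h y 0, key g (h • y)]
    simp only [zero_add]
    rw [add_comm]
  · simp [ρ, genPerm]

/-- the permutation of `Y × R × R` attached to a generator -/
def genPerm2 {R : Type*} [CommRing R] (a b : ι → Y → R) (i : ι) : Equiv.Perm (Y × R × R) where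
  toFun x := (FreeGroup.of i • x.1, x.2.1 + b i x.1, x.2.2 + a i x.1 * x.2.1)
  invFun x := ((FreeGroup.of i)⁻¹ • x.1, x.2.1 - b i ((FreeGroup.of i)⁻¹ • x.1),
    x.2.2 - a i ((FreeGroup.of i)⁻¹ • x.1) * (x.2.1 - b i ((FreeGroup.of i)⁻¹ • x.1)))
  left_inv x := by simp
  right_inv x := by simp

/-- the relation satisfied by the cup product cochain -/
def IsCup {R : Type*} [CommRing R] (A B C : FreeGroup ι → Y → R) : Prop :=
  ∀ g h y, C (g * h) y = C g (h • y) + C h y + A g (h • y) * B h y

theorem exists_cup {R : Type*} [CommRing R] {A B : FreeGroup ι → Y → R} (hA : IsCoc A)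
    (hB : IsCoc B) : ∃ C : FreeGroup ι → Y → R, IsCup A B C := by
  let ρ : FreeGroup ι →* Equiv.Perm (Y × R × R) :=
    FreeGroup.lift (genPerm2 (fun i => A (FreeGroup.of i)) (fun i => B (FreeGroup.of i)))
  have key : ∀ g : FreeGroup ι, ∀ y b c, ρ g (y, b, c) =
      (g • y, b + B g y, c + (ρ g (y, 0, 0)).2.2 + A g y * b) := by
    intro g
    induction g using FreeGroup.induction_on with
    | C1 => intro y b c; simp [hA.one, hB.one]
    | of i => intro y b c; simp [ρ, genPerm2]
    | inv_of i ih =>
      intro y b c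
      rw [hA.inv, hB.inv]
      simp only [map_inv, ρ, FreeGroup.lift_apply_of]
      simp [genPerm2, Equiv.Perm.inv_def, Equiv.symm]
      constructor
      · abel
      · ring
    | mul g h hg hh =>
      intro y b c
      rw [map_mul, Equiv.Perm.mul_apply, Equiv.Perm.mul_apply, hh y b c, hg, hh y 0 0,
        hg (h • y) (0 + _), mul_smul, hA, hB]
      refine Prod.ext rfl (Prod.ext ?_ ?_)
      · simp only
        abel
      · simp only
        ring
  refine ⟨fun g y => (ρ g (y, 0, 0)).2.2, fun g h y => ?_⟩
  change (ρ (g * h) (y, 0, 0)).2.2 = _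
  rw [map_mul, Equiv.Perm.mul_apply, key h y 0 0, key g (h • y)]
  simp only
  ring

end Free

end P179N
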