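import Vale.Agent.P179.R2.H843.EqRel
import Vale.Agent.P179.R2.H364.StepF

/-!
# Equality for the blocks with a normal `p`-subgroup, relative to the surjectivity `OntoStmt`
-/

namespace P179H843

open Subgroup P179C P179Y

universe u

variable {p : ℕ} [hp : Fact p.Prime] {k : Type u} [Field k] [IsAlgClosed k] [CharP k p]

theorem alphaStmt (red : integralClosure ℤ ℂ →+* k) : P179H364.AlphaStmt p k := by
  intro G _ _ D P l hl hD hab hT hPD hnil
  exact exists_alpha red hl hD hab hT hPD hnil

theorem eqRel_of_onto (red : integralClosure ℤ ℂ →+* k) (honto : P179H364.OntoStmt p k) :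
    P179H725.EqRel p red :=
  eqRel_of red (P179H364.stepStmt red honto (alphaStmt red))

end P179H843
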