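import Vale.Agent.P179.R2.H843.Alp
import Vale.Agent.P179.R2.H854.Amb
import Vale.Agent.P179.R2.H452.Glue
import Vale.Agent.P179.R2.H443.F5
import Vale.Agent.P179.R2.H725.Ind

/-!
# Equality for the blocks with a normal `p`-subgroup `R` such that the elements of the inertial
group centralising `R` centralise the defect group, relative to the step
-/

namespace P179H843

open Subgroup Finset P179H524 P179C P179A P179P P179Y P179H12 P179H872 P179H854

open P179B (inertialGroup)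

open scoped Classical

universe u

section Amb

variable {p : ℕ} [hp : Fact p.Prime] {k : Type u} [Field k] [IsAlgClosed k] [CharP k p]
  {G : Type} [Group G] [Fintype G]

omit [IsAlgClosed k] [CharP k p] hp in
/-- a scalar on the line in the ambient group gives the scalar on the line in `Γ` -/
theorem LX_of_scalar {N Γ : Subgroup G} (hNΓ : N ≤ Γ) [(N.subgroupOf Γ).Normal] {e : G → k}
    (heN : ∀ x, x ∉ N → e x = 0) {x y : Γ} {a : k}
    (h : ∀ ψ, Ln p N e ((x : G)⁻¹) ψ → P179Y.cj (y : G) ψ = a • ψ) {ψ : Γ → k}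
    (hψ : ψ ∈ LX p (mkF fun x : N.subgroupOf Γ => e (x : Γ)) x) (g : Γ) :
    ψ (y⁻¹ * g * y) = a * ψ g := by
  have hx : (⟨(x : G)⁻¹, inv_mem x.2⟩ : Γ)⁻¹ = x := by
    apply Subtype.ext
    change ((x : G)⁻¹)⁻¹ = x
    rw [inv_inv]
  have h1 : ψ ∈ LX p (mkF fun x : N.subgroupOf Γ => e (x : Γ))
      (⟨(x : G)⁻¹, inv_mem x.2⟩ : Γ)⁻¹ := by rwa [hx]
  have h2 := congrFun (h _ (LX.toLn hNΓ heN (inv_mem x.2) h1)) (g : G)⁻¹
  unfold P179Y.cj at h2
  have hg : (g : G)⁻¹ ∈ Γ := inv_mem g.2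
  have hyg : (y : G)⁻¹ * (g : G)⁻¹ * (y : G) ∈ Γ := mul_mem (mul_mem (inv_mem y.2) hg) y.2
  rw [Pi.smul_apply, ext_of_mem Γ _ hg, ext_of_mem Γ _ hyg, smul_eq_mul] at h2
  have h5 : (⟨(y : G)⁻¹ * (g : G)⁻¹ * (y : G), hyg⟩ : Γ)⁻¹ = y⁻¹ * g * y := by
    apply Subtype.ext
    change ((y : G)⁻¹ * (g : G)⁻¹ * (y : G))⁻¹ = (y : G)⁻¹ * g * y
    group
  have h6 : (⟨(g : G)⁻¹, hg⟩ : Γ)⁻¹ = g := by
    apply Subtype.ext
    change ((g : G)⁻¹)⁻¹ = g
    rw [inv_inv]
  rw [h5, h6] at h2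
  exact h2

omit [IsAlgClosed k] in
/-- the idempotent of a stable block in the group algebras of `N` in `Γ` and of `Γ` -/
theorem amb_data {N Γ : Subgroup G} [(N.subgroupOf Γ).Normal] (hNΓ : N ≤ Γ) {e : G → k}
    (heN : ∀ x, x ∉ N → e x = 0) (het : ∀ t ∈ Γ, ∀ x, e (t * x * t⁻¹) = e x)
    (hee : conv e e = e) {b : MonoidAlgebra k N} (hb : bF N b = e) (h1 : numSimpleIn b = 1) :
    inc (N.subgroupOf Γ) (mkF fun x : N.subgroupOf Γ => e (x : Γ)) = (mkF fun t : Γ => e t) ∧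
    (mkF fun x : N.subgroupOf Γ => e (x : Γ)) ∈
      Subalgebra.center k (MonoidAlgebra k (N.subgroupOf Γ)) ∧
    (mkF fun x : N.subgroupOf Γ => e (x : Γ)) * (mkF fun x : N.subgroupOf Γ => e (x : Γ)) =
      (mkF fun x : N.subgroupOf Γ => e (x : Γ)) ∧
    (mkF fun t : Γ => e t) ∈ Subalgebra.center k (MonoidAlgebra k Γ) ∧
    numSimpleIn (mkF fun x : N.subgroupOf Γ => e (x : Γ)) = 1 := by
  have heΓ : ∀ x, x ∉ Γ → e x = 0 := fun x hx => heN x fun h => hx (hNΓ h)
  set cT : MonoidAlgebra k Γ := mkF fun t : Γ => e t with hcT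
  have hincT : inc Γ cT = mkF e := inc_mkF Γ e heΓ
  have hcTc : cT ∈ Subalgebra.center k (MonoidAlgebra k Γ) := mkF_mem fun t x => het t t.2 x
  have hcT2 : cT * cT = cT := by
    apply inc_injective Γ
    rw [map_mul, hincT, ← mkF_conv, hee]
  set c : MonoidAlgebra k (N.subgroupOf Γ) := mkF fun x : N.subgroupOf Γ => e (x : Γ) with hc
  have hincN : inc (N.subgroupOf Γ) c = cT :=
    inc_mkF (N.subgroupOf Γ) (fun t : Γ => e t) fun x hx => heN _ fun h => hx (mem_subgroupOf.2 h)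
  have hcc : c ∈ Subalgebra.center k (MonoidAlgebra k (N.subgroupOf Γ)) :=
    mkF_mem fun t x => het _ (t : Γ).2 _
  have hc2 : c * c = c := by
    apply inc_injective (N.subgroupOf Γ)
    rw [map_mul, hincN, hcT2]
  refine ⟨hincN, hcc, hc2, hcTc, ?_⟩
  rw [← h1]
  refine numSimpleIn_of_equiv (subgroupOfEquivOfLe hNΓ).symm _ _ ?_
  ext y
  obtain ⟨x, rfl⟩ := (subgroupOfEquivOfLe hNΓ).symm.surjective y
  rw [coeff_mapDomain_equiv, hc, coeff_mkF, ← hb]
  exact (ext_coe N (fun h => b.coeff h) x).symm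

end Amb

section Scalar

variable {p : ℕ} [hp : Fact p.Prime] {k : Type u} [Field k] [IsAlgClosed k] [CharP k p]
  {G : Type} [Group G] [Fintype G] {D R : Subgroup G} {l : (G → k) → k}

/-- **the scalars at `P` form a pairing** -/
theorem exists_alpha (red : integralClosure ℤ ℂ →+* k) {P : Subgroup G} (hl : BP p D l)
    (hD : IsPGroup p D) (hab : D ≤ centralizer (D : Set G))
    (hT : ¬ p ∣ (centralizer (D : Set G)).relIndex (stabT D l)) (hPD : P ≤ D)
    (hnil : ∀ n ∈ stabT D l, n ∈ centralizer (P : Set G) → n ∈ centralizer (D : Set G)) :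
    ∃ α : G → G → k, ∀ y ∈ stabT D l ⊓ normalizer (P : Set G),
      ∀ z ∈ stabT D l ⊓ normalizer (P : Set G), y * z * y⁻¹ * z⁻¹ ∈ centralizer (D : Set G) →
        (∀ a, Sc p l P y z a ↔ a = α y z) ∧ α y z * α z y = 1 ∧ α y (z * y⁻¹) = α y z := by
  obtain ⟨b, hb, hlb, huniq, heN, het, hee, hb1, hidx⟩ := block_data red hl hD hab hT hPD hnil
  have hn : ((centralizer (P : Set G)).subgroupOf (stabT P l)).Normal :=
    normal_subgroupOf_of_le_normalizer stabT_le_norm_cent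
  obtain ⟨α, hα, -, -⟩ := amb_pairing (p := p) (cent_le_stabT P l) stabT_le_norm_cent hidx heN
    het hee (by rw [mkF_bF]; exact hb1)
  refine ⟨α, fun y hy z hz hyz => ?_⟩
  obtain ⟨h1, h2, h3⟩ := hα y (inf_le_stabT hl hPD hy) z (inf_le_stabT hl hPD hz)
    (centralizer_le hPD hyz)
  refine ⟨fun a => ?_, h2, h3⟩
  rw [← h1 a]
  constructor
  · intro h
    exact h b hb hlb
  · intro h b' hb' hlb'
    rw [huniq b' hb' hlb']
    exact h

/-- **the scalars of `C_G(R)` and of `C_G(D)` agree** -/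
theorem same_scalar (red : integralClosure ℤ ℂ →+* k) (hstep : StepStmt p k) (hl : BP p D l)
    (hD : IsPGroup p D) (hab : D ≤ centralizer (D : Set G))
    (hT : ¬ p ∣ (centralizer (D : Set G)).relIndex (stabT D l)) (hRD : R ≤ D)
    (hnil : ∀ n ∈ stabT D l, n ∈ centralizer (R : Set G) → n ∈ centralizer (D : Set G)) :
    ∀ y ∈ stabT D l ⊓ normalizer (R : Set G), ∀ z ∈ stabT D l ⊓ normalizer (R : Set G),
      y * z * y⁻¹ * z⁻¹ ∈ centralizer (D : Set G) → ∃ a, Sc p l R y z a ∧ Sc p l D y z a := by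
  have hnilP : ∀ P : Subgroup G, R ≤ P → ∀ n ∈ stabT D l, n ∈ centralizer (P : Set G) →
      n ∈ centralizer (D : Set G) := fun P hRP n hn hnP => hnil n hn (centralizer_le hRP hnP)
  refine same_of_step (p := p) (D := D) (R := R) (T := stabT D l) hD hab (stabT_le_norm D l) ?_
    (Sc p l) ?_ ?_ R le_rfl hRD
  · intro z hz
    have hn : ((centralizer (D : Set G)).subgroupOf (stabT D l)).Normal :=
      normal_subgroupOf_of_le_normalizer stabT_le_norm_cent
    refine ⟨_, hT, ?_⟩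
    have h1 := Subgroup.pow_index_mem ((centralizer (D : Set G)).subgroupOf (stabT D l))
      (⟨z, hz⟩ : stabT D l)
    exact mem_subgroupOf.1 h1
  · intro P hRP hPD
    exact exists_alpha red hl hD hab hT hPD (hnilP P hRP)
  · intro P hRP hPD y hy z hz hyz _ a ha
    exact hstep G D P l hl hD hab hT hPD (hnilP P hRP) y hy z hz hyz a ha

/-- **the numbers of simple modules agree** -/
theorem numSimple_eq (red : integralClosure ℤ ℂ →+* k) (hstep : StepStmt p k) (hl : BP p D l)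
    (hD : IsPGroup p D) (hab : D ≤ centralizer (D : Set G))
    (hT : ¬ p ∣ (centralizer (D : Set G)).relIndex (stabT D l)) (hRD : R ≤ D) [hR : R.Normal]
    (hnil : ∀ n ∈ stabT D l, n ∈ centralizer (R : Set G) → n ∈ centralizer (D : Set G))
    {b : MonoidAlgebra k (centralizer (R : Set G))} (hb : IsBlock b)
    (hlb : Low (centralizer (R : Set G)) l b)
    {β : MonoidAlgebra k (centralizer (D : Set G))} (hβ : IsBlock β)
    (hlβ : Low (centralizer (D : Set G)) l β) :
    numSimpleIn (mkF fun t : stabT R l => bF (centralizer (R : Set G)) b t) =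
      numSimpleIn (mkF fun t : stabT D l => bF (centralizer (D : Set G)) β t) := by
  have hnorm : ∀ g : G, g ∈ normalizer (R : Set G) := by
    intro g
    rw [normalizer_eq_top]
    exact mem_top g
  obtain ⟨b1, -, -, huniq1, heN1, het1, hee1, hb1, hidx1⟩ :=
    block_data red hl hD hab hT hRD hnil
  obtain rfl := huniq1 b hb hlb
  obtain ⟨b2, -, -, huniq2, heN2, het2, hee2, hb2, hidx2⟩ :=
    block_data red hl hD hab hT (le_refl D) fun n _ h => h
  obtain rfl := huniq2 β hβ hlβ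
  have hn1 : ((centralizer (R : Set G)).subgroupOf (stabT R l)).Normal :=
    normal_subgroupOf_of_le_normalizer stabT_le_norm_cent
  have hn2 : ((centralizer (D : Set G)).subgroupOf (stabT D l)).Normal :=
    normal_subgroupOf_of_le_normalizer stabT_le_norm_cent
  obtain ⟨hinc1, hc1, hcc1, hcT1, hs1⟩ := amb_data (cent_le_stabT R l) heN1 het1 hee1 rfl hb1
  obtain ⟨hinc2, hc2, hcc2, hcT2, hs2⟩ := amb_data (cent_le_stabT D l) heN2 het2 hee2 rfl hb2
  rw [← hinc1, ← hinc2]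
  have hle : stabT D l ≤ stabT R l := fun t ht => inf_le_stabT hl hRD ⟨ht, hnorm t⟩
  refine P179H452.glue (Subgroup.inclusion hle) p hidx1 hidx2 (fun x => ?_) (fun g => ?_) hc1 hcc1
    hc2 hcc2 (by rw [hinc1]; exact hcT1) (by rw [hinc2]; exact hcT2) hs1 hs2 fun y x hyx => ?_
  · rw [mem_subgroupOf, mem_subgroupOf]
    exact ⟨fun h => hnil x x.2 h, fun h => centralizer_le hRD h⟩
  · obtain ⟨c, hc, hcg⟩ := exists_stab' hl hD hab hT hRD g.2
    refine ⟨⟨c⁻¹ * g, hcg.1⟩, ?_⟩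
    rw [mem_subgroupOf]
    change (c⁻¹ * (g : G))⁻¹ * (g : G) ∈ _
    have h1 : (c⁻¹ * (g : G))⁻¹ * (g : G) = (g : G)⁻¹ * c * (g : G)⁻¹⁻¹ := by group
    rw [h1]
    exact (mem_normalizer_iff.1 (norm_le_norm_cent R (hnorm (g : G)⁻¹)) _).1 hc
  · -- the scalars
    have hyx' : (y : G) * (x : G)⁻¹ * (y : G)⁻¹ * ((x : G)⁻¹)⁻¹ ∈ centralizer (D : Set G) := by
      have h1 : (y : G) * x * (y : G)⁻¹ * (x : G)⁻¹ ∈ centralizer (D : Set G) :=
        mem_subgroupOf.1 hyx
      have h2 := (mem_normalizer_iff.1 (norm_le_norm_cent D (inv_mem x.2.1)) _).1 (inv_mem h1)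
      have h3 : (x : G)⁻¹ * ((y : G) * x * (y : G)⁻¹ * (x : G)⁻¹)⁻¹ * (x : G)⁻¹⁻¹ =
          (y : G) * (x : G)⁻¹ * (y : G)⁻¹ * ((x : G)⁻¹)⁻¹ := by group
      rwa [h3] at h2
    obtain ⟨a, ha1, ha2⟩ := same_scalar red hstep hl hD hab hT hRD hnil y ⟨y.2, hnorm _⟩
      (x : G)⁻¹ ⟨(stabT D l).inv_mem x.2, hnorm _⟩ hyx'
    obtain ⟨α1, t1, ht1, -⟩ := exists_pairing p hidx1 hc1 hcc1 (by rw [hinc1]; exact hcT1) hs1
    obtain ⟨α2, t2, ht2, -⟩ := exists_pairing p hidx2 hc2 hcc2 (by rw [hinc2]; exact hcT2) hs2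
    refine ⟨a, ⟨t1 (Subgroup.inclusion hle x), (ht1 _).1, (ht1 _).2.1, fun g => ?_⟩,
      ⟨t2 x, (ht2 _).1, (ht2 _).2.1, fun g => ?_⟩⟩
    · exact LX_of_scalar (p := p) (cent_le_stabT R l) heN1 (x := Subgroup.inclusion hle x)
        (y := Subgroup.inclusion hle y) (ha1 b hb hlb) (ht1 _).1 g
    · exact LX_of_scalar (p := p) (cent_le_stabT D l) heN2 (x := x) (y := y) (ha2 β hβ hlβ)
        (ht2 _).1 g

end Scalar

section Final

variable {p : ℕ} [hp : Fact p.Prime] {k : Type u} [Field k] [IsAlgClosed k] [CharP k p]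

/-- **the equality relative to the step** -/
theorem eqRel_of (red : integralClosure ℤ ℂ →+* k) (hstep : StepStmt p k) :
    P179H725.EqRel p red := by
  intro G _ _ B D β R hRn hR hR1 hB hDB hab hβ hβB hfree
  have := Fintype.ofFinite G
  obtain ⟨l, hl, hlz, hlβ⟩ := exists_BP_of_subblock (p := p) hB hDB hab hβ hβB
  have hST : stabT D l = inertialGroup D β := stabT_eq_inertialGroup hβ hlβ
  have hD : IsPGroup p D := (exists_BP_of_block (p := p) B hB D hDB).1
  have hRD : R ≤ D := P179H725.le_defect (p := p) hB hDB R hR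
  have hab' : D ≤ centralizer (D : Set G) := by
    intro x hx
    rw [mem_centralizer_iff]
    intro y hy
    exact hab y hy x hx
  have hT := hT_of_block hB hDB hD hab hl hlz
  have hnil : ∀ n ∈ stabT D l, n ∈ centralizer (R : Set G) → n ∈ centralizer (D : Set G) := by
    rw [hST]
    exact hfree
  have hnorm : ∀ g : G, g ∈ normalizer (R : Set G) := by
    intro g
    rw [normalizer_eq_top]
    exact mem_top g
  obtain ⟨b, hb, hlb, -⟩ := block_data red hl hD hab' hT hRD hnil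
  have hbcf : IsCF (fun g => B.coeff g) := (P179C.mem_center_iff _).1 hB.1
  have hbb : conv (fun g => B.coeff g) (fun g => B.coeff g) = fun g => B.coeff g := by
    funext g
    rw [← coeff_mul_eq_conv, hB.2.1]
  have h1 := P179H443.numSimple_fr (p := p) (H := centralizer (R : Set G)) hB
    (fun x hx => idem_supp (p := p) R hR hbcf hbb hx)
    (BP.mulH hl hD hab' (centralizer_le hRD)) hlz hb hlb
  have h2 := P179H443.numWeightsIn_eq_stabT red hB hDB hab hl hD hT hlz hβ hlβ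
  have hstH : stabT R l = stH (centralizer (R : Set G)) l := by
    ext g
    rw [mem_stabT_iff]
    exact ⟨fun h => h.2, fun h => ⟨hnorm g, h⟩⟩
  have h3 := numSimple_eq red hstep hl hD hab' hT hRD hnil hb hlb hβ hlβ
  rw [h1, h2, ← h3]
  have key : ∀ Γ Γ' : Subgroup G, Γ = Γ' →
      numSimpleIn (mkF fun t : Γ => bF (centralizer (R : Set G)) b t) =
        numSimpleIn (mkF fun t : Γ' => bF (centralizer (R : Set G)) b t) := by
    rintro Γ _ rfl
    rfl
  exact key _ _ hstH.symm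

end Final

end P179H843
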