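import Vale.Agent.P179.H526.FDP
import Vale.Agent.P179.H526.KDef

/-!
# The stabiliser of the block of a normal subgroup below a Brauer pair

`(D, l)` a Brauer pair of `G` with abelian `D` and inertial group `S = stabT D l`, `C` a normal
subgroup containing `C_G(D)`, `b₁` the block of `C` below `(D, l)`.  Then the stabiliser `T` of
`b₁` in `G` is `C S`, and `[T : C]` divides `[S : C_G(D)]`.
-/

namespace P179H843

open Subgroup Finset P179H524 P179C P179A P179P P179Y

open scoped Classical

universe u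

section Conj

variable {k : Type u} [Field k] {G : Type*} [Group G] (C : Subgroup G) [hC : C.Normal]

/-- functions on the normal subgroup, transported by conjugation -/
def tw (h : G) (z : C → k) : C → k := fun c => z (MulAut.conjNormal h c)

omit [Field k] in
theorem tw_mul (g h : G) (z : C → k) : tw C (g * h) z = tw C h (tw C g z) := by
  funext c
  unfold tw
  rw [map_mul]
  rfl

omit [Field k] in
theorem tw_one (z : C → k) : tw C 1 z = z := by
  funext c
  unfold tw
  rw [map_one]
  rfl

omit [Field k] in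
theorem tw_mem (c : C) {z : C → k} (hz : ∀ x : C, z (c * x * c⁻¹) = z x) : tw C (c : G) z = z := by
  funext x
  unfold tw
  rw [← hz x]
  congr 1

/-- the stabiliser of an element of the group algebra of a normal subgroup -/
def stabB (b : MonoidAlgebra k C) : Subgroup G where
  carrier := {h | ∀ c : C, b.coeff (MulAut.conjNormal h c) = b.coeff c}
  mul_mem' := by
    intro g h hg hh c
    rw [map_mul]
    change b.coeff (MulAut.conjNormal g (MulAut.conjNormal h c)) = _
    rw [hg, hh]
  one_mem' := by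
    intro c
    rw [map_one]
    rfl
  inv_mem' := by
    intro g hg c
    have h1 := hg (MulAut.conjNormal g⁻¹ c)
    rw [← MulAut.mul_apply, ← map_mul, mul_inv_cancel, map_one] at h1
    exact h1.symm

theorem mem_stabB {b : MonoidAlgebra k C} {h : G} :
    h ∈ stabB C b ↔ ∀ c : C, b.coeff (MulAut.conjNormal h c) = b.coeff c := Iff.rfl

theorem mem_stabB_iff_tw {b : MonoidAlgebra k C} {h : G} :
    h ∈ stabB C b ↔ tw C h (fun c => b.coeff c) = fun c => b.coeff c := by
  rw [mem_stabB]
  constructor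
  · intro h1
    funext c
    exact h1 c
  · intro h1 c
    exact congrFun h1 c

theorem ext_tw (h : G) (z : C → k) : ext C (tw C h z) = cj h⁻¹ (ext C z) := by
  funext x
  unfold cj
  rw [inv_inv]
  by_cases hx : x ∈ C
  · have h1 : h * x * h⁻¹ ∈ C := hC.conj_mem x hx h
    rw [ext_of_mem C _ hx, ext_of_mem C _ h1]
    unfold tw
    congr 1
  · have h1 : h * x * h⁻¹ ∉ C := by
      intro h2
      apply hx
      have := hC.conj_mem _ h2 h⁻¹
      have e : h⁻¹ * (h * x * h⁻¹) * h⁻¹⁻¹ = x := by group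
      rwa [e] at this
    rw [ext_of_not_mem C _ hx, ext_of_not_mem C _ h1]

omit [Field k] in
theorem isCF_tw (h : G) {z : C → k} (hz : IsCF z) : IsCF (tw C h z) := by
  intro g x
  unfold tw
  rw [map_mul, map_mul, map_inv]
  exact hz _ _

theorem conv_tw [Fintype C] (h : G) (a b : C → k) :
    tw C h (conv a b) = conv (tw C h a) (tw C h b) := by
  funext x
  unfold tw conv
  symm
  refine Fintype.sum_equiv (MulAut.conjNormal h : MulAut C).toEquiv _ _ fun y => ?_
  change a (MulAut.conjNormal h y) * b (MulAut.conjNormal h (y⁻¹ * x)) =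
    a (MulAut.conjNormal h y) * b ((MulAut.conjNormal h y)⁻¹ * MulAut.conjNormal h x)
  rw [map_mul, map_inv]

end Conj

section Main

variable {p : ℕ} [hp : Fact p.Prime] {k : Type u} [Field k] [CharP k p] {G : Type} [Group G]
  [Fintype G] {D : Subgroup G} {l : (G → k) → k} {C : Subgroup G} [hC : C.Normal]
  {b1 : MonoidAlgebra k C}

omit hp [CharP k p] [Fintype G] hC in
theorem isCF_block (hb : IsBlock b1) : IsCF (fun c => b1.coeff c) :=
  (P179C.mem_center_iff _).1 hb.1

omit hp [CharP k p] hC in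
theorem conv_block (hb : IsBlock b1) :
    conv (fun c => b1.coeff c) (fun c => b1.coeff c) = fun c => b1.coeff c := by
  funext c
  rw [← coeff_mul_eq_conv, hb.2.1]

omit hp [CharP k p] hC in
/-- two homomorphisms with value `1` on a block agree -/
theorem eq_of_hom {m m' : (C → k) → k} (hm : IsHomCF m) (hm' : IsHomCF m') (hb : IsBlock b1)
    (h1 : m (fun c => b1.coeff c) = 1) (h1' : m' (fun c => b1.coeff c) = 1) {z : C → k}
    (hz : IsCF z) : m z = m' z := by
  have hprim := (isBlock_iff_prim ⟨b1, hb.1⟩).1 hb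
  have h2 : hm.toAlgHom = hm'.toAlgHom := eq_of_prim hprim _ _ h1 h1'
  rw [← hm.toAlgHom_mkF hz, ← hm'.toAlgHom_mkF hz, h2]

omit hp [CharP k p] hC in
/-- a block absorbs the idempotents on which its homomorphism does not vanish -/
theorem conv_eq_of_hom {m : (C → k) → k} (hm : IsHomCF m) (hb : IsBlock b1)
    (h1 : m (fun c => b1.coeff c) = 1) {z : C → k} (hz : IsCF z) (hzz : conv z z = z)
    (hz1 : m z = 1) : conv z (fun c => b1.coeff c) = fun c => b1.coeff c := by
  have hprim := (isBlock_iff_prim ⟨b1, hb.1⟩).1 hb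
  set B : Subalgebra.center k (MonoidAlgebra k C) := ⟨b1, hb.1⟩ with hB
  set Z : Subalgebra.center k (MonoidAlgebra k C) := ⟨mkF z, mkF_mem hz⟩ with hZ
  have hZZ : Z * Z = Z := by
    apply Subtype.ext
    change mkF z * mkF z = mkF z
    rw [← mkF_conv, hzz]
  have hBB : B * B = B := hprim.1
  have h2 : Z * B * (Z * B) = Z * B := by
    have : Z * B * (Z * B) = (Z * Z) * (B * B) := by ring
    rw [this, hZZ, hBB]
  have h3 : Z * B * B = Z * B := by rw [mul_assoc, hBB]
  have h4 : hm.toAlgHom (Z * B) = 1 := by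
    rw [map_mul, hm.toAlgHom_mkF hz, hz1, one_mul]
    exact h1
  rcases hprim.2.2 _ h2 h3 with h5 | h5
  · rw [h5, map_zero] at h4
    exact absurd h4 zero_ne_one
  · have h6 : mkF z * b1 = b1 := congrArg Subtype.val h5
    funext c
    have h7 := coeff_mul_eq_conv (mkF z) b1 c
    rw [h6] at h7
    simp only [coeff_mkF] at h7
    exact h7.symm

/-- the functional of `C` below `(D, l)`, twisted -/
theorem isHomCF_tw (hl : BP p D l) (hD : IsPGroup p D) (hDC : D ≤ C)
    (hCC : centralizer (D : Set G) ≤ C) (h : G) :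
    IsHomCF (fun z : C → k => lres C l (tw C h z)) := by
  have hm : IsHomCF (lres C l) := (hl.restrict hDC hCC).isHomCF' hD.comap_subtype
  refine ⟨fun a b => ?_, fun c a => ?_, ?_, fun a b ha hb => ?_⟩
  · rw [← hm.add]
    rfl
  · rw [← hm.smul]
    rfl
  · refine Eq.trans ?_ hm.one
    congr 1
    funext c
    unfold tw
    have : MulAut.conjNormal h c = 1 ↔ c = 1 := by
      constructor
      · intro h1
        exact (MulAut.conjNormal h : MulAut C).injective (h1.trans (map_one _).symm)
      · rintro rfl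
        exact map_one _
    beta_reduce
    by_cases hc : c = 1
    · rw [if_pos (this.2 hc), if_pos hc]
    · rw [if_neg (fun h' => hc (this.1 h')), if_neg hc]
  · rw [conv_tw, hm.mul _ _ (isCF_tw C h ha) (isCF_tw C h hb)]

variable (hl : BP p D l) (hD : IsPGroup p D) (hab : D ≤ centralizer (D : Set G))
  (hCC : centralizer (D : Set G) ≤ C) (hb : IsBlock b1)
  (hb1 : l (ext C (fun c => b1.coeff c)) = 1)

include hl hD hab hCC hb hb1

/-- the stabiliser of the block is contained in `C · stabT D l` -/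
theorem stabB_le (hT : ¬ p ∣ (centralizer (D : Set G)).relIndex (stabT D l)) {h : G}
    (hh : h ∈ stabB C b1) : ∃ c ∈ C, c⁻¹ * h ∈ stabT D l := by
  have hDC : D ≤ C := hab.trans hCC
  have hm : IsHomCF (lres C l) := (hl.restrict hDC hCC).isHomCF' hD.comap_subtype
  refine fusionH hl hD hab hDC hCC
    (fun h => hT (h.trans (relIndex_stabT_lres_dvd hDC hCC)))
    (fun d hd => hC.conj_mem d (hDC hd) h) fun z hz => ?_
  have hzCF : IsCF (fun c : C => z c) := fun g x => hz.1 g g.2 x
  have hzext : ext C (fun c : C => z c) = z := by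
    funext x
    by_cases hx : x ∈ C
    · rw [ext_of_mem C _ hx]
    · rw [ext_of_not_mem C _ hx, hz.2 x hx]
  have h1 := eq_of_hom (isHomCF_tw hl hD hDC hCC h) hm hb (by
    rw [(mem_stabB_iff_tw C).1 hh]
    exact hb1) hb1 hzCF
  change lres C l (tw C h (fun c : C => z c)) = lres C l (fun c : C => z c) at h1
  unfold lres at h1
  rwa [ext_tw, hzext] at h1

/-- the stabiliser of the block contains `stabT D l` -/
theorem stabT_le_stabB : stabT D l ≤ stabB C b1 := by
  have hDC : D ≤ C := hab.trans hCC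
  have hm : IsHomCF (lres C l) := (hl.restrict hDC hCC).isHomCF' hD.comap_subtype
  set a : C → k := fun c => b1.coeff c with ha
  have haCF : IsCF a := isCF_block hb
  have haa : conv a a = a := conv_block hb
  -- invariance of the functional
  have key : ∀ n ∈ stabT D l, ∀ z : C → k, IsCF z → lres C l (tw C n z) = lres C l z := by
    intro n hn z hz
    unfold lres
    rw [ext_tw]
    have hn' : n⁻¹ ∈ stabT D l := inv_mem hn
    have hinv : ∀ c ∈ centralizer (D : Set G), ∀ x, ext C z (c * x * c⁻¹) = ext C z x := by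
      intro c hc x
      by_cases hx : x ∈ C
      · rw [ext_of_mem C _ hx, ext_of_mem C _ (hC.conj_mem x hx c)]
        exact hz ⟨c, hCC hc⟩ ⟨x, hx⟩
      · have h1 : c * x * c⁻¹ ∉ C := by
          intro h2
          apply hx
          have := hC.conj_mem _ h2 c⁻¹
          have e : c⁻¹ * (c * x * c⁻¹) * c⁻¹⁻¹ = x := by group
          rwa [e] at this
        rw [ext_of_not_mem C _ hx, ext_of_not_mem C _ h1]
    have h1 := hn'.2 _ (invOn_cutC D hinv)
    rw [hl.cut] at h1
    rw [← h1]
    refine hl.congr fun x hx => ?_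
    unfold cj cutC
    rw [if_pos]
    have := (conj_mem_cent hn.1 x).2 hx
    rwa [inv_inv]
  have habs : ∀ n ∈ stabT D l, conv (tw C n a) a = a := by
    intro n hn
    refine conv_eq_of_hom hm hb hb1 (isCF_tw C n haCF) ?_ ?_
    · rw [← conv_tw, haa]
    · rw [key n hn a haCF]
      exact hb1
  intro n hn
  rw [mem_stabB_iff_tw]
  change tw C n a = a
  have h1 := habs n hn
  have h2 := congrArg (tw C n) (habs n⁻¹ (inv_mem hn))
  rw [conv_tw, ← tw_mul, inv_mul_cancel, tw_one] at h2
  -- commutativity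
  have h3 : conv (tw C n a) a = conv a (tw C n a) := by
    have h4 : (⟨mkF (tw C n a), mkF_mem (isCF_tw C n haCF)⟩ :
        Subalgebra.center k (MonoidAlgebra k C)) * ⟨mkF a, mkF_mem haCF⟩ =
        ⟨mkF a, mkF_mem haCF⟩ * ⟨mkF (tw C n a), mkF_mem (isCF_tw C n haCF)⟩ := mul_comm _ _
    have h5 : mkF (tw C n a) * mkF a = mkF a * mkF (tw C n a) := congrArg Subtype.val h4
    rw [← mkF_conv, ← mkF_conv] at h5
    funext c
    rw [← coeff_mkF (conv (tw C n a) a) c, h5, coeff_mkF]
  rw [← h2, ← h3, h1]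

omit hp [CharP k p] [Fintype G] hl hD hab hCC hb1 in
theorem le_stabB : C ≤ stabB C b1 := by
  intro c hc
  rw [mem_stabB_iff_tw]
  exact tw_mem C ⟨c, hc⟩ fun x => isCF_block hb ⟨c, hc⟩ x

/-- **the stabiliser of the block** -/
theorem mem_stabB_iff (hT : ¬ p ∣ (centralizer (D : Set G)).relIndex (stabT D l)) {h : G} :
    h ∈ stabB C b1 ↔ ∃ c ∈ C, ∃ n ∈ stabT D l, h = c * n := by
  constructor
  · intro hh
    obtain ⟨c, hc, hn⟩ := stabB_le hl hD hab hCC hb hb1 hT hh
    exact ⟨c, hc, _, hn, by group⟩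
  · rintro ⟨c, hc, n, hn, rfl⟩
    exact mul_mem (le_stabB hb hc) (stabT_le_stabB hl hD hab hCC hb hb1 hn)

theorem stabB_eq_sup (hT : ¬ p ∣ (centralizer (D : Set G)).relIndex (stabT D l)) :
    stabB C b1 = C ⊔ stabT D l := by
  apply le_antisymm
  · intro h hh
    obtain ⟨c, hc, n, hn, rfl⟩ := (mem_stabB_iff hl hD hab hCC hb hb1 hT).1 hh
    exact mul_mem_sup hc hn
  · exact sup_le (le_stabB hb) (stabT_le_stabB hl hD hab hCC hb hb1)

theorem relIndex_stabB (hT : ¬ p ∣ (centralizer (D : Set G)).relIndex (stabT D l)) :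
    C.relIndex (stabB C b1) = C.relIndex (stabT D l) := by
  rw [stabB_eq_sup hl hD hab hCC hb hb1 hT, Subgroup.relIndex_sup_left]

/-- `[T : C]` divides `[T_D : C_G(D)]` -/
theorem relIndex_stabB_dvd (hT : ¬ p ∣ (centralizer (D : Set G)).relIndex (stabT D l)) :
    C.relIndex (stabB C b1) ∣ (centralizer (D : Set G)).relIndex (stabT D l) := by
  rw [relIndex_stabB hl hD hab hCC hb hb1 hT]
  exact Subgroup.relIndex_dvd_of_le_left _ hCC

theorem not_dvd_relIndex_stabB (hT : ¬ p ∣ (centralizer (D : Set G)).relIndex (stabT D l)) :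
    ¬ p ∣ C.relIndex (stabB C b1) := fun h =>
  hT (h.trans (relIndex_stabB_dvd hl hD hab hCC hb hb1 hT))

/-- `[T : C] = [T_D : C_G(D)]` if `C ∩ T_D = C_G(D)` -/
theorem relIndex_stabB_eq (hT : ¬ p ∣ (centralizer (D : Set G)).relIndex (stabT D l))
    (hfree : C ⊓ stabT D l ≤ centralizer (D : Set G)) :
    C.relIndex (stabB C b1) = (centralizer (D : Set G)).relIndex (stabT D l) := by
  rw [relIndex_stabB hl hD hab hCC hb hb1 hT, ← Subgroup.inf_relIndex_right]
  congr 1
  exact le_antisymm hfree (le_inf hCC (cent_le_stabT D l))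

/-- the comparison map `T_D / C_G(D) → T / C` is bijective if `C ∩ T_D = C_G(D)` -/
theorem exists_rep (hT : ¬ p ∣ (centralizer (D : Set G)).relIndex (stabT D l))
    (hfree : C ⊓ stabT D l ≤ centralizer (D : Set G)) :
    (∀ h ∈ stabB C b1, ∃ n ∈ stabT D l, n⁻¹ * h ∈ C) ∧
    (∀ n ∈ stabT D l, ∀ n' ∈ stabT D l, n⁻¹ * n' ∈ C → n⁻¹ * n' ∈ centralizer (D : Set G)) := by
  refine ⟨fun h hh => ?_, fun n hn n' hn' h =>
    hfree ⟨h, (stabT D l).mul_mem ((stabT D l).inv_mem hn) hn'⟩⟩
  obtain ⟨c, hc, n, hn, rfl⟩ := (mem_stabB_iff hl hD hab hCC hb hb1 hT).1 hh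
  refine ⟨n, hn, ?_⟩
  have := hC.conj_mem c hc n⁻¹
  have e : n⁻¹ * (c * n) = n⁻¹ * c * n⁻¹⁻¹ := by group
  rwa [e]

end Main

end P179H843
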