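import Vale.Agent.P179.R2.H854.Tr
import Vale.Agent.P179.R2.H92.Del
import Vale.Agent.P179.R2.H843.F2

/-!
# The core lemma applied to the centraliser of a maximal subgroup `Q`
-/

namespace P179H843

open Subgroup Finset P179H524 P179C P179A P179P P179Y P179H12 P179H854

open scoped Classical

universe u

/-- **the core lemma** -/
def CoreStmt (p : ℕ) (k : Type u) [Field k] : Prop :=
  ∀ (G : Type) [Group G] [Fintype G] (D : Subgroup G) (l : (G → k) → k) (B : MonoidAlgebra k G)
    (del : G → k) (x : G) (w : G → k), BP p D l → IsPGroup p D → D ≤ centralizer (D : Set G) →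
    ¬ p ∣ (centralizer (D : Set G)).relIndex (stabT D l) → IsBlock B →
    (∀ z : G → k, IsCF z → l z = centralChar B (mkF z)) →
    (∀ u ∈ D, ∀ v ∈ D, del (u * v) = del u + del v) →
    (∀ t ∈ stabT D l, ∀ u ∈ D, del (t * u * t⁻¹) = del u) → x ∈ D →
    (∀ t ∈ stabT D l, t * x * t⁻¹ = x) → del x ≠ 0 → IsCF w →
    (∀ u ∈ D, del u ≠ 0 → ∀ g, g * u = u * g → w g = 0) →
    conv (fun g => B.coeff g) w = 0

/-- restriction to a subgroup, extended by `0` -/
noncomputable def cutH {k : Type u} [Field k] {G : Type*} [Group G] (H : Subgroup G)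
    (z : G → k) : G → k := fun g => if g ∈ H then z g else 0

section Gen

variable {k : Type u} [Field k] {G : Type} [Group G] {H : Subgroup G}

theorem invOn_cutH {z : G → k} (hz : ∀ h ∈ H, ∀ x, z (h * x * h⁻¹) = z x) :
    InvOn H (cutH H z) := by
  constructor
  · intro h hh x
    have e : h * x * h⁻¹ ∈ H ↔ x ∈ H := by
      constructor
      · intro h1
        have h2 := mul_mem (mul_mem (inv_mem hh) h1) hh
        have h3 : h⁻¹ * (h * x * h⁻¹) * h = x := by group
        rwa [h3] at h2
      · intro h1
        exact mul_mem (mul_mem hh h1) (inv_mem hh)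
    unfold cutH
    simp only [e, hz h hh]
  · intro x hx
    exact if_neg hx

theorem cutC_eq_cutH (Q : Subgroup G) [Fintype G] (z : G → k) :
    cutC Q z = cutH (centralizer (Q : Set G)) z := rfl

end Gen

section L1

variable {p : ℕ} [hp : Fact p.Prime] {k : Type u} [Field k] [IsAlgClosed k] [CharP k p]
  {G : Type} [Group G] [Fintype G] {D : Subgroup G} {l : (G → k) → k}

omit [IsAlgClosed k] [CharP k p] hp in
/-- products of invariant functions, in the centre -/
theorem conv_comm_invOn {H : Subgroup G} {a b : G → k} (ha : InvOn H a) (hb : InvOn H b) :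
    conv a b = conv b a := by
  have h1 := bF_mkF (H := H) a ha.2
  have h2 := bF_mkF (H := H) b hb.2
  rw [← h1, ← h2, ← bF_mul, ← bF_mul]
  congr 1
  exact (Subalgebra.mem_center_iff.1 (mkF_mem (isCF_of_invOn hb)) _)

/-- the case `x ∈ Q` -/
theorem conv_cut_eq_zero_mem (hl : BP p D l) (hD : IsPGroup p D)
    (hab : D ≤ centralizer (D : Set G)) {x : G} {b : G → k}
    (hb : InvOn (centralizer ({x} : Set G)) b) (hbb : conv b b = b) (hlb : l b = 1)
    {z : G → k} (hz : IsCF z) (h0 : conv b (cutH (centralizer ({x} : Set G)) z) = 0)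
    {Q : Subgroup G} (hQD : Q ≤ D) (hxQ : x ∈ Q)
    {e : MonoidAlgebra k (centralizer (Q : Set G))} (he : IsBlock e)
    (hle : Low (centralizer (Q : Set G)) l e) :
    conv (cutC Q z) (bF (centralizer (Q : Set G)) e) = 0 := by
  have hQp : IsPGroup p Q := hD.to_le hQD
  have hCH : centralizer (D : Set G) ≤ (centralizer (Q : Set G)) := centralizer_le hQD
  have hDH : D ≤ (centralizer (Q : Set G)) := hab.trans hCH
  have hHx : (centralizer (Q : Set G)) ≤ centralizer ({x} : Set G) := centralizer_le (by
    rw [Set.singleton_subset_iff]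
    exact hxQ)
  have hQx : Q ≤ centralizer ({x} : Set G) := (hQD.trans hDH).trans hHx
  have hzI : InvOn (centralizer (Q : Set G)) (cutC Q z) := invOn_cutC Q fun c _ => hz c
  have hxI : InvOn (centralizer ({x} : Set G)) (cutH (centralizer ({x} : Set G)) z) :=
    invOn_cutH fun c _ => hz c
  have hcI : InvOn (centralizer (Q : Set G)) (cutC Q b) := invOn_cutC Q fun c hc => hb.1 c (hHx hc)
  have hcut : cutC Q (cutH (centralizer ({x} : Set G)) z) = cutC Q z := by
    funext y
    unfold cutC cutH
    by_cases hy : y ∈ centralizer (Q : Set G)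
    · rw [if_pos hy, if_pos hy, if_pos (hHx hy)]
    · rw [if_neg hy, if_neg hy]
  have h1 : conv (cutC Q b) (cutC Q z) = 0 := by
    funext y
    by_cases hy : y ∈ (centralizer (Q : Set G))
    · have h2 := conv_cut p Q hQp (a := b) (b := cutH (centralizer ({x} : Set G)) z)
        (fun d hd => hb.1 d (hQx hd)) (fun d hd => hxI.1 d (hQx hd)) hy
      rw [hcut, h0] at h2
      exact h2.symm
    · exact (InvOn.conv (centralizer (Q : Set G)) hcI hzI).2 y hy
  have hcc : conv (cutC Q b) (cutC Q b) = cutC Q b := by
    funext y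
    by_cases hy : y ∈ (centralizer (Q : Set G))
    · have h2 := conv_cut p Q hQp (a := b) (b := b)
        (fun d hd => hb.1 d (hQx hd)) (fun d hd => hb.1 d (hQx hd)) hy
      rw [hbb] at h2
      rw [← h2]
      exact (if_pos hy).symm
    · rw [(InvOn.conv (centralizer (Q : Set G)) hcI hcI).2 y hy, hcI.2 y hy]
  have hlc : l (cutC Q b) = 1 := by
    rw [← hlb]
    refine hl.congr fun y hy => ?_
    exact if_pos (hCH hy)
  -- in the algebra
  have hml : MulH (centralizer (Q : Set G)) l := BP.mulH hl hD hab hCH
  have hcF : IsCF (fun h : (centralizer (Q : Set G)) => cutC Q b h) := isCF_of_invOn hcI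
  have e1 : conv (fun h : (centralizer (Q : Set G)) => cutC Q b h) (fun h : (centralizer (Q : Set G)) => e.coeff h) = fun h : (centralizer (Q : Set G)) => e.coeff h := by
    refine conv_eq_of_hom hml.isHomCF he ?_ hcF ?_ ?_
    · exact hle.one he
    · funext h
      have h2 := congrFun (ext_conv (centralizer (Q : Set G)) (fun h : (centralizer (Q : Set G)) => cutC Q b h) (fun h : (centralizer (Q : Set G)) => cutC Q b h)) (h : G)
      rw [ext_of_supp hcI.2, hcc, P179Y.ext_coe] at h2
      exact h2
    · unfold lres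
      rw [ext_of_supp hcI.2, hlc]
  have e2 : conv (cutC Q b) (bF (centralizer (Q : Set G)) e) = bF (centralizer (Q : Set G)) e := by
    have h2 := congrArg (ext (centralizer (Q : Set G))) e1
    rw [ext_conv, ext_of_supp hcI.2] at h2
    exact h2
  have e3 : conv (cutC Q z) (cutC Q b) = 0 := (conv_comm_invOn hzI hcI).trans h1
  have e4 := bF_mkF (H := centralizer (Q : Set G)) _ hzI.2
  have e5 := bF_mkF (H := centralizer (Q : Set G)) _ hcI.2
  rw [← e2]
  rw [← e4, ← e5, ← bF_mul, ← bF_mul, ← mul_assoc, bF_mul, bF_mul, e4, e5, e3]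
  funext y
  unfold conv
  exact Finset.sum_eq_zero fun _ _ => zero_mul _

/-- **the core lemma in the centraliser of `Q`** -/
theorem conv_cut_eq_zero (hcore : CoreStmt p k) (hl : BP p D l) (hD : IsPGroup p D)
    (hab : D ≤ centralizer (D : Set G))
    (hT : ¬ p ∣ (centralizer (D : Set G)).relIndex (stabT D l)) {x : G} (hx : x ∈ D)
    (hxT : ∀ t ∈ stabT D l, t * x * t⁻¹ = x) {b : G → k}
    (hb : InvOn (centralizer ({x} : Set G)) b) (hbb : conv b b = b) (hlb : l b = 1)
    {z : G → k} (hz : IsCF z) (h0 : conv b (cutH (centralizer ({x} : Set G)) z) = 0)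
    {Q : Subgroup G} (hQD : Q ≤ D)
    {e : MonoidAlgebra k (centralizer (Q : Set G))} (he : IsBlock e)
    (hle : Low (centralizer (Q : Set G)) l e)
    (hQ : ∀ P : Subgroup G, IsPGroup p P → Q < P → cutC P z = 0) :
    conv (cutC Q z) (bF (centralizer (Q : Set G)) e) = 0 := by
  by_cases hxQ : x ∈ Q
  · exact conv_cut_eq_zero_mem hl hD hab hb hbb hlb hz h0 hQD hxQ he hle
  have hQp : IsPGroup p Q := hD.to_le hQD
  have hCH : centralizer (D : Set G) ≤ (centralizer (Q : Set G)) := centralizer_le hQD
  have hDH : D ≤ (centralizer (Q : Set G)) := hab.trans hCH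
  have hzI : InvOn (centralizer (Q : Set G)) (cutC Q z) := invOn_cutC Q fun c _ => hz c
  have heI : InvOn (centralizer (Q : Set G)) (bF (centralizer (Q : Set G)) e) := invOn_bF he.1
  have hwI : InvOn (centralizer (Q : Set G)) (conv (cutC Q z) (bF (centralizer (Q : Set G)) e)) := InvOn.conv (centralizer (Q : Set G)) hzI heI
  obtain ⟨del, hd1, hd2, hd3, x0, hx0, hx0T, hx0d⟩ := P179H92.exists_delta (k := k) (p := p)
    (D := D) (T := stabT D l ⊓ (centralizer (Q : Set G))) (Q := Q) hD hab (inf_le_left.trans (stabT_le_norm D l))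
    (fun h => hT (by
      rw [← relIndex_stabT_lres hDH hCH] at h
      exact h.trans (relIndex_stabT_lres_dvd hDH hCH))) inf_le_right hx
    (fun t ht => hxT t ht.1) hxQ
  have hmain := hcore (centralizer (Q : Set G)) (D.subgroupOf (centralizer (Q : Set G))) (lres (centralizer (Q : Set G)) l) e (fun h => del h) ⟨x0, hDH hx0⟩
    (fun h => conv (cutC Q z) (bF (centralizer (Q : Set G)) e) h) (hl.restrict hDH hCH) hD.comap_subtype
    (comm_subgroupOf hab hDH) (fun h => hT (h.trans (relIndex_stabT_lres_dvd hDH hCH))) he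
    (Low.char hle) (fun u hu v hv => hd1 u (mem_subgroupOf.1 hu) v (mem_subgroupOf.1 hv))
    (fun t ht u hu => hd2 t (mem_inf.2 ⟨(mem_stabT_lres hDH hCH t).1 ht, t.2⟩) u
      (mem_subgroupOf.1 hu)) (mem_subgroupOf.2 hx0)
    (fun t ht => Subtype.ext
      (hx0T t (mem_inf.2 ⟨(mem_stabT_lres hDH hCH t).1 ht, t.2⟩))) hx0d
    (isCF_of_invOn hwI) (by
      intro u hu hdu g hgu
      have huD : (u : G) ∈ D := mem_subgroupOf.1 hu
      have hgu' : (g : G) * u = u * g := congrArg Subtype.val hgu
      have huQ : (u : G) ∉ Q := fun h => hdu (hd3 _ h huD)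
      set U : Subgroup G := zpowers (u : G) with hU
      have hUD : U ≤ D := by
        rw [hU, zpowers_le]
        exact huD
      have hUH : U ≤ (centralizer (Q : Set G)) := hUD.trans hDH
      have hP : IsPGroup p (Q ⊔ U : Subgroup G) := hD.to_le (sup_le hQD hUD)
      have hlt : Q < Q ⊔ U := by
        refine lt_of_le_of_ne le_sup_left fun h => huQ ?_
        have h2 : (u : G) ∈ Q ⊔ U := mem_sup_right (mem_zpowers _)
        exact (SetLike.ext_iff.1 h (u : G)).2 h2
      have hz0 := hQ _ hP hlt
      have hgU : (g : G) ∈ centralizer (U : Set G) := by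
        rw [mem_centralizer_iff]
        intro y hy
        obtain ⟨n, rfl⟩ := mem_zpowers_iff.1 hy
        exact ((show Commute (g : G) (u : G) from hgu').zpow_right n).symm.eq
      change conv (cutC Q z) (bF (centralizer (Q : Set G)) e) g = 0
      rw [conv_cut p U (hD.to_le hUD) (fun d hd => hzI.1 d (hUH hd))
        (fun d hd => heI.1 d (hUH hd)) hgU]
      have h1 : cutC U (cutC Q z) = 0 := by
        funext y
        unfold cutC
        by_cases hy1 : y ∈ centralizer (U : Set G)
        · rw [if_pos hy1]
          by_cases hy2 : y ∈ centralizer (Q : Set G)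
          · rw [if_pos hy2]
            have h2 := congrFun hz0 y
            unfold cutC at h2
            rw [if_pos] at h2
            · exact h2
            · have h3 : Q ⊔ U ≤ centralizer ({y} : Set G) := by
                refine sup_le ?_ ?_
                · intro q hq
                  rw [mem_centralizer_singleton_iff]
                  exact mem_centralizer_iff.1 hy2 q hq
                · intro q hq
                  rw [mem_centralizer_singleton_iff]
                  exact mem_centralizer_iff.1 hy1 q hq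
              rw [mem_centralizer_iff]
              intro q hq
              exact mem_centralizer_singleton_iff.1 (h3 hq)
          · rw [if_neg hy2]
            rfl
        · rw [if_neg hy1]
          rfl
      rw [h1]
      unfold conv
      exact Finset.sum_eq_zero fun _ _ => zero_mul _)
  -- in the algebra
  have e0 : conv (bF (centralizer (Q : Set G)) e) (conv (cutC Q z) (bF (centralizer (Q : Set G)) e)) = 0 := by
    have h2 := congrArg (ext (centralizer (Q : Set G))) hmain
    rw [ext_conv, ext_of_supp hwI.2] at h2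
    refine h2.trans ?_
    funext y
    by_cases hy : y ∈ (centralizer (Q : Set G))
    · rw [ext_of_mem (centralizer (Q : Set G)) _ hy]
      rfl
    · rw [ext_of_not_mem (centralizer (Q : Set G)) _ hy]
      rfl
  rw [conv_comm_invOn heI hwI] at e0
  have e4 := bF_mkF (H := centralizer (Q : Set G)) _ hzI.2
  rw [← e4, ← bF_mul, ← bF_mul, mul_assoc, he.2.1, bF_mul, e4] at e0
  exact e0

end L1

end P179H843
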