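import Vale.Agent.P179.R2.H872.FR
import Vale.Agent.P179.R2.H12.Blk

/-!
# Inequalities between the numbers of simple modules, from injectivity on class functions
-/

namespace P179H843

open Subgroup Finset P179H524 P179A P179P P179Y P179H12 P179H872 P179R MonoidAlgebra

open P179C hiding lin lin_mul_single

open P179C.C2 (Om phi)

open scoped Classical

universe u

section

variable {k : Type u} [Field k] {G : Type} [Group G] [Fintype G]

omit [Field k] [Fintype G] in
theorem inv_cf {ψ : G → k} (h1 : ∀ g x, ψ (g * x * g⁻¹) = ψ x) : IsCF fun g => ψ g⁻¹ := by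
  intro g x
  beta_reduce
  rw [← h1 g x⁻¹]
  congr 1
  group

omit [Field k] [Fintype G] in
theorem pr_inv (p : ℕ) (x : G) : pr p x⁻¹ = (pr p x)⁻¹ := by
  unfold pr
  rw [orderOf_inv, inv_pow]

/-- multiplication by a central idempotent preserves the functions which depend only on the
regular parts -/
theorem mulB_mem (p : ℕ) [hp : Fact p.Prime] [IsAlgClosed k] [CharP k p] {B : MonoidAlgebra k G}
    (hB : B ∈ Subalgebra.center k (MonoidAlgebra k G)) (hB2 : B * B = B) {ψ : G → k}
    (h1 : ∀ g x, ψ (g * x * g⁻¹) = ψ x) (h2 : ∀ x, ψ (pr p x) = ψ x) :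
    (fun y => lin ψ (B * single y 1)) ∈ FB p B := by
  refine ⟨fun g x => ?_, fun x => ?_, fun y => ?_⟩
  · beta_reduce
    have h3 : B * single (g * x * g⁻¹) 1 = single g 1 * (B * single x 1) * single g⁻¹ 1 := by
      have h2 := (Subalgebra.mem_center_iff.1 hB) (single g 1)
      rw [← mul_assoc, h2, mul_assoc B, single_mul_single, mul_assoc B, single_mul_single, one_mul,
        one_mul]
    rw [h3, lin_comm h1, ← mul_assoc, single_mul_single, inv_mul_cancel, one_mul,
      ← MonoidAlgebra.one_def, one_mul]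
  · -- the regular part
    obtain ⟨r, d, hd, f, hf, hfker⟩ := exists_wedderburn k G
    obtain ⟨cf, hcf⟩ := exists_trFun p f hf hfker h1 h2
    beta_reduce
    rw [hcf, hcf]
    refine Finset.sum_congr rfl fun i _ => ?_
    congr 1
    obtain ⟨h3, h4⟩ := Q7.prExp_spec p (C2.ord_ne x)
    have h5 : (pr p x) ^ p ^ (orderOf x).factorization p =
        x ^ p ^ (orderOf x).factorization p := by
      rw [pr, ← pow_mul, pow_eq_pow_iff_modEq]
      have h6 := Nat.ModEq.mul_left' (ordProj[p] (orderOf x)) h4
      rw [mul_one, Nat.ordProj_mul_ordCompl_eq_self] at h6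
      rw [mul_comm (prExp p (orderOf x))]
      exact h6
    have hcomm : ∀ t : G, Commute B (single t (1 : k)) := by
      intro t
      exact ((Subalgebra.mem_center_iff.1 hB) (single t 1)).symm
    have hpow : ∀ (x : MonoidAlgebra k G) (N : ℕ), f x i ^ N = f (x ^ N) i := by
      intro x N
      rw [map_pow, Pi.pow_apply]
    apply trace_eq_of_pow p _ _ _ ((orderOf x).factorization p)
    · rw [hpow, hpow, (hcomm _).mul_pow, (hcomm _).mul_pow, single_pow, single_pow, h5]
    · have h10 : Commute (single (pr p x) (1 : k)) (single x 1) := by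
        have h11 : (pr p x) * x = x * pr p x := by
          unfold pr
          rw [← pow_succ, ← pow_succ']
        rw [Commute, SemiconjBy, single_mul_single, single_mul_single, h11]
      have h13 : Commute (B * single (pr p x) (1 : k)) (B * single x 1) :=
        Commute.mul_left (Commute.mul_right (Commute.refl _) (hcomm _))
          (Commute.mul_right (hcomm _).symm h10)
      exact congrFun (h13.map f) i
  · have h3 : ∀ m : G, lin ψ (B * single (m * y) 1) = lin ψ (B * (single m 1 * single y 1)) := by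
      intro m
      rw [single_mul_single, one_mul]
    change ∑ m : G, B.coeff m * lin ψ (B * single (m * y) 1) = lin ψ (B * single y 1)
    rw [Finset.sum_congr rfl fun m _ => by rw [h3 m]]
    have h4 : ∑ m : G, B.coeff m * lin ψ (B * (single m 1 * single y 1)) =
        lin ψ (B * (B * single y 1)) := by
      let L : MonoidAlgebra k G →ₗ[k] k :=
        (lin ψ).comp ((LinearMap.mulLeft k B).comp (LinearMap.mulRight k (single y (1 : k))))
      have hL : ∀ x, L x = lin ψ (B * (x * single y 1)) := fun x => rfl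
      simp only [← hL]
      exact (lmap_sum L B).symm
    rw [h4, ← mul_assoc, hB2]

/-- values of `B ψ` -/
theorem lin_mul_eq_conv {ψ : G → k} (h1 : ∀ g x, ψ (g * x * g⁻¹) = ψ x) (B : MonoidAlgebra k G)
    (y : G) : lin ψ (B * single y 1) = conv (fun g => B.coeff g) (fun g => ψ g⁻¹) y⁻¹ := by
  rw [lin_mul_single]
  unfold conv
  refine Finset.sum_congr rfl fun g _ => ?_
  congr 1
  have e1 : (g⁻¹ * y⁻¹)⁻¹ = y * g := by group
  beta_reduce
  rw [e1, ← h1 y (g * y)]
  congr 1
  group

theorem conv_mul_eq_lin {B : MonoidAlgebra k G} {ψ : G → k} (h1 : ∀ g x, ψ (g * x * g⁻¹) = ψ x)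
    (h3 : ∀ y, ∑ g : G, B.coeff g * ψ (g * y) = ψ y) :
    conv (fun g => B.coeff g) (fun g => ψ g⁻¹) = fun g => ψ g⁻¹ := by
  funext y
  have h4 := lin_mul_eq_conv h1 B y⁻¹
  rw [inv_inv] at h4
  rw [← h4, lin_mul_single, h3]

variable {H : Subgroup G}

theorem res0_eq_conv (b : MonoidAlgebra k H) (ψ : G → k) (t : H) :
    res0 b ψ t = conv (fun g => ψ g⁻¹) (bF H b) (t : G)⁻¹ := by
  unfold res0
  rw [lin_mul_single]
  have := Fintype.ofFinite H
  rw [sum_inc_coeff_mul H b (fun g => ψ (g * t))]
  unfold conv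
  have e1 : ∀ y : G, ψ y⁻¹ * bF H b (y⁻¹ * (t : G)⁻¹) =
      (fun m : G => bF H b m * ψ (m * t)) (y⁻¹ * (t : G)⁻¹) := by
    intro y
    beta_reduce
    rw [mul_comm]
    congr 2
    group
  rw [Finset.sum_congr rfl fun y _ => e1 y]
  let σ : G ≃ G :=
    { toFun := fun y => y⁻¹ * (t : G)⁻¹
      invFun := fun m => (t : G)⁻¹ * m⁻¹
      left_inv := fun y => by group
      right_inv := fun m => by group }
  have e2 : ∑ y : G, (fun m : G => bF H b m * ψ (m * t)) (y⁻¹ * (t : G)⁻¹) =
      ∑ m : G, bF H b m * ψ (m * t) := Equiv.sum_comp σ fun m : G => bF H b m * ψ (m * t)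
  rw [e2]
  symm
  rw [← Finset.sum_subset (Finset.subset_univ (univ.filter fun x : G => x ∈ H))]
  · rw [Finset.sum_subtype (p := fun x => x ∈ H) (univ.filter fun x : G => x ∈ H)
      (fun x => by simp)]
    refine Finset.sum_congr rfl fun x _ => ?_
    unfold bF
    rw [P179Y.ext_coe]
  · intro x _ hx
    unfold bF
    rw [ext_of_not_mem H _ (by simpa using hx), zero_mul]

/-- **restriction** -/
theorem numSimple_le_of_inj (p : ℕ) [hp : Fact p.Prime] [IsAlgClosed k] [CharP k p]
    {B : MonoidAlgebra k G} (hB : IsBlock B) {b : MonoidAlgebra k H} (hb : IsBlock b)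
    (hinj : ∀ z : G → k, IsCF z → conv (fun g => B.coeff g) z = z →
      (∀ g ∈ H, conv z (bF H b) g = 0) → z = 0) : numSimpleIn B ≤ numSimpleIn b := by
  rw [← finrank_FB p hB.1 hB.2.1, ← finrank_FB p hb.1 hb.2.1]
  let F : FB p B →ₗ[k] FB p b :=
    { toFun := fun ψ => ⟨res0 b ψ.1, res0_mem p hb.1 hb.2.1 ψ.2⟩
      map_add' := fun a b' => by
        apply Subtype.ext
        funext t
        change res0 b (a.1 + b'.1) t = res0 b a.1 t + res0 b b'.1 t
        unfold res0
        rw [lin_apply, lin_apply, lin_apply, ← Finset.sum_add_distrib]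
        exact Finset.sum_congr rfl fun _ _ => mul_add _ _ _
      map_smul' := fun c a => by
        apply Subtype.ext
        funext t
        change res0 b (c • a.1) t = c * res0 b a.1 t
        unfold res0
        rw [lin_apply, lin_apply, Finset.mul_sum]
        refine Finset.sum_congr rfl fun _ _ => ?_
        rw [Pi.smul_apply, smul_eq_mul]
        ring }
  refine LinearMap.finrank_le_finrank_of_injective (f := F) ?_
  rw [injective_iff_map_eq_zero]
  intro ψ hψ
  apply Subtype.ext
  have h0 : ∀ t : H, res0 b ψ.1 t = 0 := fun t => congrFun (congrArg Subtype.val hψ) t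
  have h1 := hinj (fun g => ψ.1 g⁻¹) (inv_cf ψ.2.1) (conv_mul_eq_lin ψ.2.1 ψ.2.2.2) (by
    intro g hg
    have h2 := res0_eq_conv b ψ.1 (⟨g, hg⟩ : H)⁻¹
    rw [h0] at h2
    have h3 : (((⟨g, hg⟩ : H)⁻¹ : H) : G)⁻¹ = g := by
      change (g⁻¹)⁻¹ = g
      exact inv_inv g
    rw [h3] at h2
    exact h2.symm)
  funext y
  have h4 := congrFun h1 y⁻¹
  beta_reduce at h4
  rw [inv_inv] at h4
  exact h4

/-- **induction** -/
theorem numSimple_le_of_sur (p : ℕ) [hp : Fact p.Prime] [IsAlgClosed k] [CharP k p]
    {B : MonoidAlgebra k G} (hB : IsBlock B) {b : MonoidAlgebra k H} (hb : IsBlock b)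
    (hsur : ∀ f : G → k, InvOn H f → conv (bF H b) f = f → (∀ x, f (pr p x) = f x ∨ x ∉ H) →
      conv (fun g => B.coeff g) (trG H f) = 0 → f = 0) : numSimpleIn b ≤ numSimpleIn B := by
  have := Fintype.ofFinite H
  rw [← finrank_FB p hB.1 hB.2.1, ← finrank_FB p hb.1 hb.2.1]
  let F : FB p b →ₗ[k] FB p B :=
    { toFun := fun θ => ⟨fun y => lin (ind0 H θ.1) (B * single y 1),
        mulB_mem p hB.1 hB.2.1 (ind0_conj H θ.2.1) (ind0_pr H p θ.2.1 θ.2.2.1)⟩
      map_add' := fun a b' => by
        apply Subtype.ext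
        funext t
        change lin (ind0 H (a.1 + b'.1)) _ = lin (ind0 H a.1) _ + lin (ind0 H b'.1) _
        have e : ind0 H (a.1 + b'.1) = ind0 H a.1 + ind0 H b'.1 := by
          funext g
          unfold ind0 cval ext0
          rw [Pi.add_apply, ← Finset.sum_add_distrib]
          refine Finset.sum_congr rfl fun s _ => ?_
          split_ifs
          · rfl
          · rw [add_zero]
        rw [e, lin_apply, lin_apply, lin_apply, ← Finset.sum_add_distrib]
        exact Finset.sum_congr rfl fun _ _ => mul_add _ _ _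
      map_smul' := fun c a => by
        apply Subtype.ext
        funext t
        change lin (ind0 H (c • a.1)) _ = c * lin (ind0 H a.1) _
        have e : ind0 H (c • a.1) = c • ind0 H a.1 := by
          funext g
          unfold ind0 cval ext0
          rw [Pi.smul_apply, smul_eq_mul, Finset.mul_sum]
          refine Finset.sum_congr rfl fun s _ => ?_
          split_ifs
          · rfl
          · rw [mul_zero]
        rw [e, lin_apply, lin_apply, Finset.mul_sum]
        refine Finset.sum_congr rfl fun _ _ => ?_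
        rw [Pi.smul_apply, smul_eq_mul]
        ring }
  refine LinearMap.finrank_le_finrank_of_injective (f := F) ?_
  rw [injective_iff_map_eq_zero]
  intro θ hθ
  apply Subtype.ext
  have h0 : ∀ y : G, lin (ind0 H θ.1) (B * single y 1) = 0 := fun y =>
    congrFun (congrArg Subtype.val hθ) y
  have h1 := hsur (P179Y.ext H fun h => θ.1 h⁻¹) (invOn_ext0 (inv_cf θ.2.1)) ?_ ?_ ?_
  · funext y
    have h4 := congrFun h1 ((y⁻¹ : H) : G)
    rw [P179Y.ext_coe, inv_inv] at h4
    exact h4
  · have h2 := congrArg (P179Y.ext H) (conv_mul_eq_lin θ.2.1 θ.2.2.2)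
    rw [ext_conv] at h2
    exact h2
  · intro x
    by_cases hx : x ∈ H
    · left
      have h3 : pr p x ∈ H := by
        unfold pr
        exact pow_mem hx _
      rw [ext_of_mem H _ hx, ext_of_mem H _ h3]
      have h4 : (⟨pr p x, h3⟩ : H)⁻¹ = pr p (⟨x, hx⟩ : H)⁻¹ := by
        rw [pr_inv]
        congr 1
        apply Subtype.ext
        exact (Q7.map_pr p H.subtype (⟨x, hx⟩ : H) (C2.ord_ne _)).symm
      rw [h4, θ.2.2.1]
    · right
      exact hx
  · funext y
    have h2 := lin_mul_eq_conv (ind0_conj H θ.2.1) B y⁻¹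
    rw [h0, inv_inv] at h2
    have h3 : trG H (P179Y.ext H fun h => θ.1 h⁻¹) = fun g => ind0 H θ.1 g⁻¹ := by
      funext g
      unfold trG ind0 cval
      refine Finset.sum_congr rfl fun s _ => ?_
      have e1 : s.out⁻¹ * g⁻¹ * s.out = (s.out⁻¹ * g * s.out)⁻¹ := by group
      rw [e1]
      by_cases hx : s.out⁻¹ * g * s.out ∈ H
      · rw [ext_of_mem H _ hx, ext0_pos H _ (inv_mem hx)]
        rfl
      · rw [ext_of_not_mem H _ hx, ext0_neg H _ fun h => hx (by simpa using inv_mem h)]
    rw [h3]
    exact h2.symm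

end

end P179H843
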