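import Vale.Agent.P179.R2.H843.Braid

/-!
# The quadratic identity for finite sets with an action of the braid group on four strands
-/

set_option linter.unusedSectionVars false

namespace P179N

open Finset

section Gamma

variable {Γ Y : Type*} [Group Γ] [MulAction Γ Y] [Fintype Y]

/-- the embedding of the free group -/
def io (s₁ s₂ s₃ : Γ) : F2 →* Γ := lft (s₁ * s₃⁻¹) (s₂ * (s₁ * s₃⁻¹) * s₂⁻¹)

theorem braid_aux {x y : Γ} (h : x * y * x = y * x * y) : y * x⁻¹ * y⁻¹ = x⁻¹ * y⁻¹ * x := by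
  rw [mul_inv_eq_iff_eq_mul, mul_inv_eq_iff_eq_mul]
  have h2 : x⁻¹ * y⁻¹ * x * y * x = x⁻¹ * y⁻¹ * (x * y * x) := by group
  rw [h2, h]
  group

variable {s₁ s₂ s₃ : Γ}

theorem io_t1 (h12 : s₁ * s₂ * s₁ = s₂ * s₁ * s₂) (h23 : s₂ * s₃ * s₂ = s₃ * s₂ * s₃)
    (h13 : s₁ * s₃ = s₃ * s₁) (g : F2) :
    io s₁ s₂ s₃ (t1 g) = s₁ * io s₁ s₂ s₃ g * s₁⁻¹ := by
  have c13 : s₁ * s₃⁻¹ = s₃⁻¹ * s₁ := (show Commute s₁ s₃ from h13).inv_right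
  have h : (io s₁ s₂ s₃).comp t1.toMonoidHom =
      (MulAut.conj s₁).toMonoidHom.comp (io s₁ s₂ s₃) := by
    refine hom_ext2 ?_ ?_
    · change io s₁ s₂ s₃ (t1 gu) = s₁ * io s₁ s₂ s₃ gu * s₁⁻¹
      rw [t1_u]
      simp only [io, lft_u]
      conv_rhs => rw [c13]
      group
    · change io s₁ s₂ s₃ (t1 gv) = s₁ * io s₁ s₂ s₃ gv * s₁⁻¹
      rw [t1_v]
      simp only [io, map_mul, map_inv, lft_u, lft_v]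
      have h3 := braid_aux h23.symm
      calc s₂ * (s₁ * s₃⁻¹) * s₂⁻¹ * (s₁ * s₃⁻¹)⁻¹ = s₂ * s₁ * (s₃⁻¹ * s₂⁻¹ * s₃) * s₁⁻¹ := by group
        _ = s₂ * s₁ * (s₂ * s₃⁻¹ * s₂⁻¹) * s₁⁻¹ := by rw [h3]
        _ = (s₂ * s₁ * s₂) * s₃⁻¹ * s₂⁻¹ * s₁⁻¹ := by group
        _ = (s₁ * s₂ * s₁) * s₃⁻¹ * s₂⁻¹ * s₁⁻¹ := by rw [h12]
        _ = _ := by group
  exact congrArg (fun h : F2 →* Γ => h g) h

theorem io_t2 (h12 : s₁ * s₂ * s₁ = s₂ * s₁ * s₂) (h23 : s₂ * s₃ * s₂ = s₃ * s₂ * s₃)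
    (h13 : s₁ * s₃ = s₃ * s₁) (g : F2) :
    io s₁ s₂ s₃ (t2 g) = s₂ * io s₁ s₂ s₃ g * s₂⁻¹ := by
  have c13 : s₁ * s₃⁻¹ = s₃⁻¹ * s₁ := (show Commute s₁ s₃ from h13).inv_right
  have h : (io s₁ s₂ s₃).comp t2.toMonoidHom =
      (MulAut.conj s₂).toMonoidHom.comp (io s₁ s₂ s₃) := by
    refine hom_ext2 ?_ ?_
    · change io s₁ s₂ s₃ (t2 gu) = s₂ * io s₁ s₂ s₃ gu * s₂⁻¹
      rw [t2_u]
      simp only [io, lft_u, lft_v]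
    · change io s₁ s₂ s₃ (t2 gv) = s₂ * io s₁ s₂ s₃ gv * s₂⁻¹
      rw [t2_v]
      simp only [io, map_mul, map_inv, lft_u, lft_v]
      have h3 := braid_aux h23.symm
      have h4 := braid_aux h12.symm
      have h5 : s₃⁻¹ * s₂⁻¹ * s₃⁻¹ = s₂⁻¹ * s₃⁻¹ * s₂⁻¹ := by
        have := congrArg (fun x => x⁻¹) h23
        simp only [mul_inv_rev] at this
        rw [← mul_assoc, ← mul_assoc] at this
        exact this.symm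
      calc s₂ * (s₁ * s₃⁻¹) * s₂⁻¹ * (s₁ * s₃⁻¹)⁻¹ * (s₂ * (s₁ * s₃⁻¹) * s₂⁻¹)
          = s₂ * s₁ * (s₃⁻¹ * s₂⁻¹ * s₃) * s₁⁻¹ * s₂ * s₁ * s₃⁻¹ * s₂⁻¹ := by group
        _ = s₂ * s₁ * (s₂ * s₃⁻¹ * s₂⁻¹) * s₁⁻¹ * s₂ * s₁ * s₃⁻¹ * s₂⁻¹ := by rw [h3]
        _ = s₂ * s₁ * s₂ * s₃⁻¹ * (s₂⁻¹ * s₁⁻¹ * s₂) * s₁ * s₃⁻¹ * s₂⁻¹ := by group
        _ = s₂ * s₁ * s₂ * s₃⁻¹ * (s₁ * s₂⁻¹ * s₁⁻¹) * s₁ * s₃⁻¹ * s₂⁻¹ := by rw [h4]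
        _ = s₂ * s₁ * s₂ * (s₃⁻¹ * s₁) * s₂⁻¹ * s₃⁻¹ * s₂⁻¹ := by group
        _ = s₂ * s₁ * s₂ * (s₁ * s₃⁻¹) * s₂⁻¹ * s₃⁻¹ * s₂⁻¹ := by rw [c13]
        _ = s₂ * (s₁ * s₂ * s₁) * (s₃⁻¹ * s₂⁻¹ * s₃⁻¹) * s₂⁻¹ := by group
        _ = s₂ * (s₂ * s₁ * s₂) * (s₂⁻¹ * s₃⁻¹ * s₂⁻¹) * s₂⁻¹ := by rw [h12, h5]
        _ = _ := by group
  exact congrArg (fun h : F2 →* Γ => h g) h

/-- the pairs of compatible elements -/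
def BB (κ : F2) (io : F2 →* Γ) (R₁ R₂ : Y → ℤ) : Subgroup (MulAut F2 × Γ) where
  carrier := {x | (∀ g, io (x.1 g) = x.2 * io g * x.2⁻¹) ∧ x.1 κ = κ ∧
    (∀ y, R₁ (x.2 • y) = R₁ y) ∧ ∀ y, R₂ (x.2 • y) = R₂ y}
  mul_mem' := by
    rintro ⟨a, x⟩ ⟨b, y⟩ ⟨h1, h2, h3, h4⟩ ⟨k1, k2, k3, k4⟩
    simp only at h1 h2 h3 h4 k1 k2 k3 k4
    refine ⟨fun g => ?_, ?_, fun w => ?_, fun w => ?_⟩
    · simp only [Prod.mk_mul_mk, MulAut.mul_apply]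
      rw [h1, k1]
      group
    · simp only [Prod.mk_mul_mk, MulAut.mul_apply]
      rw [k2, h2]
    · simp only [Prod.mk_mul_mk, mul_smul]
      rw [h3, k3]
    · simp only [Prod.mk_mul_mk, mul_smul]
      rw [h4, k4]
  one_mem' := by
    refine ⟨fun g => ?_, ?_, fun w => ?_, fun w => ?_⟩ <;> simp
  inv_mem' := by
    rintro ⟨a, x⟩ ⟨h1, h2, h3, h4⟩
    simp only at h1 h2 h3 h4
    refine ⟨fun g => ?_, ?_, fun w => ?_, fun w => ?_⟩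
    · simp only [Prod.inv_mk]
      have h5 := h1 (a⁻¹ g)
      rw [MulAut.apply_inv_self] at h5
      rw [h5]
      group
    · simp only [Prod.inv_mk]
      conv_lhs => rw [← h2]
      rw [MulAut.inv_apply_self]
    · simp only [Prod.inv_mk]
      conv_rhs => rw [← smul_inv_smul x w]
      rw [h3]
    · simp only [Prod.inv_mk]
      conv_rhs => rw [← smul_inv_smul x w]
      rw [h4]

end Gamma

end P179N
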