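import Vale.Agent.P179.R2.H843.Cup

/-!
# The pairing of two integer cocycles and the quadratic transfer

`κ` is in the commutator subgroup of the free group `F`, fixed by the group `B` acting on `F`
and `Y`. The quadratic transfer `Q` is a homomorphism from `B` to the integers modulo `q₁ q₂`.
-/

set_option linter.unusedSectionVars false

namespace P179N

open Finset

section Pair

variable {ι Y : Type*} [MulAction (FreeGroup ι) Y]

theorem IsCup.sub {A B C C' : FreeGroup ι → Y → ℤ} (h : IsCup A B C) (h' : IsCup A B C') :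
    IsCoc (C - C') := by
  intro g k y
  simp only [Pi.sub_apply, h g k y, h' g k y]
  ring

variable [Fintype Y]

open Classical in
/-- the pairing at `κ` -/
noncomputable def pair (κ : FreeGroup ι) (A B : FreeGroup ι → Y → ℤ) : ℤ :=
  if h : ∃ C, IsCup A B C then ∑ y, h.choose κ y else 0

variable {κ : FreeGroup ι} (hκ : κ ∈ commutator (FreeGroup ι))

include hκ

theorem pair_eq {A B C : FreeGroup ι → Y → ℤ} (hC : IsCup A B C) :
    pair κ A B = ∑ y, C κ y := by
  have h : ∃ C, IsCup A B C := ⟨C, hC⟩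
  unfold pair
  rw [dif_pos h]
  have h1 := (h.choose_spec.sub hC).sum_comm hκ
  simp only [Pi.sub_apply, sum_sub_distrib] at h1
  linarith

theorem pair_sub_left {A A' B : FreeGroup ι → Y → ℤ} (hA : IsCoc A) (hA' : IsCoc A')
    (hB : IsCoc B) : pair κ (A - A') B = pair κ A B - pair κ A' B := by
  obtain ⟨C, hC⟩ := exists_cup hA hB
  obtain ⟨C', hC'⟩ := exists_cup hA' hB
  rw [pair_eq hκ hC, pair_eq hκ hC', ← sum_sub_distrib]
  refine pair_eq hκ (C := C - C') ?_
  intro g k y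
  simp only [Pi.sub_apply, hC g k y, hC' g k y]
  ring

theorem pair_sub_right {A B B' : FreeGroup ι → Y → ℤ} (hA : IsCoc A) (hB : IsCoc B)
    (hB' : IsCoc B') : pair κ A (B - B') = pair κ A B - pair κ A B' := by
  obtain ⟨C, hC⟩ := exists_cup hA hB
  obtain ⟨C', hC'⟩ := exists_cup hA hB'
  rw [pair_eq hκ hC, pair_eq hκ hC', ← sum_sub_distrib]
  refine pair_eq hκ (C := C - C') ?_
  intro g k y
  simp only [Pi.sub_apply, hC g k y, hC' g k y]
  ring

theorem pair_add_left {A A' B : FreeGroup ι → Y → ℤ} (hA : IsCoc A) (hA' : IsCoc A')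
    (hB : IsCoc B) : pair κ (A + A') B = pair κ A B + pair κ A' B := by
  have h := pair_sub_left hκ (hA.add hA') hA' hB
  rw [add_sub_cancel_right] at h
  linarith

theorem pair_add_right {A B B' : FreeGroup ι → Y → ℤ} (hA : IsCoc A) (hB : IsCoc B)
    (hB' : IsCoc B') : pair κ A (B + B') = pair κ A B + pair κ A B' := by
  have h := pair_sub_right hκ hA (hB.add hB') hB'
  rw [add_sub_cancel_right] at h
  linarith

theorem pair_smul_left {A B : FreeGroup ι → Y → ℤ} (hA : IsCoc A) (hB : IsCoc B) (c : ℤ) :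
    pair κ (c • A) B = c * pair κ A B := by
  obtain ⟨C, hC⟩ := exists_cup hA hB
  rw [pair_eq hκ hC, mul_sum]
  refine pair_eq hκ (C := c • C) ?_
  intro g k y
  simp only [Pi.smul_apply, hC g k y, smul_eq_mul]
  ring

theorem pair_smul_right {A B : FreeGroup ι → Y → ℤ} (hA : IsCoc A) (hB : IsCoc B) (c : ℤ) :
    pair κ A (c • B) = c * pair κ A B := by
  obtain ⟨C, hC⟩ := exists_cup hA hB
  rw [pair_eq hκ hC, mul_sum]
  refine pair_eq hκ (C := c • C) ?_
  intro g k y
  simp only [Pi.smul_apply, hC g k y, smul_eq_mul]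
  ring

theorem pair_cob_left {B : FreeGroup ι → Y → ℤ} (hB : IsCoc B) (t : Y → ℤ) :
    pair κ (cob t) B = ∑ y, t (κ • y) * B κ y := by
  refine pair_eq hκ (C := fun g y => t (g • y) * B g y) ?_
  intro g k y
  simp only [cob, mul_smul, hB g k y]
  ring

theorem pair_cob_right {A : FreeGroup ι → Y → ℤ} (hA : IsCoc A) (t : Y → ℤ) :
    pair κ A (cob t) = -∑ y, A κ y * t y := by
  rw [← sum_neg_distrib]
  refine pair_eq hκ (C := fun g y => -(A g y * t y)) ?_
  intro g k y
  simp only [cob, hA g k y]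
  ring

end Pair

section Div

variable {G Y : Type*} [Group G] [MulAction G Y]

theorem IsCoc.exists_div {A : G → Y → ℤ} (hA : IsCoc A) {q : ℤ} (hq : q ≠ 0)
    (h : ∀ g y, q ∣ A g y) : ∃ η : G → Y → ℤ, IsCoc η ∧ A = q • η := by
  choose η hη using h
  refine ⟨η, fun g k y => ?_, ?_⟩
  · apply mul_left_cancel₀ hq
    rw [← hη, hA, hη, hη]
    ring
  · funext g y
    simp [hη]

end Div

section Transfer

variable {ι Y B : Type*} [MulAction (FreeGroup ι) Y] [Group B] [MulAction B Y]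

/-- the pull back of a cochain -/
def pb (τ : B →* MulAut (FreeGroup ι)) (b : B) (A : FreeGroup ι → Y → ℤ) : FreeGroup ι → Y → ℤ :=
  fun g y => A (τ b g) (b • y)

variable {τ : B →* MulAut (FreeGroup ι)}

theorem pb_mul (b b' : B) (A : FreeGroup ι → Y → ℤ) : pb τ (b * b') A = pb τ b' (pb τ b A) := by
  funext g y
  simp [pb, mul_smul]

theorem pb_sub (b : B) (A A' : FreeGroup ι → Y → ℤ) : pb τ b (A - A') = pb τ b A - pb τ b A' := rfl

theorem pb_one (A : FreeGroup ι → Y → ℤ) : pb τ 1 A = A := by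
  funext g y
  simp [pb]

variable (hc : ∀ (b : B) (g : FreeGroup ι) (y : Y), b • (g • y) = (τ b g) • (b • y))

include hc

theorem isCoc_pb {A : FreeGroup ι → Y → ℤ} (hA : IsCoc A) (b : B) : IsCoc (pb τ b A) := by
  intro g k y
  simp only [pb, map_mul]
  rw [hA, hc]

variable [Fintype Y] {κ : FreeGroup ι} (hκ : κ ∈ commutator (FreeGroup ι))
  (hκτ : ∀ b, τ b κ = κ)

include hκ hκτ

theorem pair_pb {A A' : FreeGroup ι → Y → ℤ} (hA : IsCoc A) (hA' : IsCoc A') (b : B) :
    pair κ (pb τ b A) (pb τ b A') = pair κ A A' := by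
  obtain ⟨C, hC⟩ := exists_cup hA hA'
  rw [pair_eq hκ hC, pair_eq hκ (C := pb τ b C)]
  · simp only [pb, hκτ]
    exact Equiv.sum_comp (MulAction.toPerm b) (fun y => C κ y)
  · intro g k y
    simp only [pb, map_mul]
    rw [hC, hc]

omit hc hκτ in
/-- the pairing of two cocycles that are coboundaries modulo `q₁` and `q₂` -/
theorem pair_modEq {A A' : FreeGroup ι → Y → ℤ} (hA : IsCoc A) (hA' : IsCoc A') {q₁ q₂ : ℤ}
    (hq₁ : q₁ ≠ 0) (hq₂ : q₂ ≠ 0) {α β : Y → ℤ} (hα : ∀ y, α (κ • y) = α y)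
    (h₁ : ∀ g y, q₁ ∣ A g y - cob α g y) (h₂ : ∀ g y, q₂ ∣ A' g y - cob β g y) :
    q₁ * q₂ ∣ pair κ A A' - (∑ y, α y * A' κ y - ∑ y, A κ y * β y) := by
  obtain ⟨η, hη, h1⟩ := (hA.sub (isCoc_cob α)).exists_div hq₁ h₁
  obtain ⟨ζ, hζ, h2⟩ := (hA'.sub (isCoc_cob β)).exists_div hq₂ h₂
  have e1 : A = cob α + q₁ • η := by rw [← h1]; abel
  have e2 : A' = cob β + q₂ • ζ := by rw [← h2]; abel
  have hcα : IsCoc (cob α : FreeGroup ι → Y → ℤ) := isCoc_cob α
  have hcβ : IsCoc (cob β : FreeGroup ι → Y → ℤ) := isCoc_cob β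
  have hsη : IsCoc (q₁ • η) := h1 ▸ hA.sub hcα
  have hsζ : IsCoc (q₂ • ζ) := h2 ▸ hA'.sub hcβ
  have e3 : pair κ A A' = pair κ (cob α) A' + pair κ (q₁ • η) (cob β) +
      q₁ * q₂ * pair κ η ζ := by
    conv_lhs => rw [e1, pair_add_left hκ hcα hsη hA']
    have : pair κ (q₁ • η) A' = pair κ (q₁ • η) (cob β) + q₁ * q₂ * pair κ η ζ := by
      conv_lhs => rw [e2, pair_add_right hκ hsη hcβ hsζ]
      rw [pair_smul_right hκ hsη hζ, pair_smul_left hκ hη hζ]
      ring
    rw [this]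
    ring
  have e4 : pair κ (q₁ • η) (cob β) = -∑ y, A κ y * β y := by
    rw [pair_cob_right hκ hsη]
    congr 1
    refine sum_congr rfl fun y _ => ?_
    have : (q₁ • η) κ y = A κ y := by
      rw [← h1]
      simp [cob, hα]
    rw [this]
  have e5 : pair κ (cob α) A' = ∑ y, α y * A' κ y := by
    rw [pair_cob_left hκ hA']
    exact sum_congr rfl fun y _ => by rw [hα]
  rw [e3, e4, e5]
  exact ⟨pair κ η ζ, by ring⟩

end Transfer

end P179N
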