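import Vale.Agent.P179.R2.H843.Pair

/-!
# The quadratic transfer is a homomorphism modulo `q₁ q₂`
-/

set_option linter.unusedSectionVars false

namespace P179N

open Finset

variable {ι Y B : Type*} [MulAction (FreeGroup ι) Y] [Group B] [MulAction B Y]

/-- Integer lifts of a cocycle modulo `q` of the semidirect product of `F` and `B`. -/
structure Lifted (q : ℤ) (τ : B →* MulAut (FreeGroup ι)) (κ : FreeGroup ι)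
    (Φ : FreeGroup ι → Y → ℤ) (T : B → Y → ℤ) (r : Y → ℤ) : Prop where
  ne : q ≠ 0
  coc : IsCoc Φ
  mul : ∀ b b' y, q ∣ T (b * b') y - (T b (b' • y) + T b' y)
  comp : ∀ b g y, q ∣ Φ (τ b g) (b • y) - Φ g y - (T b (g • y) - T b y)
  inv : ∀ b y, T b (κ • y) = T b y
  rinv : ∀ (b : B) y, r (b • y) = r y
  rval : ∀ y, q ∣ r y - Φ κ y

variable [Fintype Y]

/-- the quadratic transfer -/
noncomputable def quad (τ : B →* MulAut (FreeGroup ι)) (κ : FreeGroup ι)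
    (Φ₁ : FreeGroup ι → Y → ℤ) (T₁ : B → Y → ℤ) (r₁ : Y → ℤ)
    (Φ₂ : FreeGroup ι → Y → ℤ) (T₂ : B → Y → ℤ) (r₂ : Y → ℤ) (b : B) : ℤ :=
  pair κ Φ₁ (pb τ b Φ₂ - Φ₂) + ∑ y, (r₂ y - Φ₂ κ y) * T₁ b⁻¹ y
    - ∑ y, (r₁ y - Φ₁ κ y) * T₂ b y

theorem dvd_sum_mul_sub {q₁ q₂ : ℤ} {e a a' : Y → ℤ} (he : ∀ y, q₂ ∣ e y)
    (ha : ∀ y, q₁ ∣ a y - a' y) : q₁ * q₂ ∣ ∑ y, e y * a y - ∑ y, e y * a' y := by
  rw [← sum_sub_distrib]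
  refine dvd_sum fun y _ => ?_
  rw [← mul_sub, mul_comm q₁]
  exact mul_dvd_mul (he y) (ha y)

variable {τ : B →* MulAut (FreeGroup ι)} {κ : FreeGroup ι}
  (hc : ∀ (b : B) (g : FreeGroup ι) (y : Y), b • (g • y) = (τ b g) • (b • y))
  (hκ : κ ∈ commutator (FreeGroup ι)) (hκτ : ∀ b, τ b κ = κ)
  {q₁ q₂ : ℤ} {Φ₁ Φ₂ : FreeGroup ι → Y → ℤ} {T₁ T₂ : B → Y → ℤ} {r₁ r₂ : Y → ℤ}
  (h₁ : Lifted q₁ τ κ Φ₁ T₁ r₁) (h₂ : Lifted q₂ τ κ Φ₂ T₂ r₂)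

include hc hκ hκτ h₁ h₂

/-- **The quadratic transfer is additive.** -/
theorem quad_mul (b b' : B) : q₁ * q₂ ∣ quad τ κ Φ₁ T₁ r₁ Φ₂ T₂ r₂ (b * b') -
    (quad τ κ Φ₁ T₁ r₁ Φ₂ T₂ r₂ b + quad τ κ Φ₁ T₁ r₁ Φ₂ T₂ r₂ b') := by
  have hp : ∀ {A : FreeGroup ι → Y → ℤ}, IsCoc A → ∀ b, IsCoc (pb τ b A) :=
    fun hA b => isCoc_pb hc hA b
  have c1 := h₁.coc
  have c2 := h₂.coc
  set A := pb τ b'⁻¹ Φ₁ - Φ₁ with hA
  set A' := pb τ b Φ₂ - Φ₂ with hA'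
  have cA : IsCoc A := (hp c1 _).sub c1
  have cA' : IsCoc A' := (hp c2 _).sub c2
  have e1 : pb τ (b * b') Φ₂ - Φ₂ = pb τ b' A' + (pb τ b' Φ₂ - Φ₂) := by
    rw [pb_mul, hA', pb_sub]
    abel
  have e2 : pair κ Φ₁ (pb τ b' A') = pair κ Φ₁ A' + pair κ A A' := by
    have h3 : pb τ b' (pb τ b'⁻¹ Φ₁) = Φ₁ := by
      rw [← pb_mul, inv_mul_cancel, pb_one]
    conv_lhs => rw [← h3]
    rw [pair_pb hc hκ hκτ (hp c1 _) cA', ← pair_add_left hκ c1 cA cA', hA]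
    congr 1
    abel
  have e3 : pair κ Φ₁ (pb τ (b * b') Φ₂ - Φ₂) = pair κ Φ₁ A' + pair κ A A' +
      pair κ Φ₁ (pb τ b' Φ₂ - Φ₂) := by
    rw [e1, pair_add_right hκ c1 (hp cA' _) ((hp c2 _).sub c2), e2]
  have hα : ∀ y, T₁ b'⁻¹ (κ • y) = T₁ b'⁻¹ y := h₁.inv _
  have k1 : q₁ * q₂ ∣ pair κ A A' - (∑ y, T₁ b'⁻¹ y * A' κ y - ∑ y, A κ y * T₂ b y) :=
    pair_modEq hκ cA cA' h₁.ne h₂.ne hα (fun g y => h₁.comp _ _ _) (fun g y => h₂.comp _ _ _)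
  have hAκ : ∀ y, A κ y = Φ₁ κ (b'⁻¹ • y) - Φ₁ κ y := by
    intro y
    simp only [hA, Pi.sub_apply, pb, hκτ]
  have hA'κ : ∀ y, A' κ y = Φ₂ κ (b • y) - Φ₂ κ y := by
    intro y
    simp only [hA', Pi.sub_apply, pb, hκτ]
  -- the second sum
  have k2 : q₁ * q₂ ∣ ∑ y, (r₂ y - Φ₂ κ y) * T₁ (b * b')⁻¹ y -
      ∑ y, (r₂ y - Φ₂ κ y) * (T₁ b'⁻¹ (b⁻¹ • y) + T₁ b⁻¹ y) :=
    dvd_sum_mul_sub h₂.rval fun y => by rw [mul_inv_rev]; exact h₁.mul _ _ _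
  have k2' : ∑ y, (r₂ y - Φ₂ κ y) * (T₁ b'⁻¹ (b⁻¹ • y) + T₁ b⁻¹ y) =
      ∑ y, (r₂ y - Φ₂ κ y) * T₁ b⁻¹ y + ∑ y, (r₂ y - Φ₂ κ y) * T₁ b'⁻¹ y -
      ∑ y, T₁ b'⁻¹ y * A' κ y := by
    have h3 : ∑ y, (r₂ y - Φ₂ κ y) * T₁ b'⁻¹ (b⁻¹ • y) =
        ∑ y, (r₂ y - Φ₂ κ (b • y)) * T₁ b'⁻¹ y := by
      rw [← Equiv.sum_comp (MulAction.toPerm b) (fun y => (r₂ y - Φ₂ κ y) * T₁ b'⁻¹ (b⁻¹ • y))]
      refine sum_congr rfl fun y _ => ?_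
      simp only [MulAction.toPerm_apply, inv_smul_smul, h₂.rinv]
    simp only [mul_add, sum_add_distrib]
    rw [h3, add_comm, add_sub_assoc]
    congr 1
    rw [← sum_sub_distrib]
    refine sum_congr rfl fun y _ => ?_
    rw [hA'κ]
    ring
  -- the first sum
  have k3 : q₁ * q₂ ∣ ∑ y, (r₁ y - Φ₁ κ y) * T₂ (b * b') y -
      ∑ y, (r₁ y - Φ₁ κ y) * (T₂ b (b' • y) + T₂ b' y) := by
    rw [mul_comm q₁]
    exact dvd_sum_mul_sub h₁.rval fun y => h₂.mul _ _ _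
  have k3' : ∑ y, (r₁ y - Φ₁ κ y) * (T₂ b (b' • y) + T₂ b' y) =
      ∑ y, (r₁ y - Φ₁ κ y) * T₂ b' y + ∑ y, (r₁ y - Φ₁ κ y) * T₂ b y -
      ∑ y, A κ y * T₂ b y := by
    have h3 : ∑ y, (r₁ y - Φ₁ κ y) * T₂ b (b' • y) =
        ∑ y, (r₁ y - Φ₁ κ (b'⁻¹ • y)) * T₂ b y := by
      rw [← Equiv.sum_comp (MulAction.toPerm b') (fun y => (r₁ y - Φ₁ κ (b'⁻¹ • y)) * T₂ b y)]
      refine sum_congr rfl fun y _ => ?_
      simp only [MulAction.toPerm_apply, inv_smul_smul, h₁.rinv]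
    simp only [mul_add, sum_add_distrib]
    rw [h3, add_comm, add_sub_assoc]
    congr 1
    rw [← sum_sub_distrib]
    refine sum_congr rfl fun y _ => ?_
    rw [hAκ]
    ring
  obtain ⟨c1, d1⟩ := k1
  obtain ⟨c2, d2⟩ := k2
  obtain ⟨c3, d3⟩ := k3
  refine ⟨c1 + c2 - c3, ?_⟩
  unfold quad
  rw [e3, ← hA']
  linear_combination d1 + d2 + k2' - d3 - k3'

/-- The value of the quadratic transfer at an element acting as `κ`. -/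
theorem quad_central {z : B} (hz : ∀ g, τ z g = κ * g * κ⁻¹) (hzy : ∀ y : Y, z • y = κ • y)
    {a₁ a₂ : ℤ} (ha₁ : ∀ y, q₁ ∣ T₁ z y - (r₁ y + a₁)) (ha₂ : ∀ y, q₂ ∣ T₂ z y - (r₂ y + a₂)) :
    q₁ * q₂ ∣ quad τ κ Φ₁ T₁ r₁ Φ₂ T₂ r₂ z -
      (a₁ * a₂ * Fintype.card Y - ∑ y, (r₁ y + a₁) * (r₂ y + a₂)) := by
  have c1 := h₁.coc
  have c2 := h₂.coc
  have e1 : pb τ z Φ₂ - Φ₂ = cob (fun y => Φ₂ κ y) := by
    funext g y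
    simp only [Pi.sub_apply, pb, cob, hz, hzy]
    have h3 := c2 (κ * g * κ⁻¹) κ y
    rw [inv_mul_cancel_right, c2] at h3
    linarith
  have e2 : pair κ Φ₁ (pb τ z Φ₂ - Φ₂) = -∑ y, Φ₁ κ y * Φ₂ κ y := by
    rw [e1, pair_cob_right hκ c1]
  have s1 := c1.sum_comm hκ
  have s2 := c2.sum_comm hκ
  have hr1 : ∀ y, r₁ (z⁻¹ • y) = r₁ y := fun y => h₁.rinv _ _
  -- `T₁ z⁻¹`
  have hz1 : ∀ y, q₁ ∣ T₁ z⁻¹ y - (-(r₁ y + a₁)) := by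
    intro y
    have h4 : q₁ ∣ T₁ 1 y := by
      have := h₁.mul 1 1 y
      rw [one_mul, one_smul] at this
      have h5 : T₁ 1 y - (T₁ 1 y + T₁ 1 y) = -T₁ 1 y := by ring
      rw [h5] at this
      exact (dvd_neg).1 this
    have h5 := h₁.mul z z⁻¹ y
    rw [mul_inv_cancel] at h5
    have h6 := ha₁ (z⁻¹ • y)
    rw [hr1] at h6
    obtain ⟨x4, h4⟩ := h4
    obtain ⟨x5, h5⟩ := h5
    obtain ⟨x6, h6⟩ := h6
    exact ⟨x4 - x5 - x6, by linear_combination h4 - h5 - h6⟩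
  have k2 : q₁ * q₂ ∣ ∑ y, (r₂ y - Φ₂ κ y) * T₁ z⁻¹ y - ∑ y, (r₂ y - Φ₂ κ y) * (-(r₁ y + a₁)) :=
    dvd_sum_mul_sub h₂.rval hz1
  have k3 : q₁ * q₂ ∣ ∑ y, (r₁ y - Φ₁ κ y) * T₂ z y - ∑ y, (r₁ y - Φ₁ κ y) * (r₂ y + a₂) := by
    rw [mul_comm q₁]
    exact dvd_sum_mul_sub h₁.rval ha₂
  have k4 : q₁ * q₂ ∣ ∑ y, (r₁ y - Φ₁ κ y) * (r₂ y - Φ₂ κ y) :=
    dvd_sum fun y _ => mul_dvd_mul (h₁.rval y) (h₂.rval y)
  have k5 : (-∑ y, Φ₁ κ y * Φ₂ κ y) + ∑ y, (r₂ y - Φ₂ κ y) * (-(r₁ y + a₁))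
      - ∑ y, (r₁ y - Φ₁ κ y) * (r₂ y + a₂) =
      (a₁ * a₂ * Fintype.card Y - ∑ y, (r₁ y + a₁) * (r₂ y + a₂))
      - ∑ y, (r₁ y - Φ₁ κ y) * (r₂ y - Φ₂ κ y) + a₁ * ∑ y, Φ₂ κ y + a₂ * ∑ y, Φ₁ κ y := by
    have hcard : a₁ * a₂ * (Fintype.card Y : ℤ) = ∑ _y : Y, a₁ * a₂ := by
      rw [sum_const, card_univ, nsmul_eq_mul]
      ring
    rw [hcard]
    simp only [mul_sum, ← sum_sub_distrib, ← sum_add_distrib, ← sum_neg_distrib]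
    refine sum_congr rfl fun y _ => ?_
    ring
  rw [s1, s2, mul_zero, mul_zero, add_zero, add_zero] at k5
  obtain ⟨x2, d2⟩ := k2
  obtain ⟨x3, d3⟩ := k3
  obtain ⟨x4, d4⟩ := k4
  refine ⟨x2 - x3 - x4, ?_⟩
  unfold quad
  rw [e2]
  linear_combination d2 - d3 + k5 - d4

omit hκτ in
/-- The vanishing of the quadratic transfer at an element with good local structure. -/
theorem quad_good {s : B} (hs : τ s κ = κ) {K : FreeGroup ι → Y → ℤ} {θ μ : Y → ℤ}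
    (hK : pb τ s K = K) (hΦ : Φ₂ = K - cob θ)
    (hT₂ : ∀ y, q₂ ∣ T₂ s y + (θ (s • y) - θ y))
    (hμ : ∀ y, μ (κ • y) = μ y) (hT₁ : ∀ y, q₁ ∣ T₁ s⁻¹ y - (μ (s⁻¹ • y) - μ y)) :
    q₁ * q₂ ∣ quad τ κ Φ₁ T₁ r₁ Φ₂ T₂ r₂ s := by
  have c1 := h₁.coc
  set β : Y → ℤ := fun y => θ (s • y) - θ y with hβ
  have hcβ : IsCoc (cob β : FreeGroup ι → Y → ℤ) := isCoc_cob β
  have e1 : pb τ s Φ₂ - Φ₂ = (-1 : ℤ) • cob β := by
    have h3 : pb τ s (cob θ) - cob θ = cob β := by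
      funext g y
      simp only [Pi.sub_apply, pb, cob, hβ, ← hc]
      ring
    rw [hΦ, pb_sub, hK, ← h3]
    funext g y
    simp only [Pi.sub_apply, Pi.smul_apply, smul_eq_mul]
    ring
  have e2 : pair κ Φ₁ (pb τ s Φ₂ - Φ₂) = ∑ y, Φ₁ κ y * β y := by
    rw [e1, pair_smul_right hκ c1 hcβ, pair_cob_right hκ c1]
    ring
  have k2 : q₁ * q₂ ∣ ∑ y, (r₂ y - Φ₂ κ y) * T₁ s⁻¹ y -
      ∑ y, (r₂ y - Φ₂ κ y) * (μ (s⁻¹ • y) - μ y) := dvd_sum_mul_sub h₂.rval hT₁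
  have k3 : q₁ * q₂ ∣ ∑ y, (r₁ y - Φ₁ κ y) * T₂ s y - ∑ y, (r₁ y - Φ₁ κ y) * (-β y) := by
    rw [mul_comm q₁]
    refine dvd_sum_mul_sub h₁.rval fun y => ?_
    have := hT₂ y
    rwa [sub_neg_eq_add]
  have s1 : ∑ y, r₁ y * β y = 0 := by
    have h3 : ∑ y, r₁ y * θ (s • y) = ∑ y, r₁ y * θ y := by
      rw [← Equiv.sum_comp (MulAction.toPerm s) (fun y => r₁ y * θ y)]
      refine sum_congr rfl fun y _ => ?_
      simp only [MulAction.toPerm_apply, h₁.rinv]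
    simp only [hβ, mul_sub, sum_sub_distrib, h3, sub_self]
  -- the remaining sum
  set w : Y → ℤ := fun y => r₂ y - K κ y with hw
  have hws : ∀ y, w (s • y) = w y := by
    intro y
    have h3 : K κ (s • y) = K κ y := by
      have := congrFun (congrFun hK κ) y
      simpa [pb, hs] using this
    simp only [hw, h₂.rinv, h3]
  have hws' : ∀ y, w (s⁻¹ • y) = w y := by
    intro y
    have := hws (s⁻¹ • y)
    rw [smul_inv_smul] at this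
    exact this.symm
  have s2 : ∑ y, (r₂ y - Φ₂ κ y) * (μ (s⁻¹ • y) - μ y) = 0 := by
    have h3 : ∀ y, r₂ y - Φ₂ κ y = w y + (θ (κ • y) - θ y) := by
      intro y
      simp only [hΦ, Pi.sub_apply, cob, hw]
      ring
    have h4 : ∑ y, w y * (μ (s⁻¹ • y) - μ y) = 0 := by
      have h5 : ∑ y, w y * μ (s⁻¹ • y) = ∑ y, w y * μ y := by
        rw [← Equiv.sum_comp (MulAction.toPerm s⁻¹) (fun y => w y * μ y)]
        refine sum_congr rfl fun y _ => ?_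
        simp only [MulAction.toPerm_apply, hws']
      simp only [mul_sub, sum_sub_distrib, h5, sub_self]
    have hμ' : ∀ y, μ (s⁻¹ • (κ • y)) = μ (s⁻¹ • y) := by
      intro y
      have h6 := hc s κ (s⁻¹ • y)
      rw [hs, smul_inv_smul] at h6
      rw [← h6, inv_smul_smul, hμ]
    have h5 : ∑ y, (θ (κ • y) - θ y) * (μ (s⁻¹ • y) - μ y) = 0 := by
      have h7 : ∑ y, θ (κ • y) * (μ (s⁻¹ • y) - μ y) = ∑ y, θ y * (μ (s⁻¹ • y) - μ y) := by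
        rw [← Equiv.sum_comp (MulAction.toPerm κ) (fun y => θ y * (μ (s⁻¹ • y) - μ y))]
        refine sum_congr rfl fun y _ => ?_
        simp only [MulAction.toPerm_apply, hμ, hμ']
      simp only [sub_mul, sum_sub_distrib, h7, sub_self]
    simp only [h3, add_mul, sum_add_distrib, h4, h5, add_zero]
  obtain ⟨x2, d2⟩ := k2
  obtain ⟨x3, d3⟩ := k3
  refine ⟨x2 - x3, ?_⟩
  have s3 : ∑ y, (r₁ y - Φ₁ κ y) * (-β y) = ∑ y, Φ₁ κ y * β y - ∑ y, r₁ y * β y := by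
    rw [← sum_sub_distrib]
    refine sum_congr rfl fun y _ => ?_
    ring
  unfold quad
  rw [e2]
  rw [s2] at d2
  rw [s3, s1] at d3
  linear_combination d2 - d3

end P179N
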