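import Vale.Agent.P179.R2.H843.Clf4
import Vale.Agent.P179.R2.H854.EqD

/-!
# The functions on the cosets of a normal subgroup as a monomial module
-/

namespace P179H843

open P179C hiding lin lin_mul_single

open P179H524 P179A P179R P179H872 Finset MonoidAlgebra

universe u

section general

variable {k : Type u} [Field k] {Γ : Type} [Group Γ] [Fintype Γ] {N : Subgroup Γ} [hN : N.Normal]
  {c : MonoidAlgebra k N}

omit [Fintype Γ] in
theorem conj_coset {g g' y : Γ} (hg : (g' : Γ ⧸ N) = ((y * g * y⁻¹ : Γ) : Γ ⧸ N)) (h : Γ) :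
    g⁻¹ * (y⁻¹ * h * y) ∈ N ↔ g'⁻¹ * h ∈ N := by
  have h1 : g'⁻¹ * (y * g * y⁻¹) ∈ N := QuotientGroup.eq.1 hg
  have h2 : g'⁻¹ * h = (g'⁻¹ * (y * g * y⁻¹)) * (y * (g⁻¹ * (y⁻¹ * h * y)) * y⁻¹) := by group
  rw [h2, mul_mem_cancel_left h1]
  constructor
  · intro h3
    exact hN.conj_mem _ h3 y
  · intro h3
    have h4 := hN.conj_mem _ h3 y⁻¹
    have h5 : y⁻¹ * (y * (g⁻¹ * (y⁻¹ * h * y)) * y⁻¹) * y⁻¹⁻¹ = g⁻¹ * (y⁻¹ * h * y) := by group
    rwa [h5] at h4

/-- conjugation maps the functions on a coset to the functions on the conjugate coset -/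
theorem cjF_LX' {p : ℕ} [hp : Fact p.Prime] (hc : ∀ g : Γ, cjA g c = c) {g g' : Γ} (y : Γ)
    (hg : (g' : Γ ⧸ N) = ((y * g * y⁻¹ : Γ) : Γ ⧸ N)) {ψ : Γ → k} (hψ : ψ ∈ LX p c g) :
    cjF y ψ ∈ LX p c g' := by
  refine ⟨fun h hh => hψ.1 _ fun h1 => hh ((conj_coset hg h).1 h1), fun m hm h => ?_,
    fun h => ?_, fun z => ?_⟩
  · have h1 := hψ.2.1 _ (hN.conj_mem m hm y⁻¹) (y⁻¹ * h * y)
    unfold cjF
    rw [← h1]
    congr 1
    group
  · have h1 := hψ.2.2.1 (y⁻¹ * h * y)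
    unfold cjF
    rw [← h1]
    congr 1
    have h2 := Q7.map_pr p (MulAut.conj y⁻¹).toMonoidHom h (C2.ord_ne h)
    have h3 : ∀ z : Γ, (MulAut.conj y⁻¹).toMonoidHom z = y⁻¹ * z * y := by
      intro z
      simp
    rw [h3, h3] at h2
    exact h2
  · have := Fintype.ofFinite N
    have h1 := hψ.2.2.2 (y⁻¹ * z * y)
    have h2 : ∀ w : Γ, ∑ g : Γ, (inc N c).coeff g * ψ (g * w) = lin ψ (inc N c * single w 1) := by
      intro w
      rw [lin_mul_single]
    have h3 : ∑ g : Γ, (inc N c).coeff g * cjF y ψ (g * z) =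
        lin (cjF y ψ) (inc N c * single z 1) := by
      rw [lin_mul_single]
    rw [h3, lin_cjF]
    rw [h2] at h1
    change _ = ψ (y⁻¹ * z * y)
    rw [← h1]
    congr 1
    have h4 : inc N c = single y⁻¹ 1 * inc N c * single y 1 := by
      have h5 := inc_cjA y⁻¹ c
      rw [hc, inv_inv] at h5
      exact h5
    conv_rhs => rw [h4]
    simp only [mul_assoc, single_mul_single, mul_one]
    congr 3
    group

theorem cjF_LK' {p : ℕ} [hp : Fact p.Prime] (hc : ∀ g : Γ, cjA g c = c) {g g' : Γ} (y : Γ)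
    (hg : (g' : Γ ⧸ N) = ((y * g * y⁻¹ : Γ) : Γ ⧸ N)) {K : XK c} {ψ : Γ → k}
    (hψ : ψ ∈ LK p c g K.1) : cjF y ψ ∈ LK p c g' (smX hc y K).1 := by
  refine ⟨cjF_LX' hc y hg hψ.1, fun x hx => ?_⟩
  rw [mem_smX] at hx
  have hm : g⁻¹ * (y⁻¹ * g' * y) ∈ N := (conj_coset hg g').2 (by
    rw [inv_mul_cancel]
    exact one_mem N)
  have h2 : y⁻¹ * g' * y = g * (⟨_, hm⟩ : N) := by
    change _ = g * (g⁻¹ * (y⁻¹ * g' * y))
    group
  rw [cf_cjF, h2, cf_mul_right]
  apply hψ.2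
  obtain ⟨n, hn, A, hA, hA1, hK⟩ := K.2
  rw [hK] at hx ⊢
  have h3 : A (cjA y⁻¹ x) = 0 := hx
  change A _ = 0
  rw [map_mul, h3, mul_zero]

/-- **a basis of the functions on a coset** indexed by the stable simple modules -/
theorem exists_basis_LX (p : ℕ) [hp : Fact p.Prime] [IsAlgClosed k] [CharP k p]
    (hidx : ¬ p ∣ N.index) (hc : ∀ g : Γ, cjA g c = c)
    (hcc : c ∈ Subalgebra.center k (MonoidAlgebra k N)) (hc2 : c * c = c) (g : Γ) :
    ∃ b : Module.Basis {K : XK c // smX hc g K = K} k (LX p c g),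
      ∀ K, (b K : Γ → k) ∈ LK p c g K.1.1 := by
  classical
  have := finite_XK hcc hc2
  have := Fintype.ofFinite (XK c)
  have hex : ∀ K : {K : XK c // smX hc g K = K}, ∃ ψ ∈ LK p c g K.1.1, ψ ≠ 0 := fun K =>
    LK_ex p hidx hc K.2
  choose t ht1 ht2 using hex
  let v : {K : XK c // smX hc g K = K} → LX p c g := fun K => ⟨t K, (ht1 K).1⟩
  have hli : LinearIndependent k v := by
    rw [Fintype.linearIndependent_iff]
    intro φ hφ K0
    have h1 : ∑ K : {K : XK c // smX hc g K = K}, φ K • t K = 0 := by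
      have h2 := congrArg (LX p c g).subtype hφ
      rw [map_sum, map_zero] at h2
      exact h2
    let w : XK c → Γ → k := fun K => if h : smX hc g K = K then φ ⟨K, h⟩ • t ⟨K, h⟩ else 0
    have hw : ∀ K, w K ∈ LK p c g K.1 := by
      intro K
      by_cases h : smX hc g K = K
      · have h2 : w K = φ ⟨K, h⟩ • t ⟨K, h⟩ := dif_pos h
        rw [h2]
        exact Submodule.smul_mem _ _ (ht1 ⟨K, h⟩)
      · have h2 : w K = 0 := dif_neg h
        rw [h2]
        exact zero_mem _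
    have h0 : ∑ K, w K = 0 := by
      rw [← Finset.sum_filter_of_ne (p := fun K => smX hc g K = K)
        (fun K _ hK => by_contra fun h => hK (dif_neg h)),
        Finset.sum_subtype (p := fun K => smX hc g K = K) _ fun x => by simp]
      exact Eq.trans (Finset.sum_congr rfl fun K _ => dif_pos K.2) h1
    have h2 := XK_indep hcc hc2 hw h0 K0.1
    have h3 : w K0.1 = φ K0 • t K0 := dif_pos K0.2
    rw [h3] at h2
    exact (smul_eq_zero.1 h2).resolve_right (ht2 K0)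
  have hsp : ⊤ ≤ Submodule.span k (Set.range v) := by
    rintro ⟨ψ, hψ⟩ -
    obtain ⟨w, hw, hsum⟩ := XK_dec hcc hc2 p hidx hψ
    have hκ : ∀ K : {K : XK c // smX hc g K = K}, ∃ κ : k, w K.1 = κ • t K := fun K =>
      LK_line' (ht1 K) (ht2 K) (hw K.1)
    choose κ hκ using hκ
    have h1 : (⟨ψ, hψ⟩ : LX p c g) = ∑ K : {K : XK c // smX hc g K = K}, κ K • v K := by
      apply Subtype.ext
      have h2 : ((∑ K : {K : XK c // smX hc g K = K}, κ K • v K : LX p c g) : Γ → k) =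
          ∑ K : {K : XK c // smX hc g K = K}, κ K • t K := by
        change (LX p c g).subtype _ = _
        rw [map_sum]
        rfl
      rw [h2]
      change ψ = _
      rw [hsum, ← Finset.sum_filter_of_ne (p := fun K => smX hc g K = K)
        (fun K _ hK => LK_stable hc (hw K) hK),
        Finset.sum_subtype (p := fun K => smX hc g K = K) _ fun x => by simp]
      exact Finset.sum_congr rfl fun K _ => hκ K
    rw [h1]
    exact Submodule.sum_mem _ fun K _ => Submodule.smul_mem _ _ (Submodule.subset_span ⟨K, rfl⟩)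
  refine ⟨Module.Basis.mk hli hsp, fun K => ?_⟩
  rw [Module.Basis.mk_apply]
  exact ht1 K

/-- the set indexing the basis of the functions on the group -/
abbrev YK (hc : ∀ g : Γ, cjA g c = c) (r : Γ ⧸ N → Γ) : Type u :=
  Σ a : Γ ⧸ N, {K : XK c // smX hc (r a) K = K}

omit [Fintype Γ] in
theorem YK_ext {hc : ∀ g : Γ, cjA g c = c} {r : Γ ⧸ N → Γ} {a b : Γ ⧸ N} (h : a = b)
    {K : {K : XK c // smX hc (r a) K = K}} {K' : {K : XK c // smX hc (r b) K = K}}
    (hK : K.1 = K'.1) : (⟨a, K⟩ : YK hc r) = ⟨b, K'⟩ := by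
  subst h
  rw [Subtype.ext hK]

theorem smX_conj_fix (hc : ∀ g : Γ, cjA g c = c) {g g' y : Γ}
    (hg : (g' : Γ ⧸ N) = ((y * g * y⁻¹ : Γ) : Γ ⧸ N)) {K : XK c} (hK : smX hc g K = K) :
    smX hc g' (smX hc y K) = smX hc y K := by
  rw [smX_eq_of_coset hc hg, ← smX_mul]
  have h1 : y * g * y⁻¹ * y = y * g := by group
  rw [h1, smX_mul, hK]

/-- the action of the quotient on the index set -/
@[reducible] noncomputable def actY (hc : ∀ g : Γ, cjA g c = c) (r : Γ ⧸ N → Γ)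
    (hr : ∀ a, (r a : Γ ⧸ N) = a) : MulAction (Γ ⧸ N) (YK hc r) where
  smul g y := ⟨g * y.1 * g⁻¹, ⟨smX hc (r g) y.2.1, smX_conj_fix hc (by
    rw [QuotientGroup.mk_mul, QuotientGroup.mk_mul, QuotientGroup.mk_inv, hr, hr, hr]) y.2.2⟩⟩
  one_smul := by
    rintro ⟨a, K⟩
    refine YK_ext (by group) ?_
    change smX hc (r 1) K.1 = K.1
    rw [smX_eq_of_coset hc (h := 1) (by rw [hr]; rfl), smX_one]
  mul_smul := by
    rintro g h ⟨a, K⟩
    refine YK_ext (show g * h * a * (g * h)⁻¹ = g * (h * a * h⁻¹) * g⁻¹ by group) ?_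
    change smX hc (r (g * h)) K.1 = smX hc (r g) (smX hc (r h) K.1)
    rw [← smX_mul, smX_eq_of_coset hc (h := r g * r h)]
    rw [QuotientGroup.mk_mul, hr, hr, hr]

end general

end P179H843
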