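import Vale.Agent.P179.R2.H843.Sm1
import Vale.Agent.P179.R2.H12.Half

/-!
# The number of simple modules as a sum of lifted traces over commuting pairs
-/

namespace P179H843

open P179C hiding lin lin_mul_single

open P179H524 P179A P179P P179Y P179R P179H12 P179H872 Finset MonoidAlgebra

open P179H854 (LG mem_LG bt trL dg Lift Mono)

universe u

section bridge

open scoped Classical

variable {k : Type u} [Field k] {G : Type} [Group G] [Fintype G] {N : Subgroup G} [hN : N.Normal]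

theorem LG_eq_LX (p : ℕ) [hp : Fact p.Prime] (hidx : ¬ p ∣ N.index) {e : G → k}
    (heN : ∀ x, x ∉ N → e x = 0) (g : G) :
    LG p N e g = LX p (mkF fun x : N => e x) g := by
  have hinc : inc N (mkF fun x : N => e x) = mkF e := inc_mkF N e heN
  have hsum : ∀ (ψ : G → k) (y : G), ∑ h : G, (inc N (mkF fun x : N => e x)).coeff h * ψ (h * y) =
      ∑ h : G, e h * ψ (h * y) := by
    intro ψ y
    rw [hinc]
    exact Finset.sum_congr rfl fun h _ => by rw [coeff_mkF]
  ext ψ
  constructor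
  · rintro ⟨h1, h2, h3, h4⟩
    refine ⟨h1, h2, fun h => ?_, fun y => ?_⟩
    · by_cases hh : g⁻¹ * h ∈ N
      · exact h3 h hh
      · rw [h1 h hh, h1]
        intro h5
        apply hh
        rw [← QuotientGroup.eq] at h5 ⊢
        rw [h5]
        exact pr_coset p hidx h
    · rw [hsum]
      exact h4 y
  · rintro ⟨h1, h2, h3, h4⟩
    refine ⟨h1, h2, fun h _ => h3 h, fun y => ?_⟩
    rw [← hsum]
    exact h4 y

/-- the `N`-invariant functions on the group, depending on the regular parts and fixed by `e` -/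
noncomputable def WN (p : ℕ) (N : Subgroup G) (e : G → k) : Submodule k (G → k) where
  carrier := {ψ | (∀ m ∈ N, ∀ h, ψ (m * h * m⁻¹) = ψ h) ∧ (∀ h, ψ (pr p h) = ψ h) ∧
    ∀ y, ∑ h : G, e h * ψ (h * y) = ψ y}
  add_mem' := by
    rintro a b ⟨ha', ha'', ha'''⟩ ⟨hb', hb'', hb'''⟩
    refine ⟨fun m hm g => ?_, fun x => ?_, fun y => ?_⟩
    · simp only [Pi.add_apply, ha' m hm, hb' m hm]
    · simp only [Pi.add_apply, ha'' x, hb'' x]
    · simp only [Pi.add_apply, mul_add, Finset.sum_add_distrib]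
      rw [ha''', hb''']
  zero_mem' := ⟨fun _ _ _ => rfl, fun _ => rfl, fun y => by simp⟩
  smul_mem' := by
    rintro t a ⟨ha', ha'', ha'''⟩
    refine ⟨fun m hm g => ?_, fun x => ?_, fun y => ?_⟩
    · simp only [Pi.smul_apply, ha' m hm]
    · simp only [Pi.smul_apply, ha'' x]
    · simp only [Pi.smul_apply, smul_eq_mul]
      conv_rhs => rw [← ha''' y, Finset.mul_sum]
      exact Finset.sum_congr rfl fun g _ => by ring

theorem cjF_WN (p : ℕ) [hp : Fact p.Prime] {e : G → k} (hcf : IsCF e) (y : G) {ψ : G → k}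
    (hψ : ψ ∈ WN p N e) : cjF y ψ ∈ WN p N e := by
  refine ⟨fun m hm h => ?_, fun h => ?_, fun z => ?_⟩
  · have h1 := hψ.1 _ (hN.conj_mem m hm y⁻¹) (y⁻¹ * h * y)
    unfold cjF
    rw [← h1]
    congr 1
    group
  · have h1 := hψ.2.1 (y⁻¹ * h * y)
    unfold cjF
    rw [← h1]
    congr 1
    have h2 := Q7.map_pr p (MulAut.conj y⁻¹).toMonoidHom h (C2.ord_ne h)
    have h3 : ∀ z : G, (MulAut.conj y⁻¹).toMonoidHom z = y⁻¹ * z * y := by
      intro z
      simp
    rw [h3, h3] at h2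
    exact h2
  · have h1 := hψ.2.2 (y⁻¹ * z * y)
    change _ = ψ (y⁻¹ * z * y)
    rw [← h1]
    refine Fintype.sum_equiv (MulAut.conj y⁻¹).toEquiv _ _ fun h => ?_
    have h3 : (MulAut.conj y⁻¹).toEquiv h = y⁻¹ * h * y := by
      change (MulAut.conj y⁻¹) h = _
      simp
    rw [h3]
    have h4 : e (y⁻¹ * h * y) = e h := by
      have h5 := hcf y⁻¹ h
      rwa [inv_inv] at h5
    rw [h4]
    change e h * ψ (y⁻¹ * (h * z) * y) = _
    congr 2
    group

omit hN in
theorem cjF_of_mem {p : ℕ} {e : G → k} {m : G} (hm : m ∈ N) {ψ : G → k} (hψ : ψ ∈ WN p N e) :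
    cjF m ψ = ψ := by
  funext h
  have h1 := hψ.1 m⁻¹ (inv_mem hm) h
  rw [inv_inv] at h1
  exact h1

omit hN in
theorem cjF_of_coset {p : ℕ} {e : G → k} {a b : G} (hab : (a : G ⧸ N) = b) {ψ : G → k} (hψ : ψ ∈ WN p N e) : cjF a ψ = cjF b ψ := by
  have h1 : b = a * (a⁻¹ * b) := by group
  rw [h1, cjF_mul, cjF_of_mem (QuotientGroup.eq.1 hab) hψ]

/-- the representation of the quotient -/
noncomputable def tauN (p : ℕ) [hp : Fact p.Prime] {e : G → k} (hcf : IsCF e)
    (r : G ⧸ N → G) (hr : ∀ a, (r a : G ⧸ N) = a) : Representation k (G ⧸ N) (WN p N e) where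
  toFun a :=
    { toFun := fun ψ => ⟨cjF (r a) ψ.1, cjF_WN p hcf (r a) ψ.2⟩
      map_add' := fun _ _ => rfl
      map_smul' := fun _ _ => rfl }
  map_one' := by
    ext ψ : 1
    apply Subtype.ext
    change cjF (r 1) ψ.1 = ψ.1
    rw [cjF_of_coset (N := N) (b := 1) (by rw [hr]; rfl) ψ.2, cjF_one]
  map_mul' := fun a b => by
    ext ψ : 1
    apply Subtype.ext
    change cjF (r (a * b)) ψ.1 = cjF (r a) (cjF (r b) ψ.1)
    rw [← cjF_mul, cjF_of_coset (N := N) (b := r a * r b) (by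
      rw [QuotientGroup.mk_mul, hr, hr, hr]) ψ.2]

theorem tauN_apply (p : ℕ) [hp : Fact p.Prime] {e : G → k} (hcf : IsCF e)
    (r : G ⧸ N → G) (hr : ∀ a, (r a : G ⧸ N) = a) (a : G ⧸ N) (ψ : WN p N e) :
    (tauN p hcf r hr a ψ : G → k) = cjF (r a) ψ := rfl

theorem finrank_inv_tauN (p : ℕ) [hp : Fact p.Prime] {e : G → k} (hcf : IsCF e)
    (r : G ⧸ N → G) (hr : ∀ a, (r a : G ⧸ N) = a) :
    Module.finrank k (tauN p hcf r hr).invariants = Module.finrank k (FB p (mkF e)) := by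
  have hsum : ∀ (ψ : G → k) (y : G), ∑ h : G, (mkF e).coeff h * ψ (h * y) =
      ∑ h : G, e h * ψ (h * y) := by
    intro ψ y
    exact Finset.sum_congr rfl fun h _ => by rw [coeff_mkF]
  refine LinearEquiv.finrank_eq
    { toFun := fun ψ => ⟨ψ.1.1, fun g x => ?_, ψ.1.2.2.1, fun y => ?_⟩
      invFun := fun ψ => ⟨⟨ψ.1, fun m _ h => ψ.2.1 m h, ψ.2.2.1, fun y => ?_⟩, fun a => ?_⟩
      left_inv := fun φ => rfl
      right_inv := fun φ => rfl
      map_add' := fun φ φ' => rfl
      map_smul' := fun t φ => rfl }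
  · have h1 := congrArg Subtype.val (ψ.2 ((g⁻¹ : G) : G ⧸ N))
    rw [tauN_apply, cjF_of_coset (N := N) (b := g⁻¹) (hr _) ψ.1.2] at h1
    have h2 := congrFun h1 x
    unfold cjF at h2
    rwa [inv_inv] at h2
  · rw [hsum]
    exact ψ.1.2.2.2 y
  · rw [← hsum]
    exact ψ.2.2.2 y
  · apply Subtype.ext
    funext h
    have h1 := ψ.2.1 (r a)⁻¹ h
    rw [inv_inv] at h1
    exact h1

/-- **the decomposition over the cosets** -/
noncomputable def EW (p : ℕ) [hp : Fact p.Prime] (hidx : ¬ p ∣ N.index) {e : G → k}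
    (heN : ∀ x, x ∉ N → e x = 0) (r : G ⧸ N → G) (hr : ∀ a, (r a : G ⧸ N) = a) :
    WN p N e ≃ₗ[k] Π a : G ⧸ N, LX p (mkF fun x : N => e x) (r a) := by
  have hrN : ∀ (a : G ⧸ N) (h : G), (r a)⁻¹ * h ∈ N ↔ (h : G ⧸ N) = a := by
    intro a h
    rw [← QuotientGroup.eq, hr, eq_comm]
  have hcj : ∀ m ∈ N, ∀ h : G, ((m * h * m⁻¹ : G) : G ⧸ N) = h := by
    intro m hm h
    rw [QuotientGroup.mk_mul, QuotientGroup.mk_mul, QuotientGroup.mk_inv,
      (QuotientGroup.eq_one_iff m).2 hm, one_mul, inv_one, mul_one]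
  have hmul : ∀ m ∈ N, ∀ h : G, ((m * h : G) : G ⧸ N) = h := by
    intro m hm h
    rw [QuotientGroup.mk_mul, (QuotientGroup.eq_one_iff m).2 hm, one_mul]
  have hmem : ∀ ψ ∈ WN p N e, ∀ a : G ⧸ N,
      (fun h : G => if (h : G ⧸ N) = a then ψ h else 0) ∈ LX p (mkF fun x : N => e x) (r a) := by
    intro ψ hψ a
    rw [← LG_eq_LX p hidx heN]
    refine ⟨fun h hh => if_neg fun h' => hh ((hrN a h).2 h'), fun m hm h => ?_, fun h _ => ?_,
      fun y => ?_⟩
    · dsimp only
      rw [hcj m hm, hψ.1 m hm]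
    · dsimp only
      rw [pr_coset p hidx, hψ.2.1]
    · dsimp only
      by_cases hy : (y : G ⧸ N) = a
      · rw [if_pos hy, ← hψ.2.2 y]
        refine Finset.sum_congr rfl fun h _ => ?_
        by_cases hh : h ∈ N
        · rw [hmul h hh, if_pos hy]
        · rw [heN h hh, zero_mul, zero_mul]
      · rw [if_neg hy]
        refine Finset.sum_eq_zero fun h _ => ?_
        by_cases hh : h ∈ N
        · rw [hmul h hh, if_neg hy, mul_zero]
        · rw [heN h hh, zero_mul]
  have hval : ∀ (φ : Π a : G ⧸ N, LX p (mkF fun x : N => e x) (r a)) (a b : G ⧸ N), a = b →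
      ∀ h : G, (φ a).1 h = (φ b).1 h := by
    rintro φ a _ rfl h
    rfl
  have hback : ∀ φ : (Π a : G ⧸ N, LX p (mkF fun x : N => e x) (r a)),
      (fun h : G => (φ (h : G ⧸ N)).1 h) ∈ WN p N e := by
    intro φ
    refine ⟨fun m hm h => ?_, fun h => ?_, fun y => ?_⟩
    · dsimp only
      rw [hval φ _ _ (hcj m hm h), (φ _).2.2.1 m hm]
    · dsimp only
      rw [hval φ _ _ (pr_coset p hidx h), (φ _).2.2.2.1 h]
    · dsimp only
      have h1 := (le_of_eq (LG_eq_LX p hidx heN (r (y : G ⧸ N))).symm) (φ (y : G ⧸ N)).2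
      rw [← h1.2.2.2 y]
      refine Finset.sum_congr rfl fun h _ => ?_
      by_cases hh : h ∈ N
      · rw [hval φ _ _ (hmul h hh y)]
      · rw [heN h hh, zero_mul, zero_mul]
  exact
    { toFun := fun ψ a => ⟨fun h : G => if (h : G ⧸ N) = a then ψ.1 h else 0, hmem ψ.1 ψ.2 a⟩
      invFun := fun φ => ⟨fun h : G => (φ (h : G ⧸ N)).1 h, hback φ⟩
      left_inv := fun ψ => by
        apply Subtype.ext
        funext h
        exact if_pos rfl
      right_inv := fun φ => by
        funext a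
        apply Subtype.ext
        funext h
        change (if (h : G ⧸ N) = a then (φ (h : G ⧸ N)).1 h else 0) = (φ a).1 h
        by_cases hh : (h : G ⧸ N) = a
        · rw [if_pos hh]
          exact hval φ _ _ hh h
        · rw [if_neg hh]
          exact ((φ a).2.1 h fun h' => hh ((hrN a h).1 h')).symm
      map_add' := fun ψ ψ' => by
        funext a
        apply Subtype.ext
        funext h
        change (if (h : G ⧸ N) = a then ψ.1 h + ψ'.1 h else 0) =
          (if (h : G ⧸ N) = a then ψ.1 h else 0) + (if (h : G ⧸ N) = a then ψ'.1 h else 0)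
        split_ifs
        · rfl
        · rw [add_zero]
      map_smul' := fun t ψ => by
        funext a
        apply Subtype.ext
        funext h
        change (if (h : G ⧸ N) = a then t * ψ.1 h else 0) =
          t * (if (h : G ⧸ N) = a then ψ.1 h else 0)
        split_ifs
        · rfl
        · rw [mul_zero] }

theorem EW_apply (p : ℕ) [hp : Fact p.Prime] (hidx : ¬ p ∣ N.index) {e : G → k}
    (heN : ∀ x, x ∉ N → e x = 0) (r : G ⧸ N → G) (hr : ∀ a, (r a : G ⧸ N) = a)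
    (ψ : WN p N e) (a : G ⧸ N) (h : G) :
    (EW p hidx heN r hr ψ a).1 h = if (h : G ⧸ N) = a then ψ.1 h else 0 := rfl

theorem EW_symm_apply (p : ℕ) [hp : Fact p.Prime] (hidx : ¬ p ∣ N.index) {e : G → k}
    (heN : ∀ x, x ∉ N → e x = 0) (r : G ⧸ N → G) (hr : ∀ a, (r a : G ⧸ N) = a)
    (φ : Π a : G ⧸ N, LX p (mkF fun x : N => e x) (r a)) (h : G) :
    ((EW p hidx heN r hr).symm φ).1 h = (φ (h : G ⧸ N)).1 h := rfl

end bridge

end P179H843
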