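import Vale.Agent.P179.R2.H843.Sm2

/-!
# The number of simple modules as a sum of lifted traces over commuting pairs
-/

namespace P179H843

open P179C hiding lin lin_mul_single

open P179H524 P179A P179P P179Y P179R P179H12 P179H872 Finset MonoidAlgebra

open P179H854 (LG mem_LG bt trL dg Lift Mono)

universe u

section main

open scoped Classical

theorem sum_core {k : Type u} [Field k] {G : Type} [Group G] [Fintype G] {N : Subgroup G}
    [hN : N.Normal] (p : ℕ) [hp : Fact p.Prime] [IsAlgClosed k] [CharP k p]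
    {L : k → ℂ} {ζ : k} (hidx : ¬ p ∣ N.index) {e : G → k} (heN : ∀ x, x ∉ N → e x = 0)
    (hcf : IsCF e) (hee : conv e e = e) (hL : Lift k N.index L) (hζ : IsPrimitiveRoot ζ N.index)
    (r : G ⧸ N → G) (hr : ∀ a, (r a : G ⧸ N) = a) :
    (N.index : ℂ) * numSimpleIn (mkF e) = ∑ᶠ z : (G ⧸ N) × (G ⧸ N),
      if z.1 * z.2 = z.2 * z.1 then bt L ζ N.index (LG p N e (r z.1)) (r z.2) else 0 := by
  have hincN : inc N (mkF fun x : N => e x) = mkF e := inc_mkF N e heN
  have hcen : mkF e ∈ Subalgebra.center k (MonoidAlgebra k G) := mkF_mem hcf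
  have hB2 : mkF e * mkF e = mkF e := by rw [← mkF_conv, hee]
  have hcf' : ∀ x, x ∉ N → e x = 0 := heN
  generalize hcdef : (mkF fun x : N => e x) = c at hincN
  have hc : ∀ g : G, cjA g c = c := fun g => cjA_fix (by rw [hincN]; exact hcen) g
  have hcc : c ∈ Subalgebra.center k (MonoidAlgebra k N) := by
    rw [← hcdef]
    exact mkF_mem fun t x => hcf (t : G) (x : G)
  have hc2 : c * c = c := by
    apply inc_injective N
    rw [map_mul, hincN, hB2]
  subst hcdef
  have := finite_XK hcc hc2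
  have := Fintype.ofFinite (XK (mkF fun x : N => e x))
  choose bA hbA using fun a : G ⧸ N => exists_basis_LX p hidx hc hcc hc2 (r a)
  let E := EW p hidx heN r hr
  let b : Module.Basis (YK hc r) k (WN p N e) := (Pi.basis bA).map E.symm
  let iA : MulAction (G ⧸ N) (YK hc r) := actY hc r hr
  have hrN : ∀ (a : G ⧸ N) (h : G), (r a)⁻¹ * h ∈ N ↔ (h : G ⧸ N) = a := by
    intro a h
    rw [← QuotientGroup.eq, hr, eq_comm]
  have hbval : ∀ y : YK hc r, (b y : G → k) = bA y.1 y.2 := by
    rintro ⟨a, K⟩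
    funext h
    have h1 : (b ⟨a, K⟩).1 h = ((Pi.basis bA ⟨a, K⟩) (h : G ⧸ N)).1 h := rfl
    rw [h1, Pi.basis_apply]
    by_cases hh : (h : G ⧸ N) = a
    · subst hh
      rw [Pi.single_eq_same]
    · rw [Pi.single_eq_of_ne hh]
      exact ((bA a K).2.1 h fun h' => hh ((hrN a h).1 h')).symm
  have hbA0 : ∀ a K, (bA a K : G → k) ≠ 0 := fun a K h0 => (bA a).ne_zero K (Subtype.ext h0)
  have hne : ∀ y : YK hc r, (b y : G → k) ≠ 0 := fun y h0 => b.ne_zero y (Subtype.ext h0)
  have hrc : ∀ g a : G ⧸ N, ((r (g * a * g⁻¹) : G) : G ⧸ N) =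
      ((r g * r a * (r g)⁻¹ : G) : G ⧸ N) := by
    intro g a
    rw [QuotientGroup.mk_mul, QuotientGroup.mk_mul, QuotientGroup.mk_inv, hr, hr, hr]
  have hmono : Mono b (tauN p hcf r hr) := by
    intro g y
    have h1 : cjF (r g) (b y : G → k) ∈
        LK p (mkF fun x : N => e x) (r (g * y.1 * g⁻¹)) (smX hc (r g) y.2.1).1 := by
      rw [hbval]
      exact cjF_LK' hc (r g) (hrc g y.1) (hbA y.1 y.2)
    have h2 : (b (g • y) : G → k) ∈
        LK p (mkF fun x : N => e x) (r (g * y.1 * g⁻¹)) (smX hc (r g) y.2.1).1 := by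
      rw [hbval]
      exact hbA (g • y).1 (g • y).2
    obtain ⟨κ, hκ⟩ := LK_line' h2 (hne _) h1
    exact ⟨κ, Subtype.ext hκ⟩
  have hnk : (N.index : k) ≠ 0 := by
    intro h
    apply hidx
    rwa [CharP.cast_eq_zero_iff k p] at h
  have hburn := P179H854.card_mul_finrank_inv (A := G ⧸ N) hnk hL hmono
  rw [finrank_inv_tauN, finrank_FB p hcen hB2] at hburn
  change (N.index : ℂ) * _ = _ at hburn
  rw [hburn, finsum_eq_sum_of_fintype, Fintype.sum_prod_type, Finset.sum_comm]
  refine Finset.sum_congr rfl fun g _ => ?_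
  unfold trL
  rw [Fintype.sum_sigma]
  refine Finset.sum_congr rfl fun a _ => ?_
  dsimp only
  by_cases hcomm : a * g = g * a
  · rw [if_pos hcomm]
    have hga : g * a * g⁻¹ = a := by rw [← hcomm, mul_inv_cancel_right]
    have hra : ((r a : G) : G ⧸ N) = ((r g * r a * (r g)⁻¹ : G) : G ⧸ N) := by
      have h1 := hrc g a
      rwa [hga] at h1
    rw [LG_eq_LX p hidx heN]
    let f : LX p (mkF fun x : N => e x) (r a) →ₗ[k] LX p (mkF fun x : N => e x) (r a) :=
      { toFun := fun ψ => ⟨cjF (r g) ψ.1, cjF_LX' hc (r g) hra ψ.2⟩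
        map_add' := fun _ _ => rfl
        map_smul' := fun _ _ => rfl }
    have hf : ∀ ψ : LX p (mkF fun x : N => e x) (r a), (f ψ : G → k) = P179Y.cj (r g) ψ :=
      fun _ => rfl
    have hfpow : ∀ (i : ℕ) (ψ : LX p (mkF fun x : N => e x) (r a)),
        ((f ^ i) ψ : G → k) = cjF (r g ^ i) ψ := by
      intro i
      induction i with
      | zero =>
        intro ψ
        rw [pow_zero, pow_zero, cjF_one]
        rfl
      | succ i ih =>
        intro ψ
        rw [pow_succ', pow_succ', cjF_mul, ← ih]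
        rfl
    have hfn : f ^ N.index = 1 := by
      ext ψ : 1
      apply Subtype.ext
      rw [hfpow]
      funext h
      have h1 : (r g ^ N.index : G) ∈ N := Subgroup.pow_index_mem N (r g)
      have h2 := ψ.2.2.1 _ (inv_mem h1) h
      rw [inv_inv] at h2
      exact h2
    let σ : {K : XK (mkF fun x : N => e x) // smX hc (r a) K = K} →
        {K : XK (mkF fun x : N => e x) // smX hc (r a) K = K} :=
      fun K => ⟨smX hc (r g) K.1, smX_conj_fix hc hra K.2⟩
    have hσ : ∀ K, ∃ κ : k, f (bA a K) = κ • bA a (σ K) := by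
      intro K
      obtain ⟨κ, hκ⟩ := LK_line' (hbA a (σ K)) (hbA0 a (σ K)) (cjF_LK' hc (r g) hra (hbA a K))
      exact ⟨κ, Subtype.ext hκ⟩
    rw [← P179H854.trL_eq_bt hL hnk hζ (bA a) f (r g) hf hfn σ hσ]
    unfold trL
    refine Finset.sum_congr rfl fun K _ => ?_
    congr 1
    unfold P179H854.dg
    have h1 : E (tauN p hcf r hr g (b ⟨a, K⟩)) a = f (bA a K) := by
      apply Subtype.ext
      funext h
      rw [EW_apply]
      by_cases hh : (h : G ⧸ N) = a
      · rw [if_pos hh]
        change cjF (r g) (b ⟨a, K⟩ : G → k) h = cjF (r g) (bA a K : G → k) h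
        rw [hbval]
      · rw [if_neg hh]
        exact ((f (bA a K)).2.1 h fun h' => hh ((hrN a h).1 h')).symm
    rw [← h1]
    change ((Pi.basis bA).map E.symm).repr _ _ = _
    rw [Module.Basis.map_repr, LinearEquiv.trans_apply, Pi.basis_repr]
    rfl
  · rw [if_neg hcomm]
    refine Finset.sum_eq_zero fun K _ => ?_
    rw [hmono.ne, hL.zero]
    intro h
    apply hcomm
    have h1 : g * a * g⁻¹ = a := congrArg Sigma.fst h
    rw [mul_inv_eq_iff_eq_mul] at h1
    exact h1.symm

/-- **(W2.1)** the number of the simple modules in terms of the commuting pairs -/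
theorem sumS (p : ℕ) [hp : Fact p.Prime] (k : Type u) [Field k] [IsAlgClosed k] [CharP k p] :
    P179H854.SumS p k := by
  intro L ζ G _ _ N _ e hidx heN hcf hee hL hζ r hr
  exact sum_core p hidx heN hcf hee hL hζ r hr

end main

end P179H843
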