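import Vale.Agent.P179.R2.H443.SvDef
import Vale.Agent.P179.R2.H843.SolvAct2

/-!
# Transfer of the condition `SolvedBy` along `ActSub`
-/

namespace P179H843

open Subgroup P179H292 P179B P179H364

open scoped Classical

/-- **`SolvedBy` is preserved by isomorphisms and by the restriction of the action** -/
theorem SolvedBy.act {p : ℕ} {G X : Type*} [Group G] [Group X]
    (hKn : ∀ {K S : Subgroup G} {D' T' : Subgroup X}, Finite K → S ≤ normalizer (K : Set G) →
      ActSub K S D' T' → Known p K S → Known p D' T')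
    {K S : Subgroup G} (h : SolvedBy p K S) :
    ∀ {D' T' : Subgroup X}, Finite K → S ≤ normalizer (K : Set G) → ActSub K S D' T' →
      SolvedBy p D' T' := by
  induction h with
  | known h => exact fun hfin hN hact => .known (hKn hfin hN hact h)
  | @step K S a j o w hj ho hw hord hreg hii hcd _ ih =>
    intro D' T' hfin hN hact
    have hK : ∀ t ∈ S, ∀ x ∈ K, t * x * t⁻¹ ∈ K := fun t ht x hx =>
      (mem_normalizer_iff.1 (hN ht) x).1 hx
    obtain ⟨e, hee⟩ := act_spec hK hact
    have hinj : ∀ {x y : K}, (e x : X) = e y → x = y := fun h => e.injective (Subtype.ext h)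
    refine .step a j o (e ⟨w, hw⟩) hj ho (e _).2 (fun i => ?_) ?_ ?_ ?_ ?_
    · rw [← hord i]
      constructor
      · rintro ⟨d', hd', h1⟩
        refine ⟨e.symm ⟨d', hd'⟩, (e.symm _).2, ?_⟩
        have h2 : ((e (⟨w, hw⟩ ^ i) : D') : X) = e (e.symm ⟨d', hd'⟩ ^ p ^ j) := by
          rw [map_pow, map_pow, e.apply_symm_apply]
          exact h1
        exact congrArg (fun z : K => (z : G)) (hinj h2)
      · rintro ⟨d, hd, h1⟩
        refine ⟨e ⟨d, hd⟩, (e _).2, ?_⟩
        have h2 : (⟨w, hw⟩ : K) ^ i = ⟨d, hd⟩ ^ p ^ j := Subtype.ext h1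
        have h3 := congrArg e h2
        rw [map_pow, map_pow] at h3
        exact congrArg (fun z : D' => (z : X)) h3
    · rintro n' hn' ⟨d', hd', h1⟩
      obtain ⟨n, hn, hne, hc⟩ := hee n' hn'
      refine hc.1 (hreg n hn ⟨e.symm ⟨d', hd'⟩, (e.symm _).2, ?_⟩)
      have h2 := (hne ⟨w, hw⟩ ⟨n * w * n⁻¹, hK n hn w hw⟩).1 rfl
      have h3 : ((e (⟨n * w * n⁻¹, hK n hn w hw⟩ * ⟨w, hw⟩⁻¹) : D') : X) =
          e (e.symm ⟨d', hd'⟩ ^ p ^ j) := by
        rw [map_mul, map_inv, map_pow, e.apply_symm_apply]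
        change ((e ⟨n * w * n⁻¹, hK n hn w hw⟩ : D') : X) * ((e ⟨w, hw⟩ : D') : X)⁻¹ = d' ^ p ^ j
        rw [h2]
        exact h1
      exact congrArg (fun z : K => (z : G)) (hinj h3)
    · rw [card_act hact]
      calc (centralizer (D' : Set X)).relIndex T' * Nat.card K
          ≤ (centralizer (K : Set G)).relIndex S * Nat.card K :=
            Nat.mul_le_mul_right _ (relIndex_act_fin hfin hK hact)
        _ < _ := hii
        _ ≤ _ := Nat.mul_le_mul_left _ (card_reg_act hfin hK hact)
    · rw [card_act hact, card_pow_act (p ^ j) hact]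
      exact hcd
    · intro F' hF' hq
      obtain ⟨F, hFS, hFq, hF⟩ := comm_act hK hact hF' hq
      have h1 : (⁅F, K⁆ : Subgroup G) ≤ K := by
        rw [commutator_le]
        intro f hf x hx
        rw [commutatorElement_def]
        exact mul_mem (hK f (hFS hf) x hx) (inv_mem hx)
      refine ih F hFS hFq ?_ inf_le_right hF
      exact Finite.of_injective (fun x : (⁅F, K⁆ : Subgroup G) => (⟨x, h1 x.2⟩ : K))
        fun x y hxy => Subtype.ext (congrArg (fun z : K => (z : G)) hxy)

/-- **`SolvedBy` is preserved by isomorphisms and by the restriction of the action** -/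
theorem solvedBy_act {p : ℕ} {G X : Type*} [Group G] [Group X] {K S : Subgroup G}
    {D' T' : Subgroup X} (hfin : Finite K) (hN : S ≤ normalizer (K : Set G))
    (hact : ActSub K S D' T') (h : SolvedBy p K S) :
    Finite D' ∧ T' ≤ normalizer (D' : Set X) ∧ SolvedBy p D' T' := by
  refine ⟨?_, norm_act hN hact, SolvedBy.act (fun h1 h2 h3 h4 => known_act_fin h1 h2 h3 h4) h hfin
    hN hact⟩
  obtain ⟨e, -⟩ := hact
  exact Finite.of_equiv _ e.toEquiv

end P179H843
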