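import Vale.Agent.P179.R2.H452.Inj
import Vale.Agent.P179.R2.H843.Inj3
import Vale.Agent.P179.R2.H292.Hyp

/-!
# Watanabe's theorem from the core lemma and the injectivity of the transfer
-/

namespace P179H843

open Subgroup Finset P179H524 P179C P179A P179P P179Y P179H12 P179H452

open scoped Classical

universe u

/-- **the injectivity of the transfer** -/
def SurStmt (p : ℕ) (k : Type u) [Field k] : Prop :=
  ∀ (G : Type) [Group G] [Fintype G] (B : MonoidAlgebra k G) (D : Subgroup G)
    (l : (G → k) → k), IsBlock B → BP p D l → IsPGroup p D → D ≤ centralizer (D : Set G) →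
    ¬ p ∣ (centralizer (D : Set G)).relIndex (stabT D l) →
    (∀ z : G → k, IsCF z → l z = centralChar B (mkF z)) →
    ∀ x ∈ D, (∀ t ∈ stabT D l, t * x * t⁻¹ = x) →
    ∀ f : G → k, InvOn (centralizer ({x} : Set G)) f →
      conv (eH (centralizer ({x} : Set G)) l) f = f →
      conv (fun g => B.coeff g) (trG (centralizer ({x} : Set G)) f) = 0 → f = 0

variable {p : ℕ} [hp : Fact p.Prime] {k : Type u} [Field k] [IsAlgClosed k] [CharP k p]

/-- **Watanabe's theorem** -/
theorem watX_of (hcore : CoreE p k) (hsur : SurStmt p k) : P179H292.WatX p k := by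
  intro G _ _ B D l hB hl hD hab hT hlz x hx hxT b' hb' hlb'
  have hCH : centralizer (D : Set G) ≤ centralizer ({x} : Set G) := cent_le_of_mem hx
  have hm : MulH (centralizer ({x} : Set G)) l := BP.mulH hl hD hab hCH
  have he : eH (centralizer ({x} : Set G)) l = bF (centralizer ({x} : Set G)) b' := eH_eq hb' hlb'
  apply le_antisymm
  · refine numSimple_le_of_inj p hB hb' fun z hz hBz h0 => ?_
    refine inj_of hcore hl hD hab hT hB hlz hx hxT hz hBz fun g hg => ?_
    rw [he]
    exact h0 g (mem_centralizer_singleton_iff.2 hg)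
  · refine numSimple_le_of_sur p hB hb' fun f hf hbf _ h0 => ?_
    exact hsur G B D l hB hl hD hab hT hlz x hx hxT f hf (by rw [he, hbf]) h0

end P179H843
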